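import Mathlib

/-! Geometry of regular trees. -/

open Finset

namespace Vale.Agent.Lib.P161

variable {V : Type*} {G : SimpleGraph V}

/-- In a tree the distances from a vertex to the two ends of an edge differ by exactly one. -/
theorem dist_adj (hT : G.IsTree) {o x y : V} (h : G.Adj x y) :
    G.dist o y = G.dist o x + 1 ∨ G.dist o x = G.dist o y + 1 := by
  obtain ⟨p, hp, hpl⟩ := hT.1.exists_path_of_dist o x
  obtain ⟨q, hq, hql⟩ := hT.1.exists_path_of_dist o y
  by_cases hy : y ∈ p.support
  · right
    have := hT.2.path_concat hq hp h.symm hy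
    rw [← hpl, ← hql, this]
    simp
  · left
    have : q = p.concat h :=
      Subtype.mk.inj <| (hT.2.subsingleton_path o y).elim ⟨q, hq⟩ ⟨_, hp.concat hy h⟩
    rw [← hpl, ← hql, this]
    simp

theorem dist_le_succ_of_adj (hT : G.IsTree) {o x y : V} (h : G.Adj x y) :
    G.dist o y ≤ G.dist o x + 1 := by
  rcases dist_adj hT (o := o) h with h1 | h1 <;> omega

/-- Each vertex other than `o` has a neighbour closer to `o`. -/
theorem exists_parent (hT : G.IsTree) {o x : V} (h : x ≠ o) :
    ∃ p, G.Adj x p ∧ G.dist o p + 1 = G.dist o x := by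
  obtain ⟨w, hw⟩ := hT.1.exists_walk_length_eq_dist x o
  cases w with
  | nil => exact absurd rfl h
  | @cons _ p _ hadj q =>
    refine ⟨p, hadj, ?_⟩
    have h1 : G.dist p o ≤ q.length := SimpleGraph.dist_le q
    have h2 : (SimpleGraph.Walk.cons hadj q).length = q.length + 1 := by simp
    rw [h2] at hw
    rw [SimpleGraph.dist_comm (u := o) (v := p), SimpleGraph.dist_comm (u := o) (v := x)]
    have h3 := dist_adj hT (o := o) hadj
    rw [SimpleGraph.dist_comm (u := o) (v := p), SimpleGraph.dist_comm (u := o) (v := x)] at h3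
    omega

private theorem not_mem_support_of_dist_lt {o x p : V} (q : G.Walk o p)
    (hq : q.length < G.dist o x) : x ∉ q.support := by
  classical
  intro hx
  have h1 : G.dist o x ≤ (q.takeUntil x hx).length := SimpleGraph.dist_le _
  have h2 := q.length_takeUntil_le_length hx
  omega

/-- The closer neighbour is unique. -/
theorem parent_unique (hT : G.IsTree) {o x p q : V} (hp : G.Adj x p) (hq : G.Adj x q)
    (hdp : G.dist o p + 1 = G.dist o x) (hdq : G.dist o q + 1 = G.dist o x) : p = q := by
  obtain ⟨r, hr, hrl⟩ := hT.1.exists_path_of_dist o p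
  obtain ⟨s, hs, hsl⟩ := hT.1.exists_path_of_dist o q
  have hxr : x ∉ r.support := not_mem_support_of_dist_lt r (by omega)
  have hxs : x ∉ s.support := not_mem_support_of_dist_lt s (by omega)
  have h1 : r.concat hp.symm = s.concat hq.symm :=
    Subtype.mk.inj <| (hT.2.subsingleton_path o x).elim
      ⟨_, hr.concat hxr hp.symm⟩ ⟨_, hs.concat hxs hq.symm⟩
  exact (SimpleGraph.Walk.concat_inj h1).1

/-- An edge with ends on the two sides of the edge `u x` is the edge `u x`. -/
theorem edge_cut (hT : G.IsTree) {u x a b : V} (hux : G.Adj u x) (hab : G.Adj a b)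
    (ha : G.dist a u < G.dist a x) (hb : G.dist b x < G.dist b u) : a = u ∧ b = x := by
  obtain ⟨w₁, hw₁⟩ := hT.1.exists_walk_length_eq_dist a u
  obtain ⟨w₂, hw₂⟩ := hT.1.exists_walk_length_eq_dist b x
  have hx₁ : x ∉ w₁.support := not_mem_support_of_dist_lt w₁ (by omega)
  have hu₂ : u ∉ w₂.support := not_mem_support_of_dist_lt w₂ (by omega)
  have hbr : G.IsBridge s(u, x) := SimpleGraph.isAcyclic_iff_forall_adj_isBridge.1 hT.2 hux
  have hall := SimpleGraph.isBridge_iff_forall_walk_mem_edges.1 hbr
    (w₁.reverse.append (SimpleGraph.Walk.cons hab w₂))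
  simp only [SimpleGraph.Walk.edges_append, SimpleGraph.Walk.edges_cons,
    SimpleGraph.Walk.edges_reverse, List.mem_append, List.mem_reverse, List.mem_cons] at hall
  rcases hall with h | h | h
  · exact absurd (w₁.snd_mem_support_of_mem_edges h) hx₁
  · rcases Sym2.eq_iff.1 h with ⟨h1, h2⟩ | ⟨h1, h2⟩
    · exact ⟨h1.symm, h2.symm⟩
    · subst h1 h2
      simp at ha
  · exact absurd (w₂.fst_mem_support_of_mem_edges h) hu₂

/-- Crossing bound: a walk from the `x` side of the edge `x y` to its `y` side is at least as long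
as the two geodesics to the ends of the edge plus one. -/
theorem walk_cross (hT : G.IsTree) {x y : V} (hxy : G.Adj x y) :
    ∀ {a v : V} (q : G.Walk a v), G.dist a x + 1 = G.dist a y → G.dist v y + 1 = G.dist v x →
      G.dist a x + 1 + G.dist y v ≤ q.length := by
  intro a v q
  induction q with
  | nil => intro h1 h2; omega
  | @cons a b v hab q ih =>
    intro h1 h2
    have hlen : (SimpleGraph.Walk.cons hab q).length = q.length + 1 := by simp
    rw [hlen]
    rcases dist_adj hT (o := b) hxy with h3 | h3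
    · have h4 := ih h3.symm h2
      have h5 : G.dist a x ≤ G.dist a b + G.dist b x := hT.1.dist_triangle
      have h6 : G.dist a b = 1 := SimpleGraph.dist_eq_one_iff_adj.2 hab
      omega
    · obtain ⟨rfl, rfl⟩ := edge_cut hT hxy hab (by omega) (by omega)
      have h7 : G.dist b v ≤ q.length := SimpleGraph.dist_le q
      simp
      omega

/-- A walk from the `x` side of the edge `x y` to its `y` side goes through `y`. -/
theorem mem_support_cross (hT : G.IsTree) {x y : V} (hxy : G.Adj x y) :
    ∀ {a v : V} (q : G.Walk a v), G.dist a x + 1 = G.dist a y → G.dist v y + 1 = G.dist v x →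
      y ∈ q.support := by
  intro a v q
  induction q with
  | nil => intro h1 h2; omega
  | @cons a b v hab q ih =>
    intro h1 h2
    simp only [SimpleGraph.Walk.support_cons, List.mem_cons]
    rcases dist_adj hT (o := b) hxy with h3 | h3
    · exact Or.inr (ih h3.symm h2)
    · obtain ⟨rfl, rfl⟩ := edge_cut hT hxy hab (by omega) (by omega)
      exact Or.inr q.start_mem_support

/-- Distances add across an edge: if `o` is on the `x` side of the edge `x y`, and `v` on the `y`
side, then the distance from `o` to `v` passes through `y`. -/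
theorem dist_add_across (hT : G.IsTree) {o v x y : V} (hxy : G.Adj x y)
    (ho : G.dist o x + 1 = G.dist o y) (hv : G.dist v y + 1 = G.dist v x) :
    G.dist o v = G.dist o y + G.dist y v := by
  apply le_antisymm hT.1.dist_triangle
  obtain ⟨q, hq⟩ := hT.1.exists_walk_length_eq_dist o v
  have := walk_cross hT hxy q ho hv
  omega

variable [G.LocallyFinite]

/-- Balls in a locally finite graph. -/
noncomputable def ball (G : SimpleGraph V) [G.LocallyFinite] [DecidableEq V] (o : V) : ℕ → Finset V
  | 0 => {o}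
  | n + 1 => ball G o n ∪ (ball G o n).biUnion (fun x => G.neighborFinset x)

variable [DecidableEq V]

theorem mem_ball (hT : G.IsTree) {o v : V} {n : ℕ} : v ∈ ball G o n ↔ G.dist o v ≤ n := by
  induction n generalizing v with
  | zero =>
    simp only [ball, Finset.mem_singleton, Nat.le_zero]
    rw [hT.1.dist_eq_zero_iff]
    exact eq_comm
  | succ n ih =>
    simp only [ball, Finset.mem_union, Finset.mem_biUnion, SimpleGraph.mem_neighborFinset]
    constructor
    · rintro (h | ⟨x, hx, hxv⟩)
      · have := ih.1 h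
        omega
      · have h1 := ih.1 hx
        have h2 := dist_le_succ_of_adj hT (o := o) hxv
        omega
    · intro h
      by_cases hn : G.dist o v ≤ n
      · exact Or.inl (ih.2 hn)
      · have hvo : v ≠ o := by
          rintro rfl
          simp at hn
        obtain ⟨p, hp, hd⟩ := exists_parent hT hvo
        exact Or.inr ⟨p, ih.2 (by omega), hp.symm⟩

theorem card_ball_le {d : ℕ} (hreg : G.IsRegularOfDegree d) (o : V) (n : ℕ) :
    (ball G o n).card ≤ (d + 1) ^ n := by
  induction n with
  | zero => simp [ball]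
  | succ n ih =>
    simp only [ball]
    have h1 : ((ball G o n).biUnion (fun x => G.neighborFinset x)).card ≤
        (ball G o n).card * d := by
      apply Finset.card_biUnion_le_card_mul
      intro x _
      rw [SimpleGraph.card_neighborFinset_eq_degree, hreg x]
    have h2 := Finset.card_union_le (ball G o n) ((ball G o n).biUnion (fun x => G.neighborFinset x))
    calc _ ≤ (ball G o n).card + (ball G o n).card * d := by omega
      _ = (ball G o n).card * (d + 1) := by ring
      _ ≤ (d + 1) ^ n * (d + 1) := Nat.mul_le_mul_right _ ih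
      _ = (d + 1) ^ (n + 1) := by ring

/-- Size of a sphere. -/
theorem card_sphere_le (hT : G.IsTree) {d : ℕ} (hd : 2 ≤ d) (hreg : G.IsRegularOfDegree d) (o : V)
    (n : ℕ) : ((ball G o n).filter (fun v => G.dist o v = n)).card ≤ 2 * (d - 1) ^ n := by
  -- the inductive step from a sphere of positive radius
  have step : ∀ m, 1 ≤ m → ((ball G o (m + 1)).filter (fun v => G.dist o v = m + 1)).card ≤
      ((ball G o m).filter (fun v => G.dist o v = m)).card * (d - 1) := by
    intro m hm
    have hsub : (ball G o (m + 1)).filter (fun v => G.dist o v = m + 1) ⊆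
        ((ball G o m).filter (fun v => G.dist o v = m)).biUnion
          (fun x => (G.neighborFinset x).filter (fun y => G.dist o y = m + 1)) := by
      intro v hv
      rw [Finset.mem_filter] at hv
      have hvo : v ≠ o := by
        rintro rfl
        have := hv.2
        simp at this
      obtain ⟨p, hp, hd'⟩ := exists_parent hT hvo
      simp only [Finset.mem_biUnion, Finset.mem_filter, SimpleGraph.mem_neighborFinset]
      exact ⟨p, ⟨mem_ball hT |>.2 (by omega), by omega⟩, hp.symm, hv.2⟩
    refine (Finset.card_le_card hsub).trans (Finset.card_biUnion_le_card_mul _ _ _ ?_)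
    intro x hx
    rw [Finset.mem_filter] at hx
    have hxo : x ≠ o := by
      rintro rfl
      have := hx.2
      simp at this
      omega
    obtain ⟨p, hp, hd'⟩ := exists_parent hT hxo
    have hpn : p ∈ G.neighborFinset x := by simpa using hp
    have hsub' : (G.neighborFinset x).filter (fun y => G.dist o y = m + 1) ⊆
        (G.neighborFinset x).erase p := by
      intro y hy
      rw [Finset.mem_filter] at hy
      refine Finset.mem_erase.2 ⟨?_, hy.1⟩
      rintro rfl
      omega
    calc _ ≤ ((G.neighborFinset x).erase p).card := Finset.card_le_card hsub'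
      _ = d - 1 := by
        rw [Finset.card_erase_of_mem hpn, SimpleGraph.card_neighborFinset_eq_degree, hreg x]
  induction n with
  | zero =>
    have : (ball G o 0).filter (fun v => G.dist o v = 0) ⊆ {o} := by
      intro v hv
      rw [Finset.mem_filter] at hv
      simpa [ball] using hv.1
    calc _ ≤ ({o} : Finset V).card := Finset.card_le_card this
      _ = 1 := by simp
      _ ≤ 2 * (d - 1) ^ 0 := by simp
  | succ n ih =>
    rcases Nat.eq_zero_or_pos n with rfl | hn
    · have hsub : (ball G o (0 + 1)).filter (fun v => G.dist o v = 0 + 1) ⊆ G.neighborFinset o := by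
        intro v hv
        rw [Finset.mem_filter] at hv
        have : G.Adj o v := SimpleGraph.dist_eq_one_iff_adj.1 hv.2
        simpa using this
      calc _ ≤ (G.neighborFinset o).card := Finset.card_le_card hsub
        _ = d := by rw [SimpleGraph.card_neighborFinset_eq_degree, hreg o]
        _ ≤ 2 * (d - 1) ^ (0 + 1) := by
          simp only [zero_add, pow_one]
          omega
    · calc _ ≤ ((ball G o n).filter (fun v => G.dist o v = n)).card * (d - 1) := step n hn
        _ ≤ 2 * (d - 1) ^ n * (d - 1) := Nat.mul_le_mul_right _ ih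
        _ = 2 * (d - 1) ^ (n + 1) := by ring

/-- A finite vertex set containing the neighbour towards `r` of each of its vertices. -/
def Star (G : SimpleGraph V) (r : V) (S : Finset V) : Prop :=
  ∀ x ∈ S, ∀ p, G.Adj x p → G.dist r p + 1 = G.dist r x → p ∈ S

/-- Balls are convex. -/
theorem star_ball (hT : G.IsTree) {o r : V} {R : ℕ} (hr : r ∈ ball G o R) :
    Star G r (ball G o R) := by
  intro x hx p hp hd
  rw [mem_ball hT] at hr hx ⊢
  rcases dist_adj hT (o := o) hp with h | h
  · have h1 : G.dist o r = G.dist o p + G.dist p r := by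
      exact dist_add_across hT hp h.symm hd
    omega
  · omega

/-- Finite connected sets are star shaped. -/
theorem star_of_connected (hT : G.IsTree) {D : Finset V} (hD : (G.induce (D : Set V)).Connected)
    {r : V} (hr : r ∈ D) : Star G r D := by
  intro x hx p hp hd
  have hxD : x ∈ (D : Set V) := hx
  have hrD : r ∈ (D : Set V) := hr
  obtain ⟨w⟩ := hD.preconnected ⟨x, hxD⟩ ⟨r, hrD⟩
  let w' := w.map (SimpleGraph.Embedding.induce (D : Set V)).toHom
  have h1 : G.dist x x + 1 = G.dist x p := by
    have : G.dist x p = 1 := SimpleGraph.dist_eq_one_iff_adj.2 hp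
    simp [this]
  have h2 : G.dist r p + 1 = G.dist r x := hd
  have hm := mem_support_cross hT hp w' h1 h2
  simp only [w', SimpleGraph.Walk.support_map, List.mem_map] at hm
  obtain ⟨z, _, hz⟩ := hm
  have : z.1 = p := hz
  rw [← this]
  exact z.2

/-! ### The convolution bound -/

/-- Sum of a power of the distance to `u` over the neighbours of a vertex `x ≠ u`. -/
private theorem sum_neighbors_ne (hT : G.IsTree) {d : ℕ} (hd : 1 ≤ d) (hreg : G.IsRegularOfDegree d)
    (a : ℝ) {u x p : V} (hp : G.Adj x p) (hdp : G.dist u p + 1 = G.dist u x) :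
    ∑ y ∈ G.neighborFinset x, a ^ G.dist u y =
      a ^ G.dist u p + ((d : ℝ) - 1) * a ^ (G.dist u p + 2) := by
  have hpn : p ∈ G.neighborFinset x := by simpa using hp
  rw [← Finset.add_sum_erase _ _ hpn]
  congr 1
  have hcard : ((G.neighborFinset x).erase p).card = d - 1 := by
    rw [Finset.card_erase_of_mem hpn, SimpleGraph.card_neighborFinset_eq_degree, hreg x]
  have hall : ∀ y ∈ (G.neighborFinset x).erase p, a ^ G.dist u y = a ^ (G.dist u p + 2) := by
    intro y hy
    rw [Finset.mem_erase] at hy
    have hy2 : G.Adj x y := by simpa using hy.2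
    congr 1
    rcases dist_adj hT (o := u) hy2 with h | h
    · omega
    · exact absurd (parent_unique hT hy2 hp (by omega) hdp) hy.1
  rw [Finset.sum_congr rfl hall, Finset.sum_const, hcard, nsmul_eq_mul]
  have : ((d - 1 : ℕ) : ℝ) = (d : ℝ) - 1 := by
    rw [Nat.cast_sub hd]
    simp
  rw [this]

/-- Sum of a power of the distance to `x` over the neighbours of `x`. -/
private theorem sum_neighbors_self {d : ℕ} (hreg : G.IsRegularOfDegree d) (a : ℝ) (x : V) :
    ∑ y ∈ G.neighborFinset x, a ^ G.dist x y = (d : ℝ) * a := by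
  have hall : ∀ y ∈ G.neighborFinset x, a ^ G.dist x y = a := by
    intro y hy
    have : G.Adj x y := by simpa using hy
    rw [SimpleGraph.dist_eq_one_iff_adj.2 this, pow_one]
  rw [Finset.sum_congr rfl hall, Finset.sum_const, SimpleGraph.card_neighborFinset_eq_degree,
    hreg x, nsmul_eq_mul]

/-- Maximum principle on a locally finite tree. -/
private theorem max_principle (hT : G.IsTree) {κ c E : ℝ} (hκ : 0 ≤ κ) (hc : 0 < c) (hE : 0 < E)
    (A : ℝ) (o : V) (f g : V → ℝ) (hg : ∀ x, 0 < g x)
    (hf : ∀ x, A * f x - κ * ∑ y ∈ G.neighborFinset x, f y ≤ E * g x)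
    (hgg : ∀ x, c * g x ≤ A * g x - κ * ∑ y ∈ G.neighborFinset x, g y)
    (hdecay : ∀ ε : ℝ, 0 < ε → ∃ R : ℕ, ∀ x, R ≤ G.dist o x → f x ≤ ε * g x) (x : V) :
    f x ≤ E / c * g x := by
  by_contra hcon
  push Not at hcon
  have hCpos : 0 < E / c := div_pos hE hc
  set q := f x / g x with hq
  have hqC : E / c < q := by
    rw [hq, lt_div_iff₀ (hg x)]
    exact hcon
  have hqpos : 0 < q := hCpos.trans hqC
  obtain ⟨R, hR⟩ := hdecay q hqpos
  set B := ball G o (max R (G.dist o x) + 1) with hB
  have hxB : x ∈ B := by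
    rw [hB, mem_ball hT]
    have := le_max_right R (G.dist o x)
    omega
  obtain ⟨x₀, hx₀, hmax⟩ := Finset.exists_max_image B (fun y => f y / g y) ⟨x, hxB⟩
  set m := f x₀ / g x₀ with hm
  have hmq : q ≤ m := hmax x hxB
  have hmpos : 0 < m := hqpos.trans_le hmq
  have hle : ∀ y, f y ≤ m * g y := by
    intro y
    by_cases hy : y ∈ B
    · have := hmax y hy
      rwa [div_le_iff₀ (hg y)] at this
    · have h1 : R ≤ G.dist o y := by
        rw [hB, mem_ball hT] at hy
        have := le_max_left R (G.dist o x)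
        omega
      have h2 := hR y h1
      exact h2.trans (mul_le_mul_of_nonneg_right hmq (hg y).le)
  have hx₀eq : f x₀ = m * g x₀ := by
    rw [hm]
    field_simp [(hg x₀).ne']
  have h3 : ∑ y ∈ G.neighborFinset x₀, f y ≤ m * ∑ y ∈ G.neighborFinset x₀, g y := by
    rw [Finset.mul_sum]
    exact Finset.sum_le_sum (fun y _ => hle y)
  have h4 := hf x₀
  have h5 := hgg x₀
  have h6 : m * (c * g x₀) ≤ E * g x₀ := by
    have h7 : κ * ∑ y ∈ G.neighborFinset x₀, f y ≤
        κ * (m * ∑ y ∈ G.neighborFinset x₀, g y) := mul_le_mul_of_nonneg_left h3 hκ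
    have h8 := mul_le_mul_of_nonneg_left h5 hmpos.le
    rw [hx₀eq] at h4
    nlinarith
  have h9 : m * c ≤ E := by
    have : (m * c) * g x₀ ≤ E * g x₀ := by nlinarith
    exact le_of_mul_le_mul_right this (hg x₀)
  have h10 : m ≤ E / c := by
    rw [le_div_iff₀ hc]
    exact h9
  linarith

/-- Convolution bound: a tree sum of `κ^dist(x,u) ρ^dist(u,o)` over a finite set is dominated by
`ρ^dist(x,o)`, with a constant not depending on the set. -/
theorem conv_bound (hT : G.IsTree) {d : ℕ} (hd : 2 ≤ d) (hreg : G.IsRegularOfDegree d)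
    {κ ρ : ℝ} (hκ : 0 < κ) (hκρ : κ < ρ) (hρ : ρ < 1) (hdκρ : ((d : ℝ) - 1) * κ * ρ < 1)
    (o x : V) (S : Finset V) :
    ∑ u ∈ S, κ ^ G.dist x u * ρ ^ G.dist u o ≤
      (1 - κ ^ 2) / ((1 - κ / ρ) * (1 - ((d : ℝ) - 1) * κ * ρ)) * ρ ^ G.dist x o := by
  have hρpos : 0 < ρ := hκ.trans hκρ
  have hκ1 : κ < 1 := hκρ.trans hρ
  have hd1 : 1 ≤ d := by omega
  have hc1 : 0 < 1 - κ / ρ := by
    have : κ / ρ < 1 := (div_lt_one hρpos).2 hκρ
    linarith
  have hc2 : 0 < 1 - ((d : ℝ) - 1) * κ * ρ := by linarith
  have hc : 0 < (1 - κ / ρ) * (1 - ((d : ℝ) - 1) * κ * ρ) := mul_pos hc1 hc2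
  have hE : 0 < 1 - κ ^ 2 := by nlinarith
  set A : ℝ := 1 + ((d : ℝ) - 1) * κ ^ 2 with hA
  set f : V → ℝ := fun x => ∑ u ∈ S, κ ^ G.dist x u * ρ ^ G.dist u o with hf
  set g : V → ℝ := fun x => ρ ^ G.dist x o with hg
  have hgpos : ∀ x, 0 < g x := fun x => pow_pos hρpos _
  -- action on the kernel
  have hkernel : ∀ x u : V, A * κ ^ G.dist x u - κ * ∑ y ∈ G.neighborFinset x, κ ^ G.dist y u =
      if x = u then 1 - κ ^ 2 else 0 := by
    intro x u
    by_cases hxu : x = u
    · subst hxu
      have h1 : ∑ y ∈ G.neighborFinset x, κ ^ G.dist y x = (d : ℝ) * κ := by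
        rw [← sum_neighbors_self hreg κ x]
        exact Finset.sum_congr rfl (fun y _ => by rw [SimpleGraph.dist_comm])
      rw [h1, if_pos rfl]
      simp only [SimpleGraph.dist_self, pow_zero]
      rw [hA]
      ring
    · obtain ⟨p, hp, hdp⟩ := exists_parent hT (o := u) (x := x) hxu
      have h1 : ∑ y ∈ G.neighborFinset x, κ ^ G.dist y u =
          κ ^ G.dist u p + ((d : ℝ) - 1) * κ ^ (G.dist u p + 2) := by
        rw [← sum_neighbors_ne hT hd1 hreg κ hp hdp]
        exact Finset.sum_congr rfl (fun y _ => by rw [SimpleGraph.dist_comm])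
      rw [h1, if_neg hxu, SimpleGraph.dist_comm (u := x) (v := u), ← hdp, hA]
      ring
  have hfA : ∀ x, A * f x - κ * ∑ y ∈ G.neighborFinset x, f y ≤ (1 - κ ^ 2) * g x := by
    intro x
    have h1 : A * f x - κ * ∑ y ∈ G.neighborFinset x, f y =
        ∑ u ∈ S, (A * κ ^ G.dist x u - κ * ∑ y ∈ G.neighborFinset x, κ ^ G.dist y u) *
          ρ ^ G.dist u o := by
      simp only [hf]
      rw [Finset.sum_comm, Finset.mul_sum, Finset.mul_sum, ← Finset.sum_sub_distrib]
      refine Finset.sum_congr rfl (fun u _ => ?_)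
      rw [← Finset.sum_mul]
      ring
    rw [h1]
    simp only [hkernel]
    have h2 : ∑ u ∈ S, (if x = u then 1 - κ ^ 2 else 0) * ρ ^ G.dist u o =
        if x ∈ S then (1 - κ ^ 2) * g x else 0 := by
      simp [ite_mul, hg, Finset.sum_ite_eq]
    rw [h2]
    split_ifs
    · exact le_rfl
    · exact (mul_pos hE (hgpos x)).le
  have hgA : ∀ x, (1 - κ / ρ) * (1 - ((d : ℝ) - 1) * κ * ρ) * g x ≤
      A * g x - κ * ∑ y ∈ G.neighborFinset x, g y := by
    intro x
    simp only [hg]
    by_cases hxo : x = o
    · subst hxo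
      have h1 : ∑ y ∈ G.neighborFinset x, ρ ^ G.dist y x = (d : ℝ) * ρ := by
        rw [← sum_neighbors_self hreg ρ x]
        exact Finset.sum_congr rfl (fun y _ => by rw [SimpleGraph.dist_comm])
      rw [h1]
      simp only [SimpleGraph.dist_self, pow_zero, mul_one]
      rw [hA]
      have h2 : κ * (1 / ρ - ρ) ≥ 0 := by
        apply mul_nonneg hκ.le
        have : ρ * ρ ≤ 1 := by nlinarith
        have h3 : ρ ≤ 1 / ρ := by
          rw [le_div_iff₀ hρpos]
          exact this
        linarith
      have h3 : (1 - κ / ρ) * (1 - ((d : ℝ) - 1) * κ * ρ) =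
          1 + ((d : ℝ) - 1) * κ ^ 2 - κ * (1 / ρ) - ((d : ℝ) - 1) * κ * ρ := by
        field_simp
        ring
      rw [h3]
      nlinarith
    · obtain ⟨p, hp, hdp⟩ := exists_parent hT (o := o) (x := x) hxo
      have h1 : ∑ y ∈ G.neighborFinset x, ρ ^ G.dist y o =
          ρ ^ G.dist o p + ((d : ℝ) - 1) * ρ ^ (G.dist o p + 2) := by
        rw [← sum_neighbors_ne hT hd1 hreg ρ hp hdp]
        exact Finset.sum_congr rfl (fun y _ => by rw [SimpleGraph.dist_comm])
      rw [h1, SimpleGraph.dist_comm (u := x) (v := o), ← hdp, hA]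
      have h3 : (1 - κ / ρ) * (1 - ((d : ℝ) - 1) * κ * ρ) * ρ ^ (G.dist o p + 1) =
          (1 + ((d : ℝ) - 1) * κ ^ 2) * ρ ^ (G.dist o p + 1) -
            κ * (ρ ^ G.dist o p + ((d : ℝ) - 1) * ρ ^ (G.dist o p + 2)) := by
        field_simp
        ring
      rw [h3]
  -- decay at infinity
  have hdecay : ∀ ε : ℝ, 0 < ε → ∃ R : ℕ, ∀ x, R ≤ G.dist o x → f x ≤ ε * g x := by
    intro ε hε
    set B : ℝ := ∑ u ∈ S, ρ ^ G.dist u o / κ ^ G.dist u o with hB
    have hB0 : 0 ≤ B := Finset.sum_nonneg (fun u _ => by positivity)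
    have hr : κ / ρ < 1 := (div_lt_one hρpos).2 hκρ
    have hr0 : 0 ≤ κ / ρ := by positivity
    obtain ⟨R, hR⟩ := exists_pow_lt_of_lt_one (show 0 < ε / (B + 1) by positivity) hr
    refine ⟨R, fun x hx => ?_⟩
    have hbound : ∀ u ∈ S, κ ^ G.dist x u * ρ ^ G.dist u o ≤
        κ ^ G.dist x o * (ρ ^ G.dist u o / κ ^ G.dist u o) := by
      intro u _
      have h1 : G.dist x o ≤ G.dist x u + G.dist u o := hT.1.dist_triangle
      have h2 : κ ^ (G.dist x u + G.dist u o) ≤ κ ^ G.dist x o :=
        pow_le_pow_of_le_one hκ.le hκ1.le h1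
      rw [pow_add] at h2
      have h3 : 0 < κ ^ G.dist u o := pow_pos hκ _
      have h4 : 0 ≤ ρ ^ G.dist u o := (pow_pos hρpos _).le
      calc κ ^ G.dist x u * ρ ^ G.dist u o
          = (κ ^ G.dist x u * κ ^ G.dist u o) * (ρ ^ G.dist u o / κ ^ G.dist u o) := by
            field_simp
        _ ≤ κ ^ G.dist x o * (ρ ^ G.dist u o / κ ^ G.dist u o) :=
            mul_le_mul_of_nonneg_right h2 (by positivity)
    have h1 : f x ≤ κ ^ G.dist x o * B := by
      simp only [hf, hB, Finset.mul_sum]
      exact Finset.sum_le_sum hbound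
    have h2 : (κ / ρ) ^ G.dist o x ≤ (κ / ρ) ^ R := pow_le_pow_of_le_one hr0 hr.le hx
    have h3 : κ ^ G.dist x o = (κ / ρ) ^ G.dist o x * ρ ^ G.dist x o := by
      rw [SimpleGraph.dist_comm (u := o) (v := x), div_pow]
      field_simp
    have hgx : 0 < ρ ^ G.dist x o := pow_pos hρpos _
    calc f x ≤ κ ^ G.dist x o * B := h1
      _ = (κ / ρ) ^ G.dist o x * B * ρ ^ G.dist x o := by rw [h3]; ring
      _ ≤ (ε / (B + 1)) * (B + 1) * ρ ^ G.dist x o := by
          apply mul_le_mul_of_nonneg_right _ hgx.le
          have h4 : (κ / ρ) ^ G.dist o x ≤ ε / (B + 1) := h2.trans hR.le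
          have h5 : 0 ≤ (κ / ρ) ^ G.dist o x := by positivity
          nlinarith
      _ = ε * g x := by
          simp only [hg]
          field_simp
  exact max_principle hT hκ.le hc hE A o f g hgpos hfA hgA hdecay x

end Vale.Agent.Lib.P161
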