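import Vale.Agent.Lib.P161.Dyn
import Vale.Agent.Lib.P161.Tree

/-! Row vector bounds and the first order expansion of the Euler flow. -/

open Finset
open scoped Classical

noncomputable section

namespace Vale.Agent.Lib.P161

variable {V : Type*} {G : SimpleGraph V} {β : ℝ}

/-- The `ℓ¹` norm over `S`. -/
def nrm (S : Finset V) (w : V → ℝ) : ℝ := ∑ v ∈ S, |w v|

theorem nrm_nonneg (S : Finset V) (w : V → ℝ) : 0 ≤ nrm S w :=
  Finset.sum_nonneg fun _ _ => abs_nonneg _

theorem one_add_pow_le_exp {a : ℝ} (ha : 0 ≤ a) (n : ℕ) : (1 + a) ^ n ≤ Real.exp (n * a) := by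
  rw [Real.exp_nat_mul]
  refine pow_le_pow_left₀ (by linarith) ?_ n
  linarith [Real.add_one_le_exp a]

section row

variable {S : Finset V} {δ : ℝ} {ξ : ℕ → V → ℝ} {r : V} {κ ρ C : ℝ}

/-- Weighted bound for the row vector. -/
theorem rowB_bound (hδ : 0 ≤ δ) (hρ : 0 ≤ ρ)
    (hcov : ∀ x u v, |cov G β S x u v| ≤ κ ^ G.dist u v)
    (hconv : ∀ v, ∑ u ∈ S, κ ^ G.dist v u * ρ ^ G.dist u r ≤ C * ρ ^ G.dist v r) :
    ∀ (n i : ℕ) (x : V → ℝ) (v : V), |rowB G β S δ ξ r i n x v| ≤ (1 + δ * C) ^ n * ρ ^ G.dist v r := by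
  intro n
  induction n with
  | zero =>
    intro i x v
    simp only [rowB, pow_zero, one_mul]
    by_cases h : v = r
    · subst h; simp
    · simp only [if_neg h, abs_zero]
      positivity
  | succ n ih =>
    intro i x v
    simp only [rowB]
    set y := eulerStep G β S δ (ξ i) x
    have h1 := ih (i + 1) y v
    have h2 : |∑ u ∈ S, rowB G β S δ ξ r (i + 1) n y u * cov G β S x u v| ≤
        (1 + δ * C) ^ n * (C * ρ ^ G.dist v r) := by
      have hB0 : 0 ≤ (1 + δ * C) ^ n := by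
        have := (abs_nonneg _).trans (ih (i + 1) y r)
        simp only [SimpleGraph.dist_self, pow_zero, mul_one] at this
        exact this
      calc |∑ u ∈ S, rowB G β S δ ξ r (i + 1) n y u * cov G β S x u v|
          ≤ ∑ u ∈ S, |rowB G β S δ ξ r (i + 1) n y u * cov G β S x u v| :=
            Finset.abs_sum_le_sum_abs _ _
        _ ≤ ∑ u ∈ S, (1 + δ * C) ^ n * (κ ^ G.dist v u * ρ ^ G.dist u r) := by
            refine Finset.sum_le_sum fun u _ => ?_
            rw [abs_mul]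
            have h3 := ih (i + 1) y u
            have h4 := hcov x u v
            rw [SimpleGraph.dist_comm] at h4
            calc _ ≤ ((1 + δ * C) ^ n * ρ ^ G.dist u r) * κ ^ G.dist v u :=
                  mul_le_mul h3 h4 (abs_nonneg _) (by positivity)
              _ = _ := by ring
        _ = (1 + δ * C) ^ n * ∑ u ∈ S, κ ^ G.dist v u * ρ ^ G.dist u r := by
            rw [Finset.mul_sum]
        _ ≤ _ := mul_le_mul_of_nonneg_left (hconv v) hB0
    calc _ ≤ |rowB G β S δ ξ r (i + 1) n y v| +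
          |δ * ∑ u ∈ S, rowB G β S δ ξ r (i + 1) n y u * cov G β S x u v| := abs_add_le _ _
      _ ≤ (1 + δ * C) ^ n * ρ ^ G.dist v r + δ * ((1 + δ * C) ^ n * (C * ρ ^ G.dist v r)) := by
          refine add_le_add h1 ?_
          rw [abs_mul, abs_of_nonneg hδ]
          exact mul_le_mul_of_nonneg_left h2 hδ
      _ = _ := by rw [pow_succ]; ring

end row

section first_order

variable (G β) {S : Finset V} {δ : ℝ} (ξ₀ : V → ℝ)

/-- Effect of a perturbation under one Euler step. -/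
def stepDiff (S : Finset V) (δ : ℝ) (ξ₀ x w : V → ℝ) : V → ℝ :=
  fun v => eulerStep G β S δ ξ₀ (x + w) v - eulerStep G β S δ ξ₀ x v

theorem stepDiff_apply (x w : V → ℝ) (v : V) :
    stepDiff G β S δ ξ₀ x w v = w v + δ * (mean G β S (x + w) v - mean G β S x v) := by
  simp only [stepDiff, eulerStep, Pi.add_apply]
  ring

theorem eulerStep_add (x w : V → ℝ) :
    eulerStep G β S δ ξ₀ (x + w) = eulerStep G β S δ ξ₀ x + stepDiff G β S δ ξ₀ x w := by
  funext v
  simp [stepDiff]

theorem nrm_stepDiff_le (hδ : 0 ≤ δ) (x w : V → ℝ) :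
    nrm S (stepDiff G β S δ ξ₀ x w) ≤ (1 + 2 * S.card * δ) * nrm S w := by
  unfold nrm
  calc ∑ v ∈ S, |stepDiff G β S δ ξ₀ x w v|
      ≤ ∑ v ∈ S, (|w v| + δ * (2 * ∑ u ∈ S, |w u|)) := by
        refine Finset.sum_le_sum fun v _ => ?_
        rw [stepDiff_apply]
        refine (abs_add_le _ _).trans ?_
        rw [abs_mul, abs_of_nonneg hδ]
        exact add_le_add le_rfl (mul_le_mul_of_nonneg_left (mean_lipschitz G β S x w v) hδ)
    _ = _ := by
        rw [Finset.sum_add_distrib, Finset.sum_const, nsmul_eq_mul]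
        ring

end first_order

variable {S : Finset V} {δ : ℝ} {ξ : ℕ → V → ℝ} {r : V} {κ ρ C : ℝ}

/-- The constant in the first order expansion. -/
def foC (N : ℝ) (δ C : ℝ) (n : ℕ) : ℝ := 6 * δ * N * n * (1 + δ * C) ^ n * (1 + 2 * N * δ) ^ (2 * n)

/-- First order expansion of the flow at a coordinate `r ∈ S`. -/
theorem flow_first_order (hr : r ∈ S) (hδ : 0 ≤ δ) (hρ : 0 ≤ ρ) (hρ1 : ρ ≤ 1) (hC : 0 ≤ C)
    (hcov : ∀ x u v, |cov G β S x u v| ≤ κ ^ G.dist u v)
    (hconv : ∀ v, ∑ u ∈ S, κ ^ G.dist v u * ρ ^ G.dist u r ≤ C * ρ ^ G.dist v r) :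
    ∀ (n i : ℕ) (x w : V → ℝ),
      |flow G β S δ ξ i n (x + w) r - flow G β S δ ξ i n x r -
          ∑ v ∈ S, rowB G β S δ ξ r i n x v * w v| ≤
        foC S.card δ C n * nrm S w ^ 2 := by
  have hN : (0 : ℝ) ≤ (S.card : ℝ) := Nat.cast_nonneg _
  intro n
  induction n with
  | zero =>
    intro i x w
    simp only [flow, rowB, foC]
    rw [Finset.sum_eq_single_of_mem r hr (by
      intro b _ hb; simp [hb])]
    simp
  | succ n ih =>
    intro i x w
    simp only [flow]
    set y := eulerStep G β S δ (ξ i) x with hy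
    set w' := stepDiff G β S δ (ξ i) x w with hw'
    rw [eulerStep_add]
    rw [← hy, ← hw']
    have hIH := ih (i + 1) y w'
    set b := rowB G β S δ ξ r (i + 1) n y with hb
    have hrow : ∀ v, rowB G β S δ ξ r i (n + 1) x v =
        b v + δ * ∑ u ∈ S, b u * cov G β S x u v := fun v => rfl
    have hbB : ∀ u, |b u| ≤ (1 + δ * C) ^ n := by
      intro u
      have h1 := rowB_bound (ξ := ξ) hδ hρ hcov hconv n (i + 1) y u
      have hB0 : 0 ≤ (1 + δ * C) ^ n := by positivity
      refine h1.trans ?_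
      calc (1 + δ * C) ^ n * ρ ^ G.dist u r ≤ (1 + δ * C) ^ n * 1 :=
            mul_le_mul_of_nonneg_left (pow_le_one₀ hρ hρ1) hB0
        _ = _ := mul_one _
    -- the linear terms
    have hlin : ∑ v ∈ S, b v * w' v - ∑ v ∈ S, rowB G β S δ ξ r i (n + 1) x v * w v =
        δ * ∑ u ∈ S, b u * (mean G β S (x + w) u - mean G β S x u -
          ∑ v ∈ S, cov G β S x u v * w v) := by
      have e1 : ∑ v ∈ S, (∑ u ∈ S, b u * cov G β S x u v) * w v =
          ∑ u ∈ S, b u * ∑ v ∈ S, cov G β S x u v * w v := by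
        simp_rw [Finset.sum_mul, Finset.mul_sum]
        rw [Finset.sum_comm]
        refine Finset.sum_congr rfl fun u _ => Finset.sum_congr rfl fun v _ => ?_
        ring
      have e2 : ∑ v ∈ S, b v * w' v = ∑ v ∈ S, b v * w v +
          δ * ∑ v ∈ S, b v * (mean G β S (x + w) v - mean G β S x v) := by
        rw [Finset.mul_sum, ← Finset.sum_add_distrib]
        refine Finset.sum_congr rfl fun v _ => ?_
        rw [hw', stepDiff_apply]
        ring
      have e3 : ∑ v ∈ S, rowB G β S δ ξ r i (n + 1) x v * w v = ∑ v ∈ S, b v * w v +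
          δ * ∑ v ∈ S, (∑ u ∈ S, b u * cov G β S x u v) * w v := by
        rw [Finset.mul_sum, ← Finset.sum_add_distrib]
        refine Finset.sum_congr rfl fun v _ => ?_
        rw [hrow]
        ring
      have e4 : ∑ u ∈ S, b u * (mean G β S (x + w) u - mean G β S x u -
          ∑ v ∈ S, cov G β S x u v * w v) =
          ∑ u ∈ S, b u * (mean G β S (x + w) u - mean G β S x u) -
            ∑ u ∈ S, b u * ∑ v ∈ S, cov G β S x u v * w v := by
        rw [← Finset.sum_sub_distrib]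
        refine Finset.sum_congr rfl fun u _ => ?_
        ring
      rw [e2, e3, e4, e1]
      ring
    have hlinbd : |∑ v ∈ S, b v * w' v - ∑ v ∈ S, rowB G β S δ ξ r i (n + 1) x v * w v| ≤
        6 * δ * S.card * (1 + δ * C) ^ n * nrm S w ^ 2 := by
      rw [hlin, abs_mul, abs_of_nonneg hδ]
      have hB0 : 0 ≤ (1 + δ * C) ^ n := by positivity
      have : |∑ u ∈ S, b u * (mean G β S (x + w) u - mean G β S x u -
          ∑ v ∈ S, cov G β S x u v * w v)| ≤ S.card * ((1 + δ * C) ^ n * (6 * nrm S w ^ 2)) := by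
        calc _ ≤ ∑ u ∈ S, |b u * (mean G β S (x + w) u - mean G β S x u -
              ∑ v ∈ S, cov G β S x u v * w v)| := Finset.abs_sum_le_sum_abs _ _
          _ ≤ ∑ _u ∈ S, ((1 + δ * C) ^ n * (6 * nrm S w ^ 2)) := by
              refine Finset.sum_le_sum fun u _ => ?_
              rw [abs_mul]
              exact mul_le_mul (hbB u) (mean_taylor G β S x w u) (abs_nonneg _) hB0
          _ = _ := by rw [Finset.sum_const, nsmul_eq_mul]
      calc δ * _ ≤ δ * (S.card * ((1 + δ * C) ^ n * (6 * nrm S w ^ 2))) :=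
            mul_le_mul_of_nonneg_left this hδ
        _ = _ := by ring
    have hw'bd : nrm S w' ≤ (1 + 2 * S.card * δ) * nrm S w := nrm_stepDiff_le G β (ξ i) hδ x w
    have hw'sq : nrm S w' ^ 2 ≤ (1 + 2 * S.card * δ) ^ 2 * nrm S w ^ 2 := by
      rw [← mul_pow]
      exact pow_le_pow_left₀ (nrm_nonneg _ _) hw'bd 2
    have hfoC0 : 0 ≤ foC S.card δ C n := by
      unfold foC; positivity
    set F1 := flow G β S δ ξ (i + 1) n (y + w') r
    set F2 := flow G β S δ ξ (i + 1) n y r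
    have e : F1 - F2 - ∑ v ∈ S, rowB G β S δ ξ r i (n + 1) x v * w v =
        (F1 - F2 - ∑ v ∈ S, b v * w' v) +
          (∑ v ∈ S, b v * w' v - ∑ v ∈ S, rowB G β S δ ξ r i (n + 1) x v * w v) := by ring
    rw [e]
    refine (abs_add_le _ _).trans ?_
    have h1 : foC S.card δ C n * nrm S w' ^ 2 ≤
        foC S.card δ C n * ((1 + 2 * S.card * δ) ^ 2 * nrm S w ^ 2) :=
      mul_le_mul_of_nonneg_left hw'sq hfoC0
    have h2 : foC S.card δ C n * (1 + 2 * S.card * δ) ^ 2 + 6 * δ * S.card * (1 + δ * C) ^ n ≤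
        foC S.card δ C (n + 1) := by
      unfold foC
      have hA : (1 : ℝ) ≤ 1 + δ * C := by nlinarith [mul_nonneg hδ hC]
      have hB : (1 : ℝ) ≤ 1 + 2 * S.card * δ := by nlinarith [mul_nonneg hN hδ]
      have hA0 : 0 ≤ (1 + δ * C) ^ n := by positivity
      have hB2 : (1 : ℝ) ≤ (1 + 2 * (S.card : ℝ) * δ) ^ (2 * (n + 1)) := one_le_pow₀ hB
      have e1 : (1 + 2 * (S.card : ℝ) * δ) ^ (2 * (n + 1)) =
          (1 + 2 * (S.card : ℝ) * δ) ^ (2 * n) * (1 + 2 * (S.card : ℝ) * δ) ^ 2 := by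
        rw [← pow_add]; congr 1
      have e2 : (1 + δ * C) ^ (n + 1) = (1 + δ * C) ^ n * (1 + δ * C) := pow_succ _ _
      push_cast
      rw [e1, e2]
      set P := (1 + δ * C) ^ n
      set Q := (1 + 2 * (S.card : ℝ) * δ) ^ (2 * n)
      set R := (1 + 2 * (S.card : ℝ) * δ) ^ 2
      set D := 1 + δ * C
      have hQ : 1 ≤ Q := one_le_pow₀ hB
      have hR : 1 ≤ R := one_le_pow₀ hB
      have hcoef : 0 ≤ 6 * δ * (S.card : ℝ) * P := by positivity
      have hQR : 1 ≤ Q * R := by nlinarith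
      have hnn : (0 : ℝ) ≤ n := Nat.cast_nonneg _
      have key : 6 * δ * (S.card : ℝ) * P * (n * (Q * R)) + 6 * δ * (S.card : ℝ) * P ≤
          6 * δ * (S.card : ℝ) * P * (D * ((n + 1) * (Q * R))) := by
        refine (by ring_nf : _ = 6 * δ * (S.card : ℝ) * P * (n * (Q * R) + 1)).le.trans ?_
        refine mul_le_mul_of_nonneg_left ?_ hcoef
        have : n * (Q * R) + 1 ≤ (n + 1) * (Q * R) := by nlinarith
        have h3 : (n + 1) * (Q * R) ≤ D * ((n + 1) * (Q * R)) := by
          have : 0 ≤ (n + 1) * (Q * R) := by positivity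
          nlinarith
        linarith
      calc 6 * δ * (S.card : ℝ) * n * P * Q * R + 6 * δ * (S.card : ℝ) * P
          = 6 * δ * (S.card : ℝ) * P * (n * (Q * R)) + 6 * δ * (S.card : ℝ) * P := by ring
        _ ≤ _ := key
        _ = _ := by ring
    calc _ ≤ foC S.card δ C n * nrm S w' ^ 2 + 6 * δ * S.card * (1 + δ * C) ^ n * nrm S w ^ 2 :=
          add_le_add hIH hlinbd
      _ ≤ foC S.card δ C n * ((1 + 2 * S.card * δ) ^ 2 * nrm S w ^ 2) +
            6 * δ * S.card * (1 + δ * C) ^ n * nrm S w ^ 2 := by linarith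
      _ = (foC S.card δ C n * (1 + 2 * S.card * δ) ^ 2 + 6 * δ * S.card * (1 + δ * C) ^ n) *
            nrm S w ^ 2 := by ring
      _ ≤ _ := mul_le_mul_of_nonneg_right h2 (sq_nonneg _)

/-- Explicit bound for the constant in terms of the total time. -/
theorem foC_le {N δ C T : ℝ} (hN : 0 ≤ N) (hδ : 0 ≤ δ) (hC : 0 ≤ C) {n : ℕ} (hn : n * δ ≤ T) :
    foC N δ C n ≤ 6 * T * N * Real.exp (C * T) * Real.exp (4 * N * T) := by
  have h0 : 0 ≤ (n : ℝ) * δ := by positivity
  have hT : 0 ≤ T := h0.trans hn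
  have h1 : (1 + δ * C) ^ n ≤ Real.exp (C * T) := by
    refine (one_add_pow_le_exp (by positivity) n).trans (Real.exp_le_exp.mpr ?_)
    have : (n : ℝ) * (δ * C) = (n * δ) * C := by ring
    rw [this, mul_comm C T]
    exact mul_le_mul_of_nonneg_right hn hC
  have h2 : (1 + 2 * N * δ) ^ (2 * n) ≤ Real.exp (4 * N * T) := by
    refine (one_add_pow_le_exp (by positivity) (2 * n)).trans (Real.exp_le_exp.mpr ?_)
    push_cast
    have : 2 * (n : ℝ) * (2 * N * δ) = 4 * N * (n * δ) := by ring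
    rw [this]
    exact mul_le_mul_of_nonneg_left hn (by positivity)
  unfold foC
  have e : 6 * δ * N * n * (1 + δ * C) ^ n * (1 + 2 * N * δ) ^ (2 * n) =
      6 * (n * δ) * N * (1 + δ * C) ^ n * (1 + 2 * N * δ) ^ (2 * n) := by ring
  rw [e]
  have h3 : 6 * (n * δ) * N ≤ 6 * T * N := by nlinarith
  have hp1 : 0 ≤ (1 + δ * C) ^ n := by positivity
  have hp2 : 0 ≤ (1 + 2 * N * δ) ^ (2 * n) := by positivity
  calc 6 * (n * δ) * N * (1 + δ * C) ^ n * (1 + 2 * N * δ) ^ (2 * n)
      ≤ 6 * T * N * Real.exp (C * T) * (1 + 2 * N * δ) ^ (2 * n) := by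
        refine mul_le_mul_of_nonneg_right ?_ hp2
        exact mul_le_mul h3 h1 hp1 (by positivity)
    _ ≤ _ := mul_le_mul_of_nonneg_left h2 (by positivity)

end Vale.Agent.Lib.P161
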