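import Mathlib

/-! Statement level definitions for the free Ising measure on a regular tree. -/

open MeasureTheory

namespace Vale.Agent.Lib.P161

/-- The spin value in `{-1, 1}` encoded by a Boolean. -/
def spin (b : Bool) : ℝ := if b then 1 else -1

open Classical in
/-- The edges of `G` with both ends in the finite vertex set `D`. -/
noncomputable def edgesIn {V : Type*} (G : SimpleGraph V) (D : Finset V) : Finset (Sym2 V) :=
  D.sym2.filter (fun e => e ∈ G.edgeSet)

/-- The factor `(1 + θ η_u η_v) / 2` attached to the unordered pair `{u, v}`. -/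
noncomputable def edgeFactor {V : Type*} (θ : ℝ) (η : V → Bool) : Sym2 V → ℝ :=
  Sym2.lift ⟨fun u v => (1 + θ * spin (η u) * spin (η v)) / 2, fun u v => by ring⟩

/-- The cylinder probability `(1/2) ∏_{e ∈ E(D)} (1 + θ η_u η_v) / 2` of the free Ising measure. -/
noncomputable def isingCyl {V : Type*} (G : SimpleGraph V) (θ : ℝ) (D : Finset V) (η : V → Bool) :
    ℝ :=
  1 / 2 * ∏ e ∈ edgesIn G D, edgeFactor θ η e

/-- The iid uniform product measure on `[0,1]^V`. -/
noncomputable def iidUniform (V : Type*) : Measure (V → unitInterval) :=
  Measure.infinitePi fun _ => (volume : Measure unitInterval)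

end Vale.Agent.Lib.P161
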