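import Vale.Agent.Lib.P161.PC
import Vale.Agent.Lib.P161.Defs

/-! Marginals of the free measure: peeling off farthest vertices of star shaped sets. -/

open Finset
open scoped Classical

noncomputable section

namespace Vale.Agent.Lib.P161

variable {V : Type*} {G : SimpleGraph V} {β : ℝ}

theorem pairSum_singleton (x : V) (C : Finset V) : pairSum G {x} C = 0 := by
  simp [pairSum]

theorem pairSum_insert_leaf {S : Finset V} {x p : V} (hx : x ∉ S) (hp : p ∈ S) (hadj : G.Adj x p)
    (huniq : ∀ c ∈ S, G.Adj x c → c = p) (C : Finset V) :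
    pairSum G (insert x S) C = pairSum G S C + 2 * (sp C x * sp C p) := by
  have hd : Disjoint ({x} : Finset V) S := Finset.disjoint_singleton_left.mpr hx
  rw [Finset.insert_eq, pairSum_union G hd, pairSum_singleton, Finset.sum_singleton, zero_add,
    Finset.sum_eq_single_of_mem p hp, if_pos hadj]
  intro c hc hcp
  rw [if_neg]
  intro h
  exact hcp (huniq c hc h)

/-- Properties of a farthest vertex of `S' \ S`. -/
theorem farthest_leaf (hT : G.IsTree) {r : V} {S S' : Finset V} (hr : r ∈ S)
    (hS : Star G r S) (hS' : Star G r S') {x : V} (hx : x ∈ S' \ S)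
    (hmax : ∀ y ∈ S' \ S, G.dist r y ≤ G.dist r x) :
    ∃ p, p ∈ S'.erase x ∧ G.Adj x p ∧ G.dist r p + 1 = G.dist r x ∧
      (∀ c ∈ S'.erase x, G.Adj x c → c = p) ∧ Star G r (S'.erase x) := by
  have hxS' : x ∈ S' := (Finset.mem_sdiff.mp hx).1
  have hxS : x ∉ S := (Finset.mem_sdiff.mp hx).2
  have hxr : x ≠ r := fun e => hxS (e ▸ hr)
  obtain ⟨p, hadj, hd⟩ := exists_parent hT hxr
  have hchild : ∀ c ∈ S', G.Adj x c → c ≠ p → False := by
    intro c hc hxc hcp
    have h1 := hT.dist_eq_dist_add_one_of_adj r hxc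
    rcases h1 with h1 | h1
    · exact hcp (parent_unique hT hxc hadj (by omega) hd)
    · by_cases hcS : c ∈ S
      · exact hxS (hS c hcS x hxc.symm (by omega))
      · have := hmax c (Finset.mem_sdiff.mpr ⟨hc, hcS⟩)
        omega
  have hpS' : p ∈ S' := hS' x hxS' p hadj hd
  refine ⟨p, Finset.mem_erase.mpr ⟨hadj.ne.symm, hpS'⟩, hadj, hd, ?_, ?_⟩
  · intro c hc hxc
    by_contra hcp
    exact hchild c (Finset.mem_of_mem_erase hc) hxc hcp
  · intro y hy q hyq hdq
    have hyS' := Finset.mem_of_mem_erase hy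
    refine Finset.mem_erase.mpr ⟨?_, hS' y hyS' q hyq hdq⟩
    rintro rfl
    -- `q = x` is the parent of `y`
    by_cases hyS : y ∈ S
    · exact hxS (hS y hyS q hyq hdq)
    · have := hmax y (Finset.mem_sdiff.mpr ⟨hyS', hyS⟩)
      omega

theorem cosh_identity (β s : ℝ) (hs : s = 1 ∨ s = -1) :
    Real.exp (β * (-1) * s) + Real.exp (β * 1 * s) = 2 * Real.cosh β := by
  rw [Real.cosh_eq]
  rcases hs with rfl | rfl
  · norm_num
    ring_nf
  · norm_num
    ring_nf

/-- Peeling: summing out the spins on `S' \ S`. -/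
theorem peel (hT : G.IsTree) {r : V} {S : Finset V} (hr : r ∈ S) (hS : Star G r S) (A : Finset V)
    (hA : A ⊆ S) :
    ∀ (n : ℕ) (S' : Finset V), (S' \ S).card = n → S ⊆ S' → Star G r S' →
      ∑ B ∈ (S' \ S).powerset, baseW G β S' (A ∪ B) =
        (2 * Real.cosh β) ^ n * baseW G β S A := by
  intro n
  induction n with
  | zero =>
    intro S' hc hSS' _
    have hE : S' \ S = ∅ := Finset.card_eq_zero.mp hc
    have hS'S : S' = S := by
      apply Finset.Subset.antisymm _ hSS'
      exact Finset.sdiff_eq_empty_iff_subset.mp hE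
    subst hS'S
    simp
  | succ n ih =>
    intro S' hc hSS' hS'
    have hne : (S' \ S).Nonempty := by
      rw [← Finset.card_pos]; omega
    obtain ⟨x, hx, hmax⟩ := Finset.exists_max_image (S' \ S) (fun y => G.dist r y) hne
    obtain ⟨p, hp, hadj, -, huniq, hstar⟩ := farthest_leaf hT hr hS hS' hx hmax
    have hxS' : x ∈ S' := (Finset.mem_sdiff.mp hx).1
    have hxS : x ∉ S := (Finset.mem_sdiff.mp hx).2
    set S'' := S'.erase x with hS''
    have hins : insert x S'' = S' := Finset.insert_erase hxS'
    have hxS'' : x ∉ S'' := Finset.notMem_erase _ _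
    have hSS'' : S ⊆ S'' := fun a ha =>
      Finset.mem_erase.mpr ⟨fun e => hxS (e ▸ ha), hSS' ha⟩
    have hdiff : S' \ S = insert x (S'' \ S) := by
      ext a
      simp only [Finset.mem_sdiff, Finset.mem_insert, hS'', Finset.mem_erase]
      constructor
      · rintro ⟨h1, h2⟩
        by_cases e : a = x
        · exact Or.inl e
        · exact Or.inr ⟨⟨e, h1⟩, h2⟩
      · rintro (e | ⟨⟨_, h1⟩, h2⟩)
        · subst e; exact ⟨hxS', hxS⟩
        · exact ⟨h1, h2⟩
    have hxn : x ∉ S'' \ S := fun h => hxS'' (Finset.mem_sdiff.mp h).1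
    have hcard : (S'' \ S).card = n := by
      rw [hdiff, Finset.card_insert_of_notMem hxn] at hc
      omega
    have hAS'' : A ⊆ S'' := hA.trans hSS''
    rw [hdiff, Finset.sum_powerset_insert hxn, ← Finset.sum_add_distrib]
    have key : ∀ B ∈ (S'' \ S).powerset,
        baseW G β S' (A ∪ B) + baseW G β S' (A ∪ insert x B) =
          2 * Real.cosh β * baseW G β S'' (A ∪ B) := by
      intro B hB
      have hB' : B ⊆ S'' \ S := Finset.mem_powerset.mp hB
      have hxB : x ∉ B := fun h => hxn (hB' h)
      have hxA : x ∉ A := fun h => hxS (hA h)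
      have hxAB : x ∉ A ∪ B := by
        simp [hxA, hxB]
      have hpx : p ≠ x := (Finset.mem_erase.mp hp).1
      have hcong : pairSum G S'' (A ∪ insert x B) = pairSum G S'' (A ∪ B) := by
        refine pairSum_congr G fun v hv => ?_
        have : v ≠ x := fun e => hxS'' (e ▸ hv)
        simp [this]
      have h1 := pairSum_insert_leaf hxS'' hp hadj huniq (A ∪ B)
      have h2 := pairSum_insert_leaf hxS'' hp hadj huniq (A ∪ insert x B)
      rw [hins] at h1 h2
      rw [hcong] at h2
      have s1 : sp (A ∪ B) x = -1 := by simp [sp, hxAB]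
      have s2 : sp (A ∪ insert x B) x = 1 := by simp [sp]
      have s3 : sp (A ∪ insert x B) p = sp (A ∪ B) p := by
        simp [sp, hpx]
      unfold baseW
      rw [h1, h2, s1, s2, s3]
      have hcosh := cosh_identity β (sp (A ∪ B) p) (sp_eq_or _ _)
      rw [← hcosh, mul_add, add_mul]
      congr 1
      · rw [← Real.exp_add]; congr 1; ring
      · rw [← Real.exp_add]; congr 1; ring
    rw [Finset.sum_congr rfl key, ← Finset.mul_sum, ih S'' hcard hSS'' hstar, pow_succ]
    ring

/-- Peeling, in the form with the exponent written as a cardinality. -/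
theorem peel' (hT : G.IsTree) {r : V} {S S' : Finset V} (hr : r ∈ S) (hS : Star G r S)
    (hSS' : S ⊆ S') (hS' : Star G r S') (A : Finset V) (hA : A ⊆ S) :
    ∑ B ∈ (S' \ S).powerset, baseW G β S' (A ∪ B) =
      (2 * Real.cosh β) ^ (S' \ S).card * baseW G β S A :=
  peel hT hr hS A hA _ S' rfl hSS' hS'

theorem star_singleton (r : V) : Star G r {r} := by
  intro x hx p _ hd
  have : x = r := Finset.mem_singleton.mp hx
  subst this
  simp at hd

theorem baseW_singleton (r : V) (A : Finset V) : baseW G β {r} A = 1 := by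
  simp [baseW, pairSum_singleton]

/-- Edge factor in exponential form. -/
theorem edge_factor_exp (β s : ℝ) (hs : s = 1 ∨ s = -1) :
    (1 + Real.tanh β * s) / 2 = Real.exp (β * s) / (2 * Real.cosh β) := by
  have hc := Real.cosh_pos β
  rw [Real.tanh_eq_sinh_div_cosh]
  rcases hs with rfl | rfl
  · rw [mul_one, mul_one, ← Real.cosh_add_sinh]
    field_simp
  · rw [mul_neg, mul_one, mul_neg, mul_one, ← Real.cosh_sub_sinh]
    field_simp
    ring

theorem mem_edgesIn {D : Finset V} {a b : V} : s(a, b) ∈ edgesIn G D ↔ a ∈ D ∧ b ∈ D ∧ G.Adj a b := by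
  simp [edgesIn, and_assoc]

theorem edgesIn_insert_leaf {S : Finset V} {x p : V} (hx : x ∉ S) (hp : p ∈ S) (hadj : G.Adj x p)
    (huniq : ∀ c ∈ S, G.Adj x c → c = p) :
    edgesIn G (insert x S) = insert s(x, p) (edgesIn G S) := by
  ext e
  induction e using Sym2.ind with
  | _ a b =>
    rw [Finset.mem_insert, mem_edgesIn, mem_edgesIn, Sym2.eq_iff]
    simp only [Finset.mem_insert]
    constructor
    · rintro ⟨ha | ha, hb | hb, hab⟩
      · subst ha; subst hb; exact absurd hab (G.irrefl)
      · subst ha; left; left; exact ⟨rfl, huniq b hb hab⟩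
      · subst hb; left; right; exact ⟨huniq a ha hab.symm, rfl⟩
      · right; exact ⟨ha, hb, hab⟩
    · rintro ((⟨rfl, rfl⟩ | ⟨rfl, rfl⟩) | ⟨ha, hb, hab⟩)
      · exact ⟨Or.inl rfl, Or.inr hp, hadj⟩
      · exact ⟨Or.inr hp, Or.inl rfl, hadj.symm⟩
      · exact ⟨Or.inr ha, Or.inr hb, hab⟩

theorem edge_notMem_edgesIn {S : Finset V} {x p : V} (hx : x ∉ S) : s(x, p) ∉ edgesIn G S := by
  rw [mem_edgesIn]
  exact fun h => hx h.1

/-- The product formula in terms of the exponential pair weight. -/
theorem prod_edgeFactor_eq (hT : G.IsTree) {r : V} (η : V → Bool) (A : Finset V) :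
    ∀ (n : ℕ) (D : Finset V), D.card = n + 1 → r ∈ D → Star G r D →
      (∀ v ∈ D, sp A v = spin (η v)) →
      ∏ e ∈ edgesIn G D, edgeFactor (Real.tanh β) η e =
        baseW G β D A / (2 * Real.cosh β) ^ n := by
  intro n
  induction n with
  | zero =>
    intro D hc hr _ _
    have hD : D = {r} := by
      obtain ⟨a, ha⟩ := Finset.card_eq_one.mp (by simpa using hc)
      rw [ha] at hr ⊢
      rw [Finset.mem_singleton.mp hr]
    subst hD
    have : edgesIn G ({r} : Finset V) = ∅ := by
      ext e
      induction e using Sym2.ind with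
      | _ a b =>
        simp only [mem_edgesIn, Finset.mem_singleton, Finset.notMem_empty, iff_false]
        rintro ⟨rfl, rfl, h⟩
        exact G.irrefl h
    rw [this, baseW_singleton]
    simp
  | succ n ih =>
    intro D hc hr hstar hA
    have hne : (D \ {r}).Nonempty := by
      rw [← Finset.card_pos, Finset.card_sdiff_of_subset (Finset.singleton_subset_iff.mpr hr),
        Finset.card_singleton]
      omega
    obtain ⟨x, hx, hmax⟩ := Finset.exists_max_image (D \ {r}) (fun y => G.dist r y) hne
    obtain ⟨p, hp, hadj, -, huniq, hstar'⟩ :=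
      farthest_leaf hT (Finset.mem_singleton_self r) (star_singleton r) hstar hx hmax
    have hxD : x ∈ D := (Finset.mem_sdiff.mp hx).1
    have hxr : x ≠ r := by
      have := (Finset.mem_sdiff.mp hx).2
      simpa using this
    set D'' := D.erase x with hD''
    have hins : insert x D'' = D := Finset.insert_erase hxD
    have hxD'' : x ∉ D'' := Finset.notMem_erase _ _
    have hcard : D''.card = n + 1 := by
      rw [hD'', Finset.card_erase_of_mem hxD]; omega
    have hr'' : r ∈ D'' := Finset.mem_erase.mpr ⟨hxr.symm, hr⟩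
    have hA'' : ∀ v ∈ D'', sp A v = spin (η v) := fun v hv => hA v (Finset.mem_of_mem_erase hv)
    have hIH := ih D'' hcard hr'' hstar' hA''
    have hp' : p ∈ D := Finset.mem_of_mem_erase hp
    rw [← hins, edgesIn_insert_leaf hxD'' hp hadj huniq,
      Finset.prod_insert (edge_notMem_edgesIn hxD''), hIH, hins]
    have h1 := pairSum_insert_leaf hxD'' hp hadj huniq A
    rw [hins] at h1
    have hs : spin (η x) * spin (η p) = 1 ∨ spin (η x) * spin (η p) = -1 := by
      unfold spin
      cases η x <;> cases η p <;> simp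
    have hfac : edgeFactor (Real.tanh β) η s(x, p) =
        Real.exp (β * (sp A x * sp A p)) / (2 * Real.cosh β) := by
      rw [hA x hxD, hA p hp']
      simp only [edgeFactor, Sym2.lift_mk]
      rw [← edge_factor_exp β _ hs]
      ring
    rw [hfac]
    unfold baseW
    rw [h1, pow_succ]
    have hc := Real.cosh_pos β
    have e : β / 2 * (pairSum G D'' A + 2 * (sp A x * sp A p)) =
        β * (sp A x * sp A p) + β / 2 * pairSum G D'' A := by ring
    rw [e, Real.exp_add]
    field_simp

theorem wt_zero (S A : Finset V) : wt G β S 0 A = baseW G β S A := by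
  simp [wt, tilt]

/-- The partition function at zero tilt of a star shaped set. -/
theorem Zf_zero_star (hT : G.IsTree) {r : V} {D : Finset V} (hr : r ∈ D) (hD : Star G r D) :
    Zf G β D 0 = 2 * (2 * Real.cosh β) ^ (D.card - 1) := by
  have hunion : ({r} : Finset V) ∪ (D \ {r}) = D := by
    rw [Finset.union_sdiff_of_subset (Finset.singleton_subset_iff.mpr hr)]
  have hd : Disjoint ({r} : Finset V) (D \ {r}) := Finset.disjoint_sdiff
  unfold Zf
  simp_rw [wt_zero]
  conv_lhs => rw [← hunion]
  rw [sum_powerset_union hd]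
  rw [hunion]
  have hcard : (D \ {r}).card = D.card - 1 := by
    rw [Finset.card_sdiff_of_subset (Finset.singleton_subset_iff.mpr hr), Finset.card_singleton]
  have key : ∀ A₁ ∈ ({r} : Finset V).powerset,
      ∑ A₂ ∈ (D \ {r}).powerset, baseW G β D (A₁ ∪ A₂) = (2 * Real.cosh β) ^ (D.card - 1) := by
    intro A₁ hA₁
    have := peel' (β := β) hT (Finset.mem_singleton_self r) (star_singleton r)
      (Finset.singleton_subset_iff.mpr hr) hD A₁ (Finset.mem_powerset.mp hA₁)
    rw [this, baseW_singleton, mul_one, hcard]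
  rw [Finset.sum_congr rfl key, Finset.sum_const, Finset.card_powerset, Finset.card_singleton,
    nsmul_eq_mul]
  norm_num

/-- The zero tilt partition function under peeling. -/
theorem Zf_zero_peel (hT : G.IsTree) {r : V} {S S' : Finset V} (hr : r ∈ S) (hS : Star G r S)
    (hSS' : S ⊆ S') (hS' : Star G r S') :
    Zf G β S' 0 = (2 * Real.cosh β) ^ (S' \ S).card * Zf G β S 0 := by
  have hunion : S ∪ (S' \ S) = S' := Finset.union_sdiff_of_subset hSS'
  have hd : Disjoint S (S' \ S) := Finset.disjoint_sdiff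
  unfold Zf
  simp_rw [wt_zero]
  conv_lhs => rw [← hunion]
  rw [sum_powerset_union hd, hunion, Finset.mul_sum]
  refine Finset.sum_congr rfl fun A hA => ?_
  exact peel' hT hr hS hSS' hS' A (Finset.mem_powerset.mp hA)

/-- The Gibbs measure at zero tilt on a star shaped set has the free Ising marginal on a star
shaped subset. -/
theorem marginal_eq (hT : G.IsTree) {r : V} {D S' : Finset V} (hr : r ∈ D) (hD : Star G r D)
    (hDS' : D ⊆ S') (hS' : Star G r S') (η : V → Bool) :
    ∑ C ∈ S'.powerset, (if ∀ v ∈ D, sp C v = spin (η v) then mu G β S' 0 C else 0) =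
      isingCyl G (Real.tanh β) D η := by
  have hunion : D ∪ (S' \ D) = S' := Finset.union_sdiff_of_subset hDS'
  have hd : Disjoint D (S' \ D) := Finset.disjoint_sdiff
  set A := D.filter (fun v => η v = true) with hA
  have hAD : A ⊆ D := Finset.filter_subset _ _
  have hspin : ∀ v ∈ D, sp A v = spin (η v) := by
    intro v hv
    simp only [sp, spin, hA, Finset.mem_filter, hv, true_and]
  have hcond : ∀ A₁ ∈ D.powerset, ∀ A₂ ∈ (S' \ D).powerset,
      ((∀ v ∈ D, sp (A₁ ∪ A₂) v = spin (η v)) ↔ A₁ = A) := by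
    intro A₁ hA₁ A₂ hA₂
    have hA₁' := Finset.mem_powerset.mp hA₁
    have hA₂' := Finset.mem_powerset.mp hA₂
    have s1 : ∀ v ∈ D, sp (A₁ ∪ A₂) v = sp A₁ v := by
      intro v hv
      have : v ∉ A₂ := fun h => Finset.disjoint_left.mp hd hv (hA₂' h)
      simp [sp, this]
    constructor
    · intro h
      ext v
      by_cases hv : v ∈ D
      · have h1 := h v hv
        rw [s1 v hv, ← hspin v hv] at h1
        unfold sp at h1
        by_cases h2 : v ∈ A₁ <;> by_cases h3 : v ∈ A <;> simp [h2, h3] at h1 ⊢ <;> norm_num at h1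
      · constructor
        · intro h2; exact absurd (hA₁' h2) hv
        · intro h2; exact absurd (hAD h2) hv
    · rintro rfl v hv
      rw [s1 v hv, hspin v hv]
  -- compute the sum
  have hZ := Zf_zero_peel (β := β) hT hr hD hDS' hS'
  have hZD := Zf_zero_star (β := β) hT hr hD
  have hcardpos : D.card = (D.card - 1) + 1 := by
    have : 0 < D.card := Finset.card_pos.mpr ⟨r, hr⟩
    omega
  have hprod := prod_edgeFactor_eq (β := β) hT η A (D.card - 1) D hcardpos hr hD hspin
  have hsum : ∑ C ∈ S'.powerset, (if ∀ v ∈ D, sp C v = spin (η v) then mu G β S' 0 C else 0) =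
      (∑ B ∈ (S' \ D).powerset, baseW G β S' (A ∪ B)) / Zf G β S' 0 := by
    conv_lhs => rw [← hunion]
    rw [sum_powerset_union hd]
    rw [hunion, Finset.sum_eq_single_of_mem A (Finset.mem_powerset.mpr hAD)]
    · rw [Finset.sum_div]
      refine Finset.sum_congr rfl fun B hB => ?_
      rw [if_pos ((hcond A (Finset.mem_powerset.mpr hAD) B hB).mpr rfl)]
      unfold mu
      rw [wt_zero]
    · intro A₁ hA₁ hne
      refine Finset.sum_eq_zero fun B hB => ?_
      rw [if_neg]
      intro h
      exact hne ((hcond A₁ hA₁ B hB).mp h)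
  rw [hsum, peel' hT hr hD hDS' hS' A hAD, hZ, hZD]
  unfold isingCyl
  rw [hprod]
  have hc := Real.cosh_pos β
  field_simp

end Vale.Agent.Lib.P161
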