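import Vale.Agent.Lib.P161.FKG
import Vale.Agent.Lib.P161.Peel

/-! The algebra behind the static bound: the Gibbs measure on a big set `S'`, seen from `S ⊆ S'`,
when the edges leaving `S` start from the boundary `B`. -/

open Finset
open scoped Classical

noncomputable section

namespace Vale.Agent.Lib.P161

variable {V : Type*} {G : SimpleGraph V} {β : ℝ}

/-- Cross term of the pair sum between the boundary trace and the outer configuration. -/
def crossSum (G : SimpleGraph V) (B O τ C : Finset V) : ℝ :=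
  ∑ u ∈ B, ∑ v ∈ O, if G.Adj u v then sp τ u * sp C v else 0

/-- The exchange factor between the boundary trace and the outer configuration. -/
def exch (G : SimpleGraph V) (β : ℝ) (B O τ C : Finset V) : ℝ :=
  Real.exp (β * crossSum G B O τ C + β / 2 * pairSum G O C)

theorem exch_pos (τ C B O : Finset V) : 0 < exch G β B O τ C := Real.exp_pos _

section split

variable {S O B : Finset V} {A C : Finset V}

theorem pairSum_split (hd : Disjoint S O) (hB : B ⊆ S)
    (hedge : ∀ u ∈ S, ∀ v ∈ O, G.Adj u v → u ∈ B) (hA : A ⊆ S) (hC : C ⊆ O) :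
    pairSum G (S ∪ O) (A ∪ C) =
      pairSum G S A + pairSum G O C + 2 * crossSum G B O (A ∩ B) C := by
  rw [pairSum_union G hd]
  have h1 : pairSum G S (A ∪ C) = pairSum G S A := by
    refine pairSum_congr G fun v hv => ?_
    have : v ∉ C := fun h => Finset.disjoint_left.mp hd hv (hC h)
    simp [this]
  have h2 : pairSum G O (A ∪ C) = pairSum G O C := by
    refine pairSum_congr G fun v hv => ?_
    have : v ∉ A := fun h => Finset.disjoint_right.mp hd hv (hA h)
    simp [this]
  rw [h1, h2]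
  congr 2
  unfold crossSum
  symm
  refine Finset.sum_subset_zero_on_sdiff hB ?_ ?_
  · intro u hu
    obtain ⟨huS, huB⟩ := Finset.mem_sdiff.mp hu
    refine Finset.sum_eq_zero fun v hv => ?_
    rw [if_neg]
    intro h
    exact huB (hedge u huS v hv h)
  · intro u hu
    refine Finset.sum_congr rfl fun v hv => ?_
    have hvA : v ∉ A := fun h => Finset.disjoint_right.mp hd hv (hA h)
    have huS := hB hu
    have huC : u ∉ C := fun h => Finset.disjoint_left.mp hd huS (hC h)
    have e1 : sp (A ∩ B) u = sp (A ∪ C) u := by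
      simp [sp, hu, huC]
    have e2 : sp C v = sp (A ∪ C) v := by
      simp [sp, hvA]
    rw [e1, e2]

theorem baseW_split (hd : Disjoint S O) (hB : B ⊆ S)
    (hedge : ∀ u ∈ S, ∀ v ∈ O, G.Adj u v → u ∈ B) (hA : A ⊆ S) (hC : C ⊆ O) :
    baseW G β (S ∪ O) (A ∪ C) = baseW G β S A * exch G β B O (A ∩ B) C := by
  unfold baseW exch
  rw [pairSum_split hd hB hedge hA hC, ← Real.exp_add]
  congr 1
  ring

theorem tilt_split (hd : Disjoint S O) (hA : A ⊆ S) (hC : C ⊆ O) (y : V → ℝ) :
    tilt (S ∪ O) (A ∪ C) y = tilt S A y + tilt O C y := by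
  unfold tilt
  rw [Finset.sum_union hd]
  congr 1
  · refine Finset.sum_congr rfl fun v hv => ?_
    have : v ∉ C := fun h => Finset.disjoint_left.mp hd hv (hC h)
    simp [sp, this]
  · refine Finset.sum_congr rfl fun v hv => ?_
    have : v ∉ A := fun h => Finset.disjoint_right.mp hd hv (hA h)
    simp [sp, this]

theorem wt_split (hd : Disjoint S O) (hB : B ⊆ S)
    (hedge : ∀ u ∈ S, ∀ v ∈ O, G.Adj u v → u ∈ B) (hA : A ⊆ S) (hC : C ⊆ O) (y : V → ℝ) :
    wt G β (S ∪ O) y (A ∪ C) =
      wt G β S y A * (exch G β B O (A ∩ B) C * Real.exp (tilt O C y)) := by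
  unfold wt
  rw [baseW_split hd hB hedge hA hC, tilt_split hd hA hC, Real.exp_add]
  ring

end split

/-- The effect of the outer spins and tilt, as a function of the boundary trace. -/
def outerSum (G : SimpleGraph V) (β : ℝ) (B O : Finset V) (y : V → ℝ) (τ : Finset V) : ℝ :=
  ∑ C ∈ O.powerset, exch G β B O τ C * Real.exp (tilt O C y)

theorem outerSum_pos (B O : Finset V) (y : V → ℝ) (τ : Finset V) : 0 < outerSum G β B O y τ :=
  Finset.sum_pos (fun C _ => mul_pos (exch_pos _ _ _ _) (Real.exp_pos _)) ⟨∅, by simp⟩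

section marg

variable {S O B : Finset V}

theorem sum_wt_union (hd : Disjoint S O) (hB : B ⊆ S)
    (hedge : ∀ u ∈ S, ∀ v ∈ O, G.Adj u v → u ∈ B) (y : V → ℝ) (φ : Finset V → ℝ)
    (hφ : ∀ A ∈ S.powerset, ∀ C ∈ O.powerset, φ (A ∪ C) = φ A) :
    ∑ D ∈ (S ∪ O).powerset, wt G β (S ∪ O) y D * φ D =
      ∑ A ∈ S.powerset, wt G β S y A * outerSum G β B O y (A ∩ B) * φ A := by
  rw [sum_powerset_union hd]
  refine Finset.sum_congr rfl fun A hA => ?_
  unfold outerSum
  rw [Finset.mul_sum, Finset.sum_mul]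
  refine Finset.sum_congr rfl fun C hC => ?_
  rw [hφ A hA C hC, wt_split hd hB hedge (Finset.mem_powerset.mp hA) (Finset.mem_powerset.mp hC)]

theorem Zf_union_eq (hd : Disjoint S O) (hB : B ⊆ S)
    (hedge : ∀ u ∈ S, ∀ v ∈ O, G.Adj u v → u ∈ B) (y : V → ℝ) :
    Zf G β (S ∪ O) y = ∑ A ∈ S.powerset, wt G β S y A * outerSum G β B O y (A ∩ B) := by
  have := sum_wt_union (G := G) (β := β) hd hB hedge y (fun _ => 1) (fun _ _ _ _ => rfl)
  simpa [Zf] using this

/-- The mean of the big measure against a linear functional on `S`, through the conditional means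
given the boundary. -/
theorem mean_union_lin (hd : Disjoint S O) (hB : B ⊆ S)
    (hedge : ∀ u ∈ S, ∀ v ∈ O, G.Adj u v → u ∈ B) (y a : V → ℝ) :
    Zf G β (S ∪ O) y * ∑ v ∈ S, a v * mean G β (S ∪ O) y v =
      ∑ A ∈ S.powerset, wt G β S y A * outerSum G β B O y (A ∩ B) *
        condLin G β S B y a (A ∩ B) := by
  have hZ := Zf_pos G β (S ∪ O) y
  have h1 : ∀ v ∈ S, Zf G β (S ∪ O) y * mean G β (S ∪ O) y v =
      ∑ A ∈ S.powerset, wt G β S y A * outerSum G β B O y (A ∩ B) *
        condMean G β S B y (A ∩ B) v := by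
    intro v hv
    have h2 := sum_wt_union (G := G) (β := β) hd hB hedge y (fun A => sp A v) (by
      intro A _ C hC
      have : v ∉ C := fun h => Finset.disjoint_left.mp hd hv (Finset.mem_powerset.mp hC h)
      simp [sp, this])
    rw [← tower (G := G) (β := β) y (outerSum G β B O y) hB v, ← h2]
    unfold mean
    rw [Ee_eq]
    field_simp
  rw [Finset.mul_sum]
  calc ∑ v ∈ S, Zf G β (S ∪ O) y * (a v * mean G β (S ∪ O) y v)
      = ∑ v ∈ S, a v * ∑ A ∈ S.powerset, wt G β S y A * outerSum G β B O y (A ∩ B) *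
        condMean G β S B y (A ∩ B) v := by
        refine Finset.sum_congr rfl fun v hv => ?_
        rw [← h1 v hv]
        ring
    _ = _ := by
        simp only [condLin, Finset.mul_sum]
        rw [Finset.sum_comm]
        refine Finset.sum_congr rfl fun A _ => Finset.sum_congr rfl fun v _ => ?_
        ring

/-- The mean on `S` itself, via conditional means. -/
theorem mean_lin_eq {B : Finset V} (hB : B ⊆ S) (y a : V → ℝ) :
    ∑ v ∈ S, a v * mean G β S y v = Ee G β S y (fun A => condLin G β S B y a (A ∩ B)) := by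
  have hZ := Zf_pos G β S y
  have h1 : ∀ v, mean G β S y v = Ee G β S y (fun A => condMean G β S B y (A ∩ B) v) := by
    intro v
    have := tower (G := G) (β := β) y (fun _ => 1) hB v
    simp only [mul_one] at this
    unfold mean
    rw [Ee_eq, Ee_eq, this]
  simp only [h1]
  simp only [condLin]
  rw [Ee_sum]
  refine Finset.sum_congr rfl fun v _ => ?_
  rw [Ee_const_mul]

/-- Pointwise inequality at the heart of the static bound. -/
theorem static_pointwise (hd : Disjoint S O) (hB : B ⊆ S)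
    (hedge : ∀ u ∈ S, ∀ v ∈ O, G.Adj u v → u ∈ B) (y a : V → ℝ) :
    (∑ v ∈ S, a v * (mean G β (S ∪ O) y v - mean G β S y v)) ^ 2 * Zf G β (S ∪ O) y ≤
      ∑ A ∈ S.powerset, wt G β S y A *
        (condLin G β S B y a (A ∩ B) - Ee G β S y (fun A => condLin G β S B y a (A ∩ B))) ^ 2 *
        outerSum G β B O y (A ∩ B) := by
  set c := Ee G β S y (fun A => condLin G β S B y a (A ∩ B)) with hc
  set p : Finset V → ℝ := fun A => wt G β S y A * outerSum G β B O y (A ∩ B) with hp
  set f : Finset V → ℝ := fun A => condLin G β S B y a (A ∩ B) - c with hf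
  have hp0 : ∀ A, 0 ≤ p A := fun A =>
    (mul_pos (wt_pos _ _ _ _ _) (outerSum_pos _ _ _ _)).le
  have hZ' : Zf G β (S ∪ O) y = ∑ A ∈ S.powerset, p A := Zf_union_eq hd hB hedge y
  have hZ0 := Zf_pos G β (S ∪ O) y
  set e := ∑ v ∈ S, a v * (mean G β (S ∪ O) y v - mean G β S y v) with he
  have hsum : ∑ A ∈ S.powerset, p A * f A = Zf G β (S ∪ O) y * e := by
    have h1 := mean_union_lin (G := G) (β := β) hd hB hedge y a
    have h2 : ∑ v ∈ S, a v * mean G β S y v = c := mean_lin_eq hB y a
    have h3 : e = ∑ v ∈ S, a v * mean G β (S ∪ O) y v - c := by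
      rw [← h2, he, ← Finset.sum_sub_distrib]
      exact Finset.sum_congr rfl fun v _ => by ring
    rw [h3, mul_sub, h1, hZ', Finset.sum_mul, ← Finset.sum_sub_distrib]
    refine Finset.sum_congr rfl fun A _ => ?_
    simp only [hp, hf]
    ring
  have hCS := Finset.sum_sq_le_sum_mul_sum_of_sq_le_mul S.powerset
    (r := fun A => p A * f A) (f := p) (g := fun A => p A * f A ^ 2)
    (fun A _ => hp0 A) (fun A _ => mul_nonneg (hp0 A) (sq_nonneg _))
    (fun A _ => le_of_eq (by ring))
  rw [hsum, ← hZ'] at hCS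
  have key : e ^ 2 * Zf G β (S ∪ O) y ≤ ∑ A ∈ S.powerset, p A * f A ^ 2 := by
    have : Zf G β (S ∪ O) y * (e ^ 2 * Zf G β (S ∪ O) y) ≤
        Zf G β (S ∪ O) y * ∑ A ∈ S.powerset, p A * f A ^ 2 := by
      calc _ = (Zf G β (S ∪ O) y * e) ^ 2 := by ring
        _ ≤ _ := hCS
    exact le_of_mul_le_mul_left this hZ0
  refine key.trans (le_of_eq ?_)
  refine Finset.sum_congr rfl fun A _ => ?_
  simp only [hp, hf]
  ring

end marg

/-- Summing the exchange factor over the outer configurations. -/
theorem sum_exch (hT : G.IsTree) {r : V} {S O B A : Finset V} (hd : Disjoint S O) (hB : B ⊆ S)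
    (hedge : ∀ u ∈ S, ∀ v ∈ O, G.Adj u v → u ∈ B) (hr : r ∈ S) (hS : Star G r S)
    (hS' : Star G r (S ∪ O)) (hA : A ⊆ S) :
    ∑ C ∈ O.powerset, exch G β B O (A ∩ B) C = (2 * Real.cosh β) ^ O.card := by
  have hsd : (S ∪ O) \ S = O := by
    ext x
    simp only [Finset.mem_sdiff, Finset.mem_union]
    constructor
    · rintro ⟨h1 | h1, h2⟩
      · exact absurd h1 h2
      · exact h1
    · intro h
      exact ⟨Or.inr h, fun h' => Finset.disjoint_left.mp hd h' h⟩
  have h1 := peel' (β := β) hT hr hS (Finset.subset_union_left) hS' A hA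
  rw [hsd] at h1
  have h2 : ∀ C ∈ O.powerset, baseW G β (S ∪ O) (A ∪ C) =
      baseW G β S A * exch G β B O (A ∩ B) C := fun C hC =>
    baseW_split hd hB hedge hA (Finset.mem_powerset.mp hC)
  rw [Finset.sum_congr rfl h2, ← Finset.mul_sum, mul_comm] at h1
  exact mul_right_cancel₀ (baseW_pos G β S A).ne' h1

/-! ### Dependence on the coordinates in `S` only -/

theorem tilt_congr (S A : Finset V) {y y' : V → ℝ} (h : ∀ v ∈ S, y v = y' v) :
    tilt S A y = tilt S A y' :=
  Finset.sum_congr rfl fun v hv => by rw [h v hv]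

theorem wt_congr (S A : Finset V) {y y' : V → ℝ} (h : ∀ v ∈ S, y v = y' v) :
    wt G β S y A = wt G β S y' A := by
  unfold wt; rw [tilt_congr S A h]

theorem Zf_congr (S : Finset V) {y y' : V → ℝ} (h : ∀ v ∈ S, y v = y' v) :
    Zf G β S y = Zf G β S y' :=
  Finset.sum_congr rfl fun A _ => wt_congr S A h

theorem mu_congr (S A : Finset V) {y y' : V → ℝ} (h : ∀ v ∈ S, y v = y' v) :
    mu G β S y A = mu G β S y' A := by
  unfold mu; rw [wt_congr S A h, Zf_congr S h]

theorem Ee_congr (S : Finset V) {y y' : V → ℝ} (h : ∀ v ∈ S, y v = y' v) (f : Finset V → ℝ) :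
    Ee G β S y f = Ee G β S y' f :=
  Finset.sum_congr rfl fun A _ => by rw [mu_congr S A h]

theorem condSum_congr (S B τ : Finset V) {y y' : V → ℝ} (h : ∀ v ∈ S, y v = y' v)
    (φ : Finset V → ℝ) : condSum G β S B y τ φ = condSum G β S B y' τ φ :=
  Finset.sum_congr rfl fun A _ => by rw [wt_congr S A h]

theorem condMean_congr (S B τ : Finset V) {y y' : V → ℝ} (h : ∀ v ∈ S, y v = y' v) (v : V) :
    condMean G β S B y τ v = condMean G β S B y' τ v := by
  unfold condMean; rw [condSum_congr S B τ h, condSum_congr S B τ h]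

theorem condLin_congr (S B τ : Finset V) {y y' : V → ℝ} (h : ∀ v ∈ S, y v = y' v) (a : V → ℝ) :
    condLin G β S B y a τ = condLin G β S B y' a τ :=
  Finset.sum_congr rfl fun v _ => by rw [condMean_congr S B τ h]

end Vale.Agent.Lib.P161
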