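import Vale.Agent.Lib.P161.Planted
import Vale.Agent.Lib.P161.StaticAlg

/-! Comparison of the Euler scheme at step `δ` with the scheme at step `δ/2`, with consistent
noise. -/

open MeasureTheory Finset
open scoped Classical ENNReal

noncomputable section

namespace Vale.Agent.Lib.P161

variable {V : Type*} {G : SimpleGraph V} {β : ℝ}

/-- Last step form of the flow. -/
theorem flow_succ (S : Finset V) (δ : ℝ) (ξ : ℕ → V → ℝ) (i n : ℕ) (x : V → ℝ) :
    flow G β S δ ξ i (n + 1) x = eulerStep G β S δ (ξ (i + n)) (flow G β S δ ξ i n x) := by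
  induction n generalizing i x with
  | zero => simp [flow]
  | succ n ih =>
    rw [flow, ih (i + 1), flow]
    congr 2
    omega

/-- Mean spins read only the coordinates in `S`. -/
theorem mean_congr (S : Finset V) {x x' : V → ℝ} (hx : ∀ v ∈ S, x v = x' v) (v : V) :
    mean G β S x v = mean G β S x' v :=
  Ee_congr S hx _

/-- Covariances read only the coordinates in `S`. -/
theorem cov_congr (S : Finset V) {x x' : V → ℝ} (hx : ∀ v ∈ S, x v = x' v) (u v : V) :
    cov G β S x u v = cov G β S x' u v := by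
  unfold cov
  rw [Ee_congr S hx, mean_congr S hx, mean_congr S hx]

/-- The Euler scheme reads only the coordinates in `S`, except for its own coordinate. Expressed as:
the value at `v` of the flow, for `v ∈ S`, only depends on the coordinates in `S` of the start. -/
theorem flow_congr (S : Finset V) (δ : ℝ) (ξ ξ' : ℕ → V → ℝ) (i n : ℕ) (x x' : V → ℝ)
    (hξ : ∀ k v, v ∈ S → ξ k v = ξ' k v) (hx : ∀ v ∈ S, x v = x' v) :
    ∀ v ∈ S, flow G β S δ ξ i n x v = flow G β S δ ξ' i n x' v := by
  induction n generalizing i x x' with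
  | zero => simpa [flow] using hx
  | succ n ih =>
    simp only [flow]
    refine ih (i + 1) _ _ fun v hv => ?_
    simp only [eulerStep]
    rw [hx v hv, mean_congr S hx, hξ i v hv]

section Measurability

theorem measurable_eulerStep (S : Finset V) (δ : ℝ) (i : ℕ) :
    Measurable (fun p : (ℕ → V → ℝ) × (V → ℝ) =>
      (p.1, eulerStep G β S δ (p.1 i) p.2)) := by
  refine measurable_fst.prodMk (measurable_pi_iff.2 fun v => ?_)
  unfold eulerStep
  have h1 : Measurable (fun p : (ℕ → V → ℝ) × (V → ℝ) => p.2 v) := by fun_prop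
  have h2 : Measurable (fun p : (ℕ → V → ℝ) × (V → ℝ) => mean G β S p.2 v) :=
    (measurable_mean (G := G) (β := β) S v).comp measurable_snd
  have h3 : Measurable (fun p : (ℕ → V → ℝ) × (V → ℝ) => p.1 i v) := by fun_prop
  exact (h1.add (h2.const_mul δ)).add (h3.const_mul _)

/-- Measurability of the flow in the noise and the start point jointly. -/
theorem measurable_flow (S : Finset V) (δ : ℝ) (i n : ℕ) :
    Measurable (fun p : (ℕ → V → ℝ) × (V → ℝ) => flow G β S δ p.1 i n p.2) := by
  induction n generalizing i with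
  | zero => simpa [flow] using measurable_snd
  | succ n ih => exact (ih (i + 1)).comp (measurable_eulerStep S δ i)

/-- Measurability of the row vector in the noise and the start point jointly. -/
theorem measurable_rowB (S : Finset V) (δ : ℝ) (r : V) (i n : ℕ) :
    Measurable (fun p : (ℕ → V → ℝ) × (V → ℝ) => rowB G β S δ p.1 r i n p.2) := by
  induction n generalizing i with
  | zero =>
    refine measurable_pi_iff.2 fun v => ?_
    simp only [rowB]
    exact measurable_const
  | succ n ih =>
    refine measurable_pi_iff.2 fun v => ?_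
    simp only [rowB]
    have hs := measurable_eulerStep (G := G) (β := β) S δ i
    have h0 : Measurable (fun p : (ℕ → V → ℝ) × (V → ℝ) =>
        rowB G β S δ p.1 r (i + 1) n (eulerStep G β S δ (p.1 i) p.2)) := (ih (i + 1)).comp hs
    have h1 : ∀ u, Measurable (fun p : (ℕ → V → ℝ) × (V → ℝ) =>
        rowB G β S δ p.1 r (i + 1) n (eulerStep G β S δ (p.1 i) p.2) u) :=
      fun u => (measurable_pi_apply u).comp h0
    refine (h1 v).add ((Finset.measurable_sum _ fun u _ => ?_).const_mul δ)
    exact (h1 u).mul ((measurable_cov (G := G) (β := β) S u v).comp measurable_snd)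

end Measurability

/-- The first moment bound for a standard Gaussian. -/
theorem lintegral_abs_gauss_le :
    ∫⁻ x, ENNReal.ofReal |x| ∂(ProbabilityTheory.gaussianReal 0 1) ≤ 1 := by
  have hle : ∀ x : ℝ, ENNReal.ofReal |x| ≤ ENNReal.ofReal ((1 + x ^ 2) / 2) := fun x => by
    apply ENNReal.ofReal_le_ofReal
    nlinarith [sq_abs x, sq_nonneg (|x| - 1)]
  refine (lintegral_mono hle).trans ?_
  have hv : ProbabilityTheory.variance (fun x : ℝ => x) (ProbabilityTheory.gaussianReal 0 1) = 1 := by
    simp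
  have hm : MemLp (fun x : ℝ => x) 2 (ProbabilityTheory.gaussianReal 0 1) :=
    ProbabilityTheory.memLp_id_gaussianReal' 2 (by norm_num)
  have hi : Integrable (fun x : ℝ => x ^ 2) (ProbabilityTheory.gaussianReal 0 1) :=
    hm.integrable_sq
  have hs : ∫ x, x ^ 2 ∂(ProbabilityTheory.gaussianReal 0 1) = 1 := by
    have := ProbabilityTheory.variance_eq_sub hm
    have h0 : ∫ x, x ∂(ProbabilityTheory.gaussianReal 0 1) = 0 := by
      simp
    rw [hv, h0] at this
    simpa using this.symm
  have hi2 : Integrable (fun x : ℝ => (1 + x ^ 2) / 2) (ProbabilityTheory.gaussianReal 0 1) :=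
    ((integrable_const 1).add hi).div_const 2
  rw [← ofReal_integral_eq_lintegral_ofReal hi2 (Filter.Eventually.of_forall fun x => by positivity)]
  have : ∫ x, (1 + x ^ 2) / 2 ∂(ProbabilityTheory.gaussianReal 0 1) = 1 := by
    rw [integral_div, integral_add (integrable_const 1) hi, hs]
    simp
  rw [this]
  simp

/-- The `ℓ¹` norm on `S`. -/
def l1 (S : Finset V) (x : V → ℝ) : ℝ := ∑ v ∈ S, |x v|

theorem l1_nonneg (S : Finset V) (x : V → ℝ) : 0 ≤ l1 S x :=
  Finset.sum_nonneg fun _ _ => abs_nonneg _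

theorem mean_lip' (S : Finset V) (x y : V → ℝ) (u : V) :
    |mean G β S y u - mean G β S x u| ≤ 2 * l1 S (y - x) := by
  have := mean_lipschitz G β S x (y - x) u
  simpa [l1] using this

/-- One coarse step against two fine steps, pathwise. -/
theorem pathwise_step (S : Finset V) {δ : ℝ} (hδ0 : 0 < δ) (ξ0 ξ1 ξc x y : V → ℝ)
    (hsum : ∀ v, ξc v = (ξ0 v + ξ1 v) / Real.sqrt 2) :
    l1 S (eulerStep G β S (δ / 2) ξ1 (eulerStep G β S (δ / 2) ξ0 y) - eulerStep G β S δ ξc x) ≤
      (1 + 2 * S.card * δ) * l1 S (y - x) +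
        S.card * δ * (δ * S.card / 2 + Real.sqrt (δ / 2) * l1 S ξ0) := by
  set y1 := eulerStep G β S (δ / 2) ξ0 y with hy1
  set N : ℝ := (S.card : ℝ) with hN
  -- noise cancellation
  have hs2 : Real.sqrt 2 ≠ 0 := by positivity
  have hnoise : ∀ v, Real.sqrt (δ / 2) * ξ0 v + Real.sqrt (δ / 2) * ξ1 v =
      Real.sqrt δ * ξc v := by
    intro v
    rw [hsum v, Real.sqrt_div hδ0.le]
    field_simp
  -- distance of the intermediate point
  have h1 : l1 S (y1 - y) ≤ δ / 2 * N + Real.sqrt (δ / 2) * l1 S ξ0 := by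
    have e : ∀ v ∈ S, |(y1 - y) v| ≤ δ / 2 + Real.sqrt (δ / 2) * |ξ0 v| := by
      intro v _
      have : (y1 - y) v = δ / 2 * mean G β S y v + Real.sqrt (δ / 2) * ξ0 v := by
        simp only [Pi.sub_apply, hy1, eulerStep]; ring
      rw [this]
      refine (abs_add_le _ _).trans (add_le_add ?_ ?_)
      · rw [abs_mul, abs_of_pos (by positivity : 0 < δ / 2)]
        exact mul_le_of_le_one_right (by positivity) (abs_mean_le _ _ _ _ _)
      · rw [abs_mul, abs_of_nonneg (Real.sqrt_nonneg _)]
    calc l1 S (y1 - y) ≤ ∑ v ∈ S, (δ / 2 + Real.sqrt (δ / 2) * |ξ0 v|) :=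
          Finset.sum_le_sum e
      _ = _ := by
        rw [Finset.sum_add_distrib, Finset.sum_const, nsmul_eq_mul, ← Finset.mul_sum]
        simp only [l1, hN]; ring
  have h2 : l1 S (y1 - x) ≤ l1 S (y - x) + l1 S (y1 - y) := by
    calc l1 S (y1 - x) ≤ ∑ v ∈ S, (|(y - x) v| + |(y1 - y) v|) := by
          refine Finset.sum_le_sum fun v _ => ?_
          have : (y1 - x) v = (y - x) v + (y1 - y) v := by simp
          rw [this]; exact abs_add_le _ _
      _ = _ := Finset.sum_add_distrib
  -- pointwise bound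
  have hp : ∀ v ∈ S, |(eulerStep G β S (δ / 2) ξ1 y1 - eulerStep G β S δ ξc x) v| ≤
      |(y - x) v| + δ / 2 * (2 * l1 S (y - x)) + δ / 2 * (2 * l1 S (y1 - x)) := by
    intro v _
    have e : (eulerStep G β S (δ / 2) ξ1 y1 - eulerStep G β S δ ξc x) v =
        (y - x) v + δ / 2 * (mean G β S y v - mean G β S x v) +
          δ / 2 * (mean G β S y1 v - mean G β S x v) := by
      have h3 := hnoise v
      simp only [Pi.sub_apply, eulerStep, hy1] at *
      linear_combination h3
    rw [e]
    refine (abs_add_le _ _).trans (add_le_add ((abs_add_le _ _).trans (add_le_add le_rfl ?_)) ?_)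
    · rw [abs_mul, abs_of_pos (by positivity : 0 < δ / 2)]
      exact mul_le_mul_of_nonneg_left (mean_lip' S x y v) (by positivity)
    · rw [abs_mul, abs_of_pos (by positivity : 0 < δ / 2)]
      exact mul_le_mul_of_nonneg_left (mean_lip' S x y1 v) (by positivity)
  calc l1 S (eulerStep G β S (δ / 2) ξ1 y1 - eulerStep G β S δ ξc x)
      ≤ ∑ v ∈ S, (|(y - x) v| + δ / 2 * (2 * l1 S (y - x)) + δ / 2 * (2 * l1 S (y1 - x))) :=
        Finset.sum_le_sum hp
    _ = l1 S (y - x) + N * (δ * l1 S (y - x)) + N * (δ * l1 S (y1 - x)) := by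
        rw [Finset.sum_add_distrib, Finset.sum_add_distrib, Finset.sum_const, Finset.sum_const,
          nsmul_eq_mul, nsmul_eq_mul]
        simp only [hN, l1]; ring
    _ ≤ l1 S (y - x) + N * (δ * l1 S (y - x)) +
          N * (δ * (l1 S (y - x) + (δ / 2 * N + Real.sqrt (δ / 2) * l1 S ξ0))) := by
        gcongr
        exact h2.trans (by linarith)
    _ = _ := by ring

/-- Pathwise comparison and then expectation. `ξc` is the coarse noise, `ξf` the fine noise, with the
coarse variable the normalised sum of two fine ones. The measure space `Ω` is arbitrary. -/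
theorem refine_bound {Ω : Type*} [MeasurableSpace Ω] (P : Measure Ω) [IsProbabilityMeasure P]
    (S : Finset V) {δ : ℝ} (hδ0 : 0 < δ) (hδ1 : δ ≤ 1) (K : ℕ)
    (ξc ξf : Ω → ℕ → V → ℝ)
    (hmf : ∀ k v, Measurable (fun ω => ξf ω k v))
    (hsum : ∀ ω k v, ξc ω k v = (ξf ω (2 * k) v + ξf ω (2 * k + 1) v) / Real.sqrt 2)
    (hmom : ∀ k v, ∫⁻ ω, ENNReal.ofReal |ξf ω k v| ∂P ≤ 1) :
    ∫⁻ ω, ENNReal.ofReal (∑ v ∈ S,
        |flow G β S (δ / 2) (ξf ω) 0 (2 * K) 0 v - flow G β S δ (ξc ω) 0 K 0 v|) ∂P ≤
      ENNReal.ofReal (2 * Real.exp (2 * S.card * (K * δ)) * (K * δ) * (S.card : ℝ) ^ 2 *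
        Real.sqrt δ) := by
  set N : ℝ := (S.card : ℝ) with hN
  have hN0 : 0 ≤ N := Nat.cast_nonneg _
  -- the difference after `k` coarse steps
  let D : ℕ → Ω → ℝ := fun k ω =>
    l1 S (flow G β S (δ / 2) (ξf ω) 0 (2 * k) 0 - flow G β S δ (ξc ω) 0 k 0)
  have hD0 : ∀ k ω, 0 ≤ D k ω := fun k ω => l1_nonneg _ _
  -- the constants
  have hrt : Real.sqrt (δ / 2) ≤ Real.sqrt δ := Real.sqrt_le_sqrt (by linarith)
  have hrt1 : Real.sqrt δ ≤ 1 := Real.sqrt_le_one.2 hδ1
  have hδrt : δ ≤ Real.sqrt δ := by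
    have : Real.sqrt δ * Real.sqrt δ = δ := Real.mul_self_sqrt hδ0.le
    nlinarith [Real.sqrt_nonneg δ]
  set A : ℝ := 1 + 2 * N * δ with hA
  have hA1 : 1 ≤ A := by
    have : 0 ≤ 2 * N * δ := by positivity
    linarith
  set c : ℝ := 2 * N ^ 2 * δ * Real.sqrt δ with hc
  have hc0 : 0 ≤ c := by positivity
  -- the one step recursion, in expectation
  have hstep : ∀ k, ∫⁻ ω, ENNReal.ofReal (D (k + 1) ω) ∂P ≤
      ENNReal.ofReal A * ∫⁻ ω, ENNReal.ofReal (D k ω) ∂P + ENNReal.ofReal c := by
    intro k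
    have hpt : ∀ ω, D (k + 1) ω ≤ A * D k ω +
        N * δ * (δ * N / 2 + Real.sqrt (δ / 2) * l1 S (ξf ω (2 * k))) := by
      intro ω
      have e1 : flow G β S (δ / 2) (ξf ω) 0 (2 * (k + 1)) 0 =
          eulerStep G β S (δ / 2) (ξf ω (2 * k + 1))
            (eulerStep G β S (δ / 2) (ξf ω (2 * k))
              (flow G β S (δ / 2) (ξf ω) 0 (2 * k) 0)) := by
        have : 2 * (k + 1) = (2 * k + 1) + 1 := by ring
        rw [this, flow_succ, flow_succ]
        simp
      have e2 : flow G β S δ (ξc ω) 0 (k + 1) 0 =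
          eulerStep G β S δ (ξc ω k) (flow G β S δ (ξc ω) 0 k 0) := by
        rw [flow_succ]; simp
      simp only [D]
      rw [e1, e2]
      exact pathwise_step S hδ0 _ _ _ _ _ (fun v => hsum ω k v)
    -- measurability of the noise term
    have hml : Measurable (fun ω => l1 S (ξf ω (2 * k))) :=
      Finset.measurable_sum _ fun v _ => (hmf _ v).abs
    have hmN : ∫⁻ ω, ENNReal.ofReal (l1 S (ξf ω (2 * k))) ∂P ≤ ENNReal.ofReal N := by
      have e : ∀ ω, ENNReal.ofReal (l1 S (ξf ω (2 * k))) =
          ∑ v ∈ S, ENNReal.ofReal |ξf ω (2 * k) v| := fun ω =>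
        ENNReal.ofReal_sum_of_nonneg fun _ _ => abs_nonneg _
      simp_rw [e]
      rw [lintegral_finsetSum _ fun v _ => (hmf _ v).abs.ennreal_ofReal]
      calc ∑ v ∈ S, ∫⁻ ω, ENNReal.ofReal |ξf ω (2 * k) v| ∂P ≤ ∑ _v ∈ S, 1 :=
            Finset.sum_le_sum fun v _ => hmom _ v
        _ = ENNReal.ofReal N := by simp [hN]
    have hrts : 0 ≤ Real.sqrt (δ / 2) := Real.sqrt_nonneg _
    have hB : 0 ≤ N * δ * Real.sqrt (δ / 2) := by positivity
    have hC : 0 ≤ N * δ * (δ * N / 2) := by positivity
    calc ∫⁻ ω, ENNReal.ofReal (D (k + 1) ω) ∂P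
        ≤ ∫⁻ ω, (ENNReal.ofReal A * ENNReal.ofReal (D k ω) +
            (ENNReal.ofReal (N * δ * Real.sqrt (δ / 2)) * ENNReal.ofReal (l1 S (ξf ω (2 * k))) +
              ENNReal.ofReal (N * δ * (δ * N / 2)))) ∂P := by
          refine lintegral_mono fun ω => ?_
          rw [← ENNReal.ofReal_mul (by linarith), ← ENNReal.ofReal_mul hB,
            ← ENNReal.ofReal_add (mul_nonneg hB (l1_nonneg _ _)) hC,
            ← ENNReal.ofReal_add (mul_nonneg (by linarith) (hD0 _ _))
              (add_nonneg (mul_nonneg hB (l1_nonneg _ _)) hC)]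
          apply ENNReal.ofReal_le_ofReal
          refine (hpt ω).trans (le_of_eq ?_)
          ring
      _ = ENNReal.ofReal A * ∫⁻ ω, ENNReal.ofReal (D k ω) ∂P +
            (ENNReal.ofReal (N * δ * Real.sqrt (δ / 2)) *
                ∫⁻ ω, ENNReal.ofReal (l1 S (ξf ω (2 * k))) ∂P +
              ENNReal.ofReal (N * δ * (δ * N / 2))) := by
          have hg : Measurable (fun ω => ENNReal.ofReal (N * δ * Real.sqrt (δ / 2)) *
              ENNReal.ofReal (l1 S (ξf ω (2 * k))) + ENNReal.ofReal (N * δ * (δ * N / 2))) :=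
            (hml.ennreal_ofReal.const_mul _).add_const _
          have e2 : ∫⁻ ω, (ENNReal.ofReal (N * δ * Real.sqrt (δ / 2)) *
              ENNReal.ofReal (l1 S (ξf ω (2 * k))) + ENNReal.ofReal (N * δ * (δ * N / 2))) ∂P =
              ENNReal.ofReal (N * δ * Real.sqrt (δ / 2)) *
                ∫⁻ ω, ENNReal.ofReal (l1 S (ξf ω (2 * k))) ∂P +
                ENNReal.ofReal (N * δ * (δ * N / 2)) := by
            rw [lintegral_add_right _ measurable_const,
              lintegral_const_mul _ hml.ennreal_ofReal, lintegral_const]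
            simp
          rw [lintegral_add_right _ hg, e2, lintegral_const_mul' _ _ ENNReal.ofReal_ne_top]
      _ ≤ ENNReal.ofReal A * ∫⁻ ω, ENNReal.ofReal (D k ω) ∂P + ENNReal.ofReal c := by
          gcongr
          refine (add_le_add_left (mul_le_mul_right hmN _) _).trans ?_
          rw [← ENNReal.ofReal_mul hB, ← ENNReal.ofReal_add (by positivity) hC]
          apply ENNReal.ofReal_le_ofReal
          have h5 : N * δ * Real.sqrt (δ / 2) * N ≤ N ^ 2 * δ * Real.sqrt δ := by
            have : N * δ * Real.sqrt (δ / 2) * N = N ^ 2 * δ * Real.sqrt (δ / 2) := by ring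
            rw [this]
            exact mul_le_mul_of_nonneg_left hrt (by positivity)
          have h6 : N * δ * (δ * N / 2) ≤ N ^ 2 * δ * Real.sqrt δ := by
            have : N * δ * (δ * N / 2) = N ^ 2 * δ * (δ / 2) := by ring
            rw [this]
            refine mul_le_mul_of_nonneg_left ?_ (by positivity)
            linarith
          rw [hc]
          linarith
  -- iterate
  have hiter : ∀ k : ℕ, ∫⁻ ω, ENNReal.ofReal (D k ω) ∂P ≤
      ENNReal.ofReal (k * c * A ^ k) := by
    intro k
    induction k with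
    | zero =>
      have : ∀ ω, D 0 ω = 0 := by
        intro ω
        simp [D, flow, l1]
      simp [this]
    | succ k ih =>
      refine (hstep k).trans ?_
      refine (add_le_add_left (mul_le_mul_right ih _) _).trans ?_
      rw [← ENNReal.ofReal_mul (by linarith), ← ENNReal.ofReal_add (by positivity) hc0]
      apply ENNReal.ofReal_le_ofReal
      have hAk : 1 ≤ A ^ k := one_le_pow₀ hA1
      have hAk1 : A ^ (k + 1) = A ^ k * A := pow_succ _ _
      push_cast
      rw [hAk1]
      have h7 : (0 : ℝ) ≤ k := Nat.cast_nonneg _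
      have h8 : c * A ^ k * A ≥ c := by
        have : A ^ k * A ≥ 1 := one_le_mul_of_one_le_of_one_le hAk hA1
        nlinarith
      nlinarith
  -- conclusion
  have hfin := hiter K
  have hexp : A ^ K ≤ Real.exp (2 * N * (K * δ)) := by
    have h1 : A ≤ Real.exp (2 * N * δ) := by
      have := Real.add_one_le_exp (2 * N * δ)
      linarith
    calc A ^ K ≤ Real.exp (2 * N * δ) ^ K := pow_le_pow_left₀ (by linarith) h1 K
      _ = Real.exp (2 * N * (K * δ)) := by
          rw [← Real.exp_nat_mul]; congr 1; ring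
  refine le_trans ?_ (hfin.trans (ENNReal.ofReal_le_ofReal ?_))
  · refine lintegral_mono fun ω => ?_
    rfl
  · have hK : (0 : ℝ) ≤ K := Nat.cast_nonneg _
    have : K * c * A ^ K ≤ K * c * Real.exp (2 * N * (K * δ)) :=
      mul_le_mul_of_nonneg_left hexp (by positivity)
    refine this.trans (le_of_eq ?_)
    rw [hc]; ring

end Vale.Agent.Lib.P161
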