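import Vale.Agent.Lib.P161.Static
import Vale.Agent.Lib.P161.Flow
import Vale.Agent.Lib.P161.Refine

/-! Algebra of the exact chain operator, and dependence of the flow on its inputs. -/

open MeasureTheory Finset
open scoped Classical ENNReal

noncomputable section

namespace Vale.Agent.Lib.P161

variable {V : Type*} {G : SimpleGraph V} {β : ℝ}

section chainAlg

variable {S : Finset V} {δ : ℝ} {i : ℕ} {ξ : ℕ → V → ℝ}

theorem sum_ofReal_mu (S : Finset V) (y : V → ℝ) :
    ∑ A ∈ S.powerset, ENNReal.ofReal (mu G β S y A) = 1 := by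
  rw [← ENNReal.ofReal_sum_of_nonneg (fun A _ => (mu_pos _ _ _ _ _).le), sum_mu]
  simp

theorem Tstep_mono (ξ₀ : V → ℝ) {f g : (V → ℝ) → ℝ≥0∞} (h : ∀ y, f y ≤ g y) (y : V → ℝ) :
    Tstep G β S δ ξ₀ f y ≤ Tstep G β S δ ξ₀ g y :=
  Finset.sum_le_sum fun _ _ => mul_le_mul_right (h _) _

theorem Tstep_add (ξ₀ : V → ℝ) (f g : (V → ℝ) → ℝ≥0∞) (y : V → ℝ) :
    Tstep G β S δ ξ₀ (fun y => f y + g y) y = Tstep G β S δ ξ₀ f y + Tstep G β S δ ξ₀ g y := by
  unfold Tstep
  rw [← Finset.sum_add_distrib]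
  exact Finset.sum_congr rfl fun A _ => by rw [mul_add]

theorem Tstep_const_mul (ξ₀ : V → ℝ) (c : ℝ≥0∞) (f : (V → ℝ) → ℝ≥0∞) (y : V → ℝ) :
    Tstep G β S δ ξ₀ (fun y => c * f y) y = c * Tstep G β S δ ξ₀ f y := by
  unfold Tstep
  rw [Finset.mul_sum]
  exact Finset.sum_congr rfl fun A _ => by rw [mul_left_comm]

theorem Tstep_const (ξ₀ : V → ℝ) (c : ℝ≥0∞) (y : V → ℝ) :
    Tstep G β S δ ξ₀ (fun _ => c) y = c := by
  unfold Tstep
  rw [← Finset.sum_mul, sum_ofReal_mu, one_mul]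

theorem chainFrom_mono (n : ℕ) : ∀ {f g : (V → ℝ) → ℝ≥0∞}, (∀ y, f y ≤ g y) → ∀ y,
    chainFrom G β S δ i ξ n f y ≤ chainFrom G β S δ i ξ n g y := by
  induction n with
  | zero => intro f g h y; exact h y
  | succ n ih =>
    intro f g h y
    exact ih (fun y => Tstep_mono _ h y) y

theorem chainFrom_add' (n : ℕ) : ∀ (f g : (V → ℝ) → ℝ≥0∞) (y : V → ℝ),
    chainFrom G β S δ i ξ n (fun y => f y + g y) y =
      chainFrom G β S δ i ξ n f y + chainFrom G β S δ i ξ n g y := by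
  induction n with
  | zero => intro f g y; rfl
  | succ n ih =>
    intro f g y
    simp only [chainFrom]
    rw [← ih]
    congr 1
    funext y
    exact Tstep_add _ f g y

theorem chainFrom_const_mul (n : ℕ) : ∀ (c : ℝ≥0∞) (f : (V → ℝ) → ℝ≥0∞) (y : V → ℝ),
    chainFrom G β S δ i ξ n (fun y => c * f y) y = c * chainFrom G β S δ i ξ n f y := by
  induction n with
  | zero => intro c f y; rfl
  | succ n ih =>
    intro c f y
    simp only [chainFrom]
    rw [← ih]
    congr 1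
    funext y
    exact Tstep_const_mul _ c f y

theorem chainFrom_const (n : ℕ) : ∀ (c : ℝ≥0∞) (y : V → ℝ),
    chainFrom G β S δ i ξ n (fun _ => c) y = c := by
  induction n with
  | zero => intro c y; rfl
  | succ n ih =>
    intro c y
    simp only [chainFrom]
    have : Tstep G β S δ (ξ (i + n)) (fun _ => c) = fun _ => c := by
      funext y
      exact Tstep_const _ c y
    rw [this, ih]

/-- Joint measurability of the chain operator. -/
theorem measurable_Tstep_joint (F : (ℕ → V → ℝ) → (V → ℝ) → ℝ≥0∞)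
    (hF : Measurable (Function.uncurry F)) (j : ℕ) :
    Measurable (Function.uncurry fun (ξ : ℕ → V → ℝ) (y : V → ℝ) =>
      Tstep G β S δ (ξ j) (F ξ) y) := by
  unfold Function.uncurry
  simp only [Tstep]
  refine Finset.measurable_sum _ fun A _ => ?_
  refine Measurable.mul ?_ ?_
  · exact ENNReal.measurable_ofReal.comp ((measurable_mu S A).comp measurable_snd)
  · have hnext : Measurable (fun p : (ℕ → V → ℝ) × (V → ℝ) =>
        (p.1, p.2 + δ • stepVec S A + Real.sqrt δ • p.1 j)) := by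
      refine measurable_fst.prodMk ?_
      refine measurable_pi_iff.mpr fun v => ?_
      simp only [Pi.add_apply, Pi.smul_apply, smul_eq_mul]
      refine Measurable.add ?_ ?_
      · refine Measurable.add ?_ measurable_const
        exact (measurable_pi_apply v).comp measurable_snd
      · refine Measurable.const_mul ?_ _
        exact (measurable_pi_apply v).comp ((measurable_pi_apply j).comp measurable_fst)
    exact hF.comp hnext

theorem measurable_chainFrom_uc (i n : ℕ) : ∀ (F : (ℕ → V → ℝ) → (V → ℝ) → ℝ≥0∞),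
    Measurable (Function.uncurry F) → Measurable (Function.uncurry fun (ξ : ℕ → V → ℝ) (y : V → ℝ) =>
      chainFrom G β S δ i ξ n (F ξ) y) := by
  induction n with
  | zero => intro F hF; exact hF
  | succ n ih =>
    intro F hF
    exact ih (fun ξ y => Tstep G β S δ (ξ (i + n)) (F ξ) y) (measurable_Tstep_joint F hF (i + n))

end chainAlg

section congr

variable {S : Finset V} {δ : ℝ} {r : V}

theorem eulerStep_congr_state (ξ₀ : V → ℝ) {y y' : V → ℝ} (h : ∀ v ∈ S, y v = y' v) :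
    ∀ v ∈ S, eulerStep G β S δ ξ₀ y v = eulerStep G β S δ ξ₀ y' v := by
  intro v hv
  simp only [eulerStep]
  rw [h v hv, mean_congr S h]

theorem rowB_congr_state (ξ : ℕ → V → ℝ) (n : ℕ) : ∀ (i : ℕ) (x x' : V → ℝ),
    (∀ v ∈ S, x v = x' v) → rowB G β S δ ξ r i n x = rowB G β S δ ξ r i n x' := by
  induction n with
  | zero => intro i x x' _; rfl
  | succ n ih =>
    intro i x x' h
    funext v
    simp only [rowB]
    rw [ih (i + 1) _ _ (eulerStep_congr_state (ξ i) h)]
    congr 2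
    refine Finset.sum_congr rfl fun u _ => ?_
    rw [cov_congr S h]

theorem rowB_congr_noise (n : ℕ) : ∀ (i : ℕ) (x : V → ℝ) (ξ ξ' : ℕ → V → ℝ),
    (∀ j, i ≤ j → ξ j = ξ' j) → rowB G β S δ ξ r i n x = rowB G β S δ ξ' r i n x := by
  induction n with
  | zero => intro i x ξ ξ' _; rfl
  | succ n ih =>
    intro i x ξ ξ' h
    funext v
    simp only [rowB]
    rw [h i le_rfl, ih (i + 1) _ ξ ξ' (fun j hj => h j (by omega))]

theorem flow_succ_front (ξ : ℕ → V → ℝ) (i n : ℕ) (x : V → ℝ) :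
    flow G β S δ ξ i (n + 1) x = flow G β S δ ξ (i + 1) n (eulerStep G β S δ (ξ i) x) := rfl

end congr

/-- Average of a squared perturbation, with a centred part. -/
theorem avg_sq_bound {ι : Type*} (s : Finset ι) (p q r₀ : ι → ℝ) (hp : ∀ A ∈ s, 0 ≤ p A)
    (hsum : ∑ A ∈ s, p A = 1) (hq : ∑ A ∈ s, p A * q A = 0) {u c Q R K₀ : ℝ} (hK₀ : 0 < K₀)
    (hqb : ∀ A ∈ s, |q A| ≤ Q) (hc : |c| ≤ Q) (hr : ∀ A ∈ s, |r₀ A| ≤ R) (hR : 0 ≤ R) :
    ∑ A ∈ s, p A * (u + q A + c + r₀ A) ^ 2 ≤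
      (1 + 1 / K₀) * u ^ 2 + 2 * K₀ * c ^ 2 + (2 * K₀ * R ^ 2 + (2 * Q + R) ^ 2) := by
  have hQ : 0 ≤ Q := (abs_nonneg _).trans hc
  set m := ∑ A ∈ s, p A * r₀ A with hm
  have hmb : |m| ≤ R := by
    calc |m| ≤ ∑ A ∈ s, |p A * r₀ A| := Finset.abs_sum_le_sum_abs _ _
      _ ≤ ∑ A ∈ s, p A * R := by
          refine Finset.sum_le_sum fun A hA => ?_
          rw [abs_mul, abs_of_nonneg (hp A hA)]
          exact mul_le_mul_of_nonneg_left (hr A hA) (hp A hA)
      _ = R := by rw [← Finset.sum_mul, hsum, one_mul]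
  have hterm : ∀ A ∈ s, p A * (u + q A + c + r₀ A) ^ 2 ≤
      p A * (u ^ 2 + 2 * u * c) + 2 * u * (p A * q A) + 2 * u * (p A * r₀ A) +
        p A * (2 * Q + R) ^ 2 := by
    intro A hA
    have h1 : (q A + c + r₀ A) ^ 2 ≤ (2 * Q + R) ^ 2 := by
      have h2 : |q A + c + r₀ A| ≤ 2 * Q + R := by
        calc |q A + c + r₀ A| ≤ |q A + c| + |r₀ A| := abs_add_le _ _
          _ ≤ |q A| + |c| + |r₀ A| := by gcongr; exact abs_add_le _ _
          _ ≤ _ := by linarith [hqb A hA, hr A hA]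
      calc (q A + c + r₀ A) ^ 2 = |q A + c + r₀ A| ^ 2 := (sq_abs _).symm
        _ ≤ _ := pow_le_pow_left₀ (abs_nonneg _) h2 2
    have e : (u + q A + c + r₀ A) ^ 2 = u ^ 2 + 2 * u * c + 2 * u * q A + 2 * u * r₀ A +
        (q A + c + r₀ A) ^ 2 := by ring
    rw [e]
    have := mul_le_mul_of_nonneg_left h1 (hp A hA)
    nlinarith [this]
  calc ∑ A ∈ s, p A * (u + q A + c + r₀ A) ^ 2
      ≤ ∑ A ∈ s, (p A * (u ^ 2 + 2 * u * c) + 2 * u * (p A * q A) + 2 * u * (p A * r₀ A) +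
          p A * (2 * Q + R) ^ 2) := Finset.sum_le_sum hterm
    _ = (u ^ 2 + 2 * u * c) + 2 * u * m + (2 * Q + R) ^ 2 := by
        simp only [Finset.sum_add_distrib, ← Finset.sum_mul, ← Finset.mul_sum, hsum, hq, ← hm]
        ring
    _ ≤ _ := by
        -- two applications of `2ab ≤ a²/(2K) + 2K b²`
        have h1 : 2 * u * c ≤ u ^ 2 / (2 * K₀) + 2 * K₀ * c ^ 2 := by
          have : 0 ≤ (u / (2 * K₀) - c) ^ 2 * (2 * K₀) := by positivity
          have e : (u / (2 * K₀) - c) ^ 2 * (2 * K₀) =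
              u ^ 2 / (2 * K₀) - 2 * u * c + 2 * K₀ * c ^ 2 := by
            field_simp
            ring
          linarith
        have h2 : 2 * u * m ≤ u ^ 2 / (2 * K₀) + 2 * K₀ * m ^ 2 := by
          have : 0 ≤ (u / (2 * K₀) - m) ^ 2 * (2 * K₀) := by positivity
          have e : (u / (2 * K₀) - m) ^ 2 * (2 * K₀) =
              u ^ 2 / (2 * K₀) - 2 * u * m + 2 * K₀ * m ^ 2 := by
            field_simp
            ring
          linarith
        have h3 : m ^ 2 ≤ R ^ 2 := by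
          calc m ^ 2 = |m| ^ 2 := (sq_abs _).symm
            _ ≤ _ := pow_le_pow_left₀ (abs_nonneg _) hmb 2
        have h4 : 2 * K₀ * m ^ 2 ≤ 2 * K₀ * R ^ 2 :=
          mul_le_mul_of_nonneg_left h3 (by positivity)
        have e5 : (1 + 1 / K₀) * u ^ 2 = u ^ 2 + u ^ 2 / (2 * K₀) + u ^ 2 / (2 * K₀) := by
          field_simp
          ring
        rw [e5]
        linarith

end Vale.Agent.Lib.P161
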