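import Mathlib

/-! Gaussian computations for the product measure on `V → ℝ`. -/

open MeasureTheory ProbabilityTheory
open scoped ENNReal NNReal

namespace Vale.Agent.Lib.P161

variable {V : Type*}

/-- The iid standard normal field on `V`. -/
noncomputable def gam (V : Type*) : Measure (V → ℝ) :=
  Measure.infinitePi (fun _ : V => gaussianReal 0 1)

instance : IsProbabilityMeasure (gam V) := by unfold gam; infer_instance

theorem lintegral_prod_coord (s : Finset V) (f : V → ℝ → ℝ≥0∞) (hf : ∀ v, Measurable (f v)) :
    ∫⁻ g, ∏ v ∈ s, f v (g v) ∂gam V = ∏ v ∈ s, ∫⁻ x, f v x ∂gaussianReal 0 1 := by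
  have hind : iIndepFun (fun v (g : V → ℝ) => f v (g v)) (gam V) :=
    iIndepFun_infinitePi (P := fun _ : V => gaussianReal 0 1) (X := fun v x => f v x) hf
  rw [lintegral_prod_eq_prod_lintegral_of_indepFun s _ hind]
  · refine Finset.prod_congr rfl (fun v _ => ?_)
    have h1 := Measure.infinitePi_map_eval (fun _ : V => gaussianReal (0 : ℝ) 1) v
    conv_rhs => rw [← h1]
    rw [lintegral_map (hf v) (measurable_pi_apply v)]
    rfl
  · intro v
    exact (hf v).comp (measurable_pi_apply v)

/-- Indicator of a box as a product. -/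
private theorem indicator_pi (t : Finset V) (B : V → Set ℝ) (y : V → ℝ) :
    (Set.pi t B).indicator (1 : (V → ℝ) → ℝ≥0∞) y = ∏ v ∈ t, (B v).indicator 1 (y v) := by
  classical
  by_cases hy : y ∈ Set.pi t B
  · rw [Set.indicator_of_mem hy]
    symm
    apply Finset.prod_eq_one
    intro v hv
    rw [Set.indicator_of_mem (hy v hv)]
    rfl
  · rw [Set.indicator_of_notMem hy]
    simp only [Set.mem_pi, not_forall] at hy
    obtain ⟨v, hv, hyv⟩ := hy
    symm
    apply Finset.prod_eq_zero (show v ∈ t from hv)
    rw [Set.indicator_of_notMem hyv]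

/-- A transformation of a pair of fields whose law is determined on boxes. -/
private theorem lintegral_two_of_boxes (φ : (V → ℝ) → (V → ℝ) → (V → ℝ))
    (hφ : Measurable (fun p : (V → ℝ) × (V → ℝ) => φ p.1 p.2))
    (ρ : V → Measure ℝ) [∀ v, IsProbabilityMeasure (ρ v)]
    (hbox : ∀ (t : Finset V) (B : V → Set ℝ), (∀ v, MeasurableSet (B v)) →
      ∫⁻ g, ∫⁻ ξ, ∏ v ∈ t, (B v).indicator 1 (φ g ξ v) ∂gam V ∂gam V = ∏ v ∈ t, ρ v (B v))
    (F : (V → ℝ) → ℝ≥0∞) (hF : Measurable F) :
    ∫⁻ g, ∫⁻ ξ, F (φ g ξ) ∂gam V ∂gam V = ∫⁻ z, F z ∂Measure.infinitePi ρ := by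
  have key : ((gam V).prod (gam V)).map (fun p : (V → ℝ) × (V → ℝ) => φ p.1 p.2) =
      Measure.infinitePi ρ := by
    refine Measure.eq_infinitePi ρ (fun s t ht => ?_)
    have hmeas : MeasurableSet (Set.pi (s : Set V) t) :=
      MeasurableSet.pi s.countable_toSet (fun v _ => ht v)
    rw [← lintegral_indicator_one hmeas, lintegral_map ((measurable_one.indicator hmeas)) hφ]
    have h1 := lintegral_prod (μ := gam V) (ν := gam V)
      (fun p : (V → ℝ) × (V → ℝ) => (Set.pi (s : Set V) t).indicator (1 : (V → ℝ) → ℝ≥0∞) (φ p.1 p.2))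
      ((measurable_one.indicator hmeas).comp hφ).aemeasurable
    rw [h1]
    simp only [indicator_pi]
    exact hbox s t ht
  rw [← key, lintegral_map hF hφ]
  exact (lintegral_prod (μ := gam V) (ν := gam V) (fun p : (V → ℝ) × (V → ℝ) => F (φ p.1 p.2))
    (hF.comp hφ).aemeasurable).symm

/-- The shifted Gaussian as a density with respect to the standard one. -/
private theorem gaussian_shift (a : ℝ) :
    gaussianReal a 1 = (gaussianReal 0 1).withDensity
      (fun x => ENNReal.ofReal (Real.exp (a * x - a ^ 2 / 2))) := by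
  have hm : Measurable (fun x : ℝ => ENNReal.ofReal (Real.exp (a * x - a ^ 2 / 2))) := by fun_prop
  rw [gaussianReal_of_var_ne_zero a one_ne_zero, gaussianReal_of_var_ne_zero 0 one_ne_zero,
    ← withDensity_mul _ (measurable_gaussianPDF 0 1) hm]
  congr 1
  ext x
  simp only [Pi.mul_apply, gaussianPDF_def]
  rw [← ENNReal.ofReal_mul (gaussianPDFReal_nonneg _ _ _)]
  congr 1
  simp only [gaussianPDFReal, NNReal.coe_one, mul_one]
  rw [mul_assoc, ← Real.exp_add]
  congr 2
  ring

/-- Cameron-Martin shift formula for a finitely supported shift. -/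
theorem cameron_martin (S : Finset V) (a : V → ℝ) (ha : ∀ v, v ∉ S → a v = 0)
    (F : (V → ℝ) → ℝ≥0∞) (hF : Measurable F) :
    ∫⁻ g, F (a + g) ∂gam V =
      ∫⁻ g, F g * ENNReal.ofReal (Real.exp (∑ v ∈ S, (a v * g v - a v ^ 2 / 2))) ∂gam V := by
  classical
  have hshift : (gam V).map (fun g => a + g) =
      Measure.infinitePi (fun v => gaussianReal (a v) 1) := by
    have h1 : (gam V).map (fun g => a + g) =
        (Measure.infinitePi (fun _ : V => gaussianReal (0 : ℝ) 1)).map
          (fun g v => (fun x => a v + x) (g v)) := rfl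
    rw [h1, Measure.infinitePi_map_pi _ (fun v => by fun_prop)]
    congr 1
    ext1 v
    rw [gaussianReal_map_const_add]
    simp
  set D : (V → ℝ) → ℝ≥0∞ :=
    fun g => ENNReal.ofReal (Real.exp (∑ v ∈ S, (a v * g v - a v ^ 2 / 2))) with hD
  have hDm : Measurable D := by
    simp only [hD]
    apply ENNReal.measurable_ofReal.comp
    apply Real.measurable_exp.comp
    apply Finset.measurable_sum
    intro v _
    exact ((measurable_const.mul (measurable_pi_apply v)).sub measurable_const)
  have hdens : (gam V).withDensity D =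
      Measure.infinitePi (fun v => gaussianReal (a v) 1) := by
    refine Measure.eq_infinitePi _ (fun s t ht => ?_)
    have hmeas : MeasurableSet (Set.pi (s : Set V) t) :=
      MeasurableSet.pi s.countable_toSet (fun v _ => ht v)
    rw [withDensity_apply _ hmeas, ← lintegral_indicator hmeas]
    -- coordinate factors
    set u : V → ℝ → ℝ≥0∞ := fun v x =>
      (if v ∈ s then (t v).indicator 1 x else 1) *
        (if v ∈ S then ENNReal.ofReal (Real.exp (a v * x - a v ^ 2 / 2)) else 1) with hu
    have hum : ∀ v, Measurable (u v) := by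
      intro v
      simp only [hu]
      refine Measurable.mul ?_ ?_
      · split_ifs
        · exact measurable_one.indicator (ht v)
        · exact measurable_const
      · split_ifs
        · fun_prop
        · exact measurable_const
    have hpt : ∀ g : V → ℝ, (Set.pi (s : Set V) t).indicator D g = ∏ v ∈ s ∪ S, u v (g v) := by
      intro g
      simp only [hu]
      rw [Finset.prod_mul_distrib]
      have h1 : ∏ v ∈ s ∪ S, (if v ∈ s then (t v).indicator (1 : ℝ → ℝ≥0∞) (g v) else 1) =
          (Set.pi (s : Set V) t).indicator (1 : (V → ℝ) → ℝ≥0∞) g := by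
        rw [indicator_pi]
        rw [← Finset.prod_subset (Finset.subset_union_left (s₁ := s) (s₂ := S))]
        · exact Finset.prod_congr rfl (fun v hv => by rw [if_pos hv])
        · intro v _ hv
          rw [if_neg hv]
      have h2 : ∏ v ∈ s ∪ S,
          (if v ∈ S then ENNReal.ofReal (Real.exp (a v * g v - a v ^ 2 / 2)) else 1) = D g := by
        rw [← Finset.prod_subset (Finset.subset_union_right (s₁ := s) (s₂ := S))]
        · rw [Finset.prod_congr rfl (fun v hv => by rw [if_pos hv])]
          simp only [hD]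
          rw [Real.exp_sum, ENNReal.ofReal_prod_of_nonneg (fun v _ => (Real.exp_pos _).le)]
        · intro v _ hv
          rw [if_neg hv]
      rw [h1, h2]
      by_cases hg : g ∈ Set.pi (s : Set V) t
      · rw [Set.indicator_of_mem hg, Set.indicator_of_mem hg]
        simp
      · rw [Set.indicator_of_notMem hg, Set.indicator_of_notMem hg]
        simp
    simp only [hpt]
    rw [lintegral_prod_coord _ u hum]
    have hcoord : ∀ v, ∫⁻ x, u v x ∂gaussianReal 0 1 =
        if v ∈ s then gaussianReal (a v) 1 (t v) else 1 := by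
      intro v
      have hdv : gaussianReal (a v) 1 = (gaussianReal 0 1).withDensity
          (fun x => if v ∈ S then ENNReal.ofReal (Real.exp (a v * x - a v ^ 2 / 2)) else 1) := by
        by_cases hvS : v ∈ S
        · simp only [if_pos hvS]
          exact gaussian_shift _
        · simp only [if_neg hvS, ha v hvS]
          have : (fun _ : ℝ => (1 : ℝ≥0∞)) = 1 := rfl
          rw [this, withDensity_one]
      by_cases hvs : v ∈ s
      · simp only [hu, if_pos hvs]
        rw [hdv, withDensity_apply _ (ht v), ← lintegral_indicator (ht v)]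
        refine lintegral_congr (fun x => ?_)
        by_cases hx : x ∈ t v
        · rw [Set.indicator_of_mem hx, Set.indicator_of_mem hx]
          simp
        · rw [Set.indicator_of_notMem hx, Set.indicator_of_notMem hx]
          simp
      · simp only [hu, if_neg hvs, one_mul]
        have h3 : ∫⁻ x, (if v ∈ S then ENNReal.ofReal (Real.exp (a v * x - a v ^ 2 / 2)) else 1)
            ∂gaussianReal 0 1 = gaussianReal (a v) 1 Set.univ := by
          rw [hdv, withDensity_apply _ MeasurableSet.univ, Measure.restrict_univ]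
        rw [h3, measure_univ]
    simp only [hcoord]
    rw [← Finset.prod_subset (Finset.subset_union_left (s₁ := s) (s₂ := S))]
    · exact Finset.prod_congr rfl (fun v hv => by rw [if_pos hv])
    · intro v _ hv
      rw [if_neg hv]
  have h1 : ∫⁻ g, F (a + g) ∂gam V = ∫⁻ z, F z ∂(gam V).map (fun g => a + g) := by
    rw [lintegral_map hF (measurable_const_add a)]
  rw [h1, hshift, ← hdens, lintegral_withDensity_eq_lintegral_mul _ hDm hF]
  refine lintegral_congr (fun g => ?_)
  simp only [Pi.mul_apply]
  rw [mul_comm]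

/-- Law of a linear combination of two independent standard normals. -/
private theorem coord_add (a b : ℝ) (B : Set ℝ) (hB : MeasurableSet B) :
    ∫⁻ y, ∫⁻ x, B.indicator 1 (a * y + b * x) ∂gaussianReal 0 1 ∂gaussianReal 0 1 =
      gaussianReal 0 (.mk (a ^ 2) (sq_nonneg _) + .mk (b ^ 2) (sq_nonneg _)) B := by
  set N : Measure ℝ := gaussianReal 0 1 with hN
  have hX : Measurable (fun y : ℝ => a * y) := measurable_const_mul a
  have hY : Measurable (fun x : ℝ => b * x) := measurable_const_mul b
  have hind := indepFun_prod (μ := N) (ν := N) hX hY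
  have hfst : (N.prod N).map (fun p : ℝ × ℝ => a * p.1) =
      gaussianReal 0 (.mk (a ^ 2) (sq_nonneg _)) := by
    have : (fun p : ℝ × ℝ => a * p.1) = (fun y => a * y) ∘ Prod.fst := rfl
    rw [this, ← Measure.map_map hX measurable_fst, Measure.map_fst_prod]
    simp only [measure_univ, one_smul]
    rw [hN, gaussianReal_map_const_mul]
    simp
  have hsnd : (N.prod N).map (fun p : ℝ × ℝ => b * p.2) =
      gaussianReal 0 (.mk (b ^ 2) (sq_nonneg _)) := by
    have : (fun p : ℝ × ℝ => b * p.2) = (fun y => b * y) ∘ Prod.snd := rfl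
    rw [this, ← Measure.map_map hY measurable_snd, Measure.map_snd_prod]
    simp only [measure_univ, one_smul]
    rw [hN, gaussianReal_map_const_mul]
    simp
  have hlaw := gaussianReal_add_gaussianReal_of_indepFun hind hfst hsnd
  have hsum : Measurable ((fun p : ℝ × ℝ => a * p.1) + (fun p : ℝ × ℝ => b * p.2)) :=
    (hX.comp measurable_fst).add (hY.comp measurable_snd)
  have h1 : ∫⁻ y, ∫⁻ x, B.indicator 1 (a * y + b * x) ∂N ∂N =
      ∫⁻ p, B.indicator 1 (((fun p : ℝ × ℝ => a * p.1) + (fun p : ℝ × ℝ => b * p.2)) p)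
        ∂(N.prod N) := by
    exact (lintegral_prod (μ := N) (ν := N) (fun p : ℝ × ℝ => B.indicator (1 : ℝ → ℝ≥0∞)
      (((fun p : ℝ × ℝ => a * p.1) + (fun p : ℝ × ℝ => b * p.2)) p))
      (((measurable_one.indicator hB).comp hsum).aemeasurable)).symm
  rw [h1, ← lintegral_map (measurable_one.indicator hB) hsum, hlaw, lintegral_indicator_one hB]
  simp

/-- Sum of two independent scaled fields. -/
theorem gauss_add (a b : ℝ) (F : (V → ℝ) → ℝ≥0∞) (hF : Measurable F) :
    ∫⁻ g, ∫⁻ ξ, F (a • g + b • ξ) ∂gam V ∂gam V =
      ∫⁻ g, F (Real.sqrt (a ^ 2 + b ^ 2) • g) ∂gam V := by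
  classical
  set w : ℝ≥0 := .mk (a ^ 2) (sq_nonneg _) + .mk (b ^ 2) (sq_nonneg _) with hw
  have hφ : Measurable (fun p : (V → ℝ) × (V → ℝ) => a • p.1 + b • p.2) := by
    refine measurable_pi_lambda _ (fun v => ?_)
    exact ((measurable_const.mul ((measurable_pi_apply v).comp measurable_fst)).add
      (measurable_const.mul ((measurable_pi_apply v).comp measurable_snd)))
  have hL := lintegral_two_of_boxes (fun g ξ => a • g + b • ξ) hφ
    (fun _ : V => gaussianReal 0 w) (fun t B hB => ?_) F hF
  · rw [hL]
    -- the right side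
    set c := Real.sqrt (a ^ 2 + b ^ 2) with hc
    have hc2 : c ^ 2 = a ^ 2 + b ^ 2 := Real.sq_sqrt (by positivity)
    have h1 : (gam V).map (fun g => c • g) = Measure.infinitePi (fun _ : V => gaussianReal 0 w) := by
      have h2 : (gam V).map (fun g => c • g) =
          (Measure.infinitePi (fun _ : V => gaussianReal (0 : ℝ) 1)).map
            (fun g v => (fun x => c * x) (g v)) := rfl
      rw [h2, Measure.infinitePi_map_pi _ (fun v => by fun_prop)]
      congr 1
      ext1 v
      rw [gaussianReal_map_const_mul]
      congr 1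
      · simp
      · ext
        simp [hw, hc2]
    have hcm : Measurable (fun g : V → ℝ => c • g) :=
      measurable_pi_lambda _ (fun v => measurable_const.mul (measurable_pi_apply v))
    rw [← h1, lintegral_map hF hcm]
  · -- boxes
    have hinner : ∀ g : V → ℝ, ∫⁻ ξ, ∏ v ∈ t, (B v).indicator 1 ((a • g + b • ξ) v) ∂gam V =
        ∏ v ∈ t, ∫⁻ x, (B v).indicator 1 (a * g v + b * x) ∂gaussianReal 0 1 := by
      intro g
      have := lintegral_prod_coord t (fun v x => (B v).indicator (1 : ℝ → ℝ≥0∞) (a * g v + b * x))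
        (fun v => (measurable_one.indicator (hB v)).comp
          (measurable_const.add (measurable_const.mul measurable_id)))
      exact this
    simp only [hinner]
    rw [lintegral_prod_coord t
      (fun v y => ∫⁻ x, (B v).indicator 1 (a * y + b * x) ∂gaussianReal 0 1)]
    · exact Finset.prod_congr rfl (fun v _ => coord_add a b (B v) (hB v))
    · intro v
      have hm : Measurable (fun p : ℝ × ℝ => (B v).indicator (1 : ℝ → ℝ≥0∞) (a * p.1 + b * p.2)) :=
        (measurable_one.indicator (hB v)).comp
          ((measurable_const.mul measurable_fst).add (measurable_const.mul measurable_snd))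
      exact hm.lintegral_prod_right'

/-- Resampling the coordinates outside `S`. -/
theorem gauss_mix [DecidableEq V] (S : Finset V) (F : (V → ℝ) → ℝ≥0∞) (hF : Measurable F) :
    ∫⁻ g, F g ∂gam V =
      ∫⁻ g₁, ∫⁻ g₂, F (fun v => if v ∈ S then g₁ v else g₂ v) ∂gam V ∂gam V := by
  have hφ : Measurable (fun p : (V → ℝ) × (V → ℝ) => fun v => if v ∈ S then p.1 v else p.2 v) := by
    refine measurable_pi_lambda _ (fun v => ?_)
    by_cases hv : v ∈ S
    · simp only [if_pos hv]
      exact (measurable_pi_apply v).comp measurable_fst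
    · simp only [if_neg hv]
      exact (measurable_pi_apply v).comp measurable_snd
  have hL := lintegral_two_of_boxes (fun g₁ g₂ v => if v ∈ S then g₁ v else g₂ v) hφ
    (fun _ : V => gaussianReal 0 1) (fun t B hB => ?_) F hF
  · rw [hL]
    rfl
  · have hinner : ∀ g₁ : V → ℝ,
        ∫⁻ g₂, ∏ v ∈ t, (B v).indicator 1 (if v ∈ S then g₁ v else g₂ v) ∂gam V =
        ∏ v ∈ t, ∫⁻ x, (B v).indicator 1 (if v ∈ S then g₁ v else x) ∂gaussianReal 0 1 := by
      intro g₁
      refine lintegral_prod_coord t
        (fun v x => (B v).indicator (1 : ℝ → ℝ≥0∞) (if v ∈ S then g₁ v else x)) (fun v => ?_)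
      by_cases hv : v ∈ S
      · simp only [if_pos hv]
        exact measurable_const
      · simp only [if_neg hv]
        exact measurable_one.indicator (hB v)
    simp only [hinner]
    have hm : ∀ v, Measurable (fun y : ℝ =>
        ∫⁻ x, (B v).indicator (1 : ℝ → ℝ≥0∞) (if v ∈ S then y else x) ∂gaussianReal 0 1) := by
      intro v
      by_cases hv : v ∈ S
      · simp only [if_pos hv]
        simp only [lintegral_const, measure_univ, mul_one]
        exact measurable_one.indicator (hB v)
      · simp only [if_neg hv]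
        exact measurable_const
    rw [lintegral_prod_coord t _ hm]
    refine Finset.prod_congr rfl (fun v _ => ?_)
    by_cases hv : v ∈ S
    · simp only [if_pos hv, lintegral_const, measure_univ, mul_one]
      exact lintegral_indicator_one (hB v)
    · simp only [if_neg hv, lintegral_const, measure_univ, mul_one]
      exact lintegral_indicator_one (hB v)

/-- Chebyshev for one coordinate. -/
theorem cheb_coord (r : V) {c : ℝ} (hc : 0 < c) :
    gam V {g | c ^ 2 ≤ |c * g r|} ≤ ENNReal.ofReal (1 / c ^ 2) := by
  have hset : {g : V → ℝ | c ^ 2 ≤ |c * g r|} = (fun g : V → ℝ => g r) ⁻¹' {x | c ≤ |x|} := by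
    ext g
    simp only [Set.mem_ofPred_eq, Set.mem_preimage, abs_mul, abs_of_pos hc, sq]
    exact mul_le_mul_iff_right₀ hc
  have hmeas : MeasurableSet {x : ℝ | c ≤ |x|} :=
    measurableSet_le measurable_const (measurable_abs)
  rw [hset, ← Measure.map_apply (measurable_pi_apply r) hmeas]
  have hmap : (gam V).map (fun g : V → ℝ => g r) = gaussianReal 0 1 :=
    Measure.infinitePi_map_eval (fun _ : V => gaussianReal (0 : ℝ) 1) r
  rw [hmap]
  have hcheb := meas_ge_le_variance_div_sq (μ := gaussianReal (0 : ℝ) 1) (X := id)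
    (memLp_id_gaussianReal' 2 (by simp)) hc
  rw [variance_id_gaussianReal] at hcheb
  simpa [integral_id_gaussianReal] using hcheb

end Vale.Agent.Lib.P161
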