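import Vale.Agent.Lib.P161.Gibbs
import Vale.Agent.Lib.P161.Gauss

/-! Definitions of the Euler chain (deterministic in the noise) and of the exact chain (as an
operator on test functions, with the auxiliary configuration sampled at each step summed out). -/

open MeasureTheory Finset
open scoped Classical ENNReal

noncomputable section

namespace Vale.Agent.Lib.P161

variable {V : Type*}

/-- Spins on `S`, zero elsewhere. -/
def stepVec (S A : Finset V) : V → ℝ := fun v => if v ∈ S then sp A v else 0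

/-- One step of the Euler scheme with drift the mean spin of the Gibbs measure on `S`. -/
def eulerStep (G : SimpleGraph V) (β : ℝ) (S : Finset V) (δ : ℝ) (ξ x : V → ℝ) : V → ℝ :=
  fun v => x v + δ * mean G β S x v + Real.sqrt δ * ξ v

/-- `flow i n x`: `n` Euler steps from `x`, using the noise `ξ i, ξ (i+1), ...`. -/
def flow (G : SimpleGraph V) (β : ℝ) (S : Finset V) (δ : ℝ) (ξ : ℕ → V → ℝ) :
    ℕ → ℕ → (V → ℝ) → V → ℝ
  | _, 0, x => x
  | i, n + 1, x => flow G β S δ ξ (i + 1) n (eulerStep G β S δ (ξ i) x)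

/-- The derivative of the `r` coordinate of `flow i n` at `x`, as a row vector. -/
def rowB (G : SimpleGraph V) (β : ℝ) (S : Finset V) (δ : ℝ) (ξ : ℕ → V → ℝ) (r : V) :
    ℕ → ℕ → (V → ℝ) → V → ℝ
  | _, 0, _ => fun v => if v = r then 1 else 0
  | i, n + 1, x => fun v =>
      rowB G β S δ ξ r (i + 1) n (eulerStep G β S δ (ξ i) x) v +
        δ * ∑ u ∈ S, rowB G β S δ ξ r (i + 1) n (eulerStep G β S δ (ξ i) x) u * cov G β S x u v

/-- One step of the exact chain, acting on a test function: a configuration `A` is sampled from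
the Gibbs measure with tilt `y`, and the tilt moves by `δ s_A + √δ ξ₀`. -/
def Tstep (G : SimpleGraph V) (β : ℝ) (S : Finset V) (δ : ℝ) (ξ₀ : V → ℝ) (f : (V → ℝ) → ℝ≥0∞)
    (y : V → ℝ) : ℝ≥0∞ :=
  ∑ A ∈ S.powerset, ENNReal.ofReal (mu G β S y A) * f (y + δ • stepVec S A + Real.sqrt δ • ξ₀)

/-- `n` steps of the exact chain from `y`, with the noise `ξ i, ..., ξ (i+n-1)`. -/
def chainFrom (G : SimpleGraph V) (β : ℝ) (S : Finset V) (δ : ℝ) (i : ℕ) (ξ : ℕ → V → ℝ) :
    ℕ → ((V → ℝ) → ℝ≥0∞) → (V → ℝ) → ℝ≥0∞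
  | 0, f, y => f y
  | n + 1, f, y => chainFrom G β S δ i ξ n (Tstep G β S δ (ξ (i + n)) f) y

/-- The planted law at time `t` started from `y₀`: a configuration is sampled from the Gibbs measure
with tilt `y₀`, and then a Gaussian observation at signal-to-noise `t` is added. -/
def planted (G : SimpleGraph V) (β : ℝ) (S : Finset V) (t : ℝ) (y₀ : V → ℝ) (F : (V → ℝ) → ℝ≥0∞) :
    ℝ≥0∞ :=
  ∑ A ∈ S.powerset, ENNReal.ofReal (mu G β S y₀ A) *
    ∫⁻ g, F (y₀ + t • stepVec S A + Real.sqrt t • g) ∂gam V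

end Vale.Agent.Lib.P161
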