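import Vale.Agent.Lib.P161.Dyn
import Vale.Agent.Lib.P161.Tree

/-! Equivariance of the Euler scheme under graph automorphisms. -/

open Finset
open scoped Classical

noncomputable section

namespace Vale.Agent.Lib.P161

variable {V : Type*} {G : SimpleGraph V} {β : ℝ}

theorem mem_ball_map_aux [G.LocallyFinite] (φ : G ≃g G) (o : V) (n : ℕ) (v : V) :
    v ∈ ball G (φ o) n ↔ φ.symm v ∈ ball G o n := by
  induction n generalizing v with
  | zero =>
    simp only [ball, Finset.mem_singleton]
    constructor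
    · rintro rfl; simp
    · intro h; rw [← h]; simp
  | succ n ih =>
    simp only [ball, Finset.mem_union, Finset.mem_biUnion, SimpleGraph.mem_neighborFinset]
    rw [ih v]
    refine or_congr Iff.rfl ?_
    constructor
    · rintro ⟨x, hx, hxv⟩
      refine ⟨φ.symm x, (ih x).1 hx, ?_⟩
      exact φ.symm.map_adj_iff.2 hxv
    · rintro ⟨x, hx, hxv⟩
      refine ⟨φ x, (ih _).2 (by simpa using hx), ?_⟩
      have := φ.map_adj_iff.2 hxv
      simpa using this

/-- Balls are mapped to balls by automorphisms. -/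
theorem ball_map [G.LocallyFinite] (φ : G ≃g G) (_hT : G.IsTree) (o : V) (n : ℕ) :
    ball G (φ o) n = (ball G o n).map φ.toEquiv.toEmbedding := by
  ext v
  rw [mem_ball_map_aux, Finset.mem_map]
  constructor
  · intro h
    exact ⟨φ.symm v, h, by simp⟩
  · rintro ⟨a, ha, rfl⟩
    simpa using ha

section Maps

variable (φ : G ≃g G) (S : Finset V)

/-- The embedding given by an automorphism. -/
abbrev em (φ : G ≃g G) : V ↪ V := φ.toEquiv.toEmbedding

theorem em_apply (v : V) : em φ v = φ v := rfl

theorem sp_map (A : Finset V) (v : V) : sp (A.map (em φ)) (φ v) = sp A v := by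
  unfold sp
  have : φ v ∈ A.map (em φ) ↔ v ∈ A := by
    rw [← em_apply]
    exact Finset.mem_map' _
  simp only [this]

theorem pairSum_map (A : Finset V) :
    pairSum G (S.map (em φ)) (A.map (em φ)) = pairSum G S A := by
  unfold pairSum
  rw [Finset.sum_map]
  refine Finset.sum_congr rfl fun u _ => ?_
  rw [Finset.sum_map]
  refine Finset.sum_congr rfl fun v _ => ?_
  simp only [em_apply, sp_map, φ.map_adj_iff]

theorem tilt_map (A : Finset V) (x : V → ℝ) :
    tilt (S.map (em φ)) (A.map (em φ)) (x ∘ φ.symm) = tilt S A x := by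
  unfold tilt
  rw [Finset.sum_map]
  refine Finset.sum_congr rfl fun v _ => ?_
  simp only [em_apply, sp_map, Function.comp]
  simp

theorem wt_map (A : Finset V) (x : V → ℝ) :
    wt G β (S.map (em φ)) (x ∘ φ.symm) (A.map (em φ)) = wt G β S x A := by
  unfold wt baseW
  rw [pairSum_map, tilt_map]

theorem powerset_sum_map (f : Finset V → ℝ) :
    ∑ A ∈ (S.map (em φ)).powerset, f A = ∑ A ∈ S.powerset, f (A.map (em φ)) := by
  symm
  refine Finset.sum_nbij' (fun A => A.map (em φ)) (fun B => B.map (em φ.symm))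
    ?_ ?_ ?_ ?_ ?_
  · intro A hA
    rw [Finset.mem_powerset] at hA ⊢
    exact Finset.map_subset_map.2 hA
  · intro B hB
    rw [Finset.mem_powerset] at hB ⊢
    intro v hv
    obtain ⟨w, hw, rfl⟩ := Finset.mem_map.1 hv
    obtain ⟨u, hu, rfl⟩ := Finset.mem_map.1 (hB hw)
    simpa [em_apply] using hu
  · intro A _
    ext v
    simp only [Finset.mem_map, em_apply]
    constructor
    · rintro ⟨a, ⟨b, hb, rfl⟩, rfl⟩
      simpa using hb
    · intro hv
      exact ⟨φ v, ⟨v, hv, rfl⟩, by simp⟩
  · intro B _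
    ext v
    simp only [Finset.mem_map, em_apply]
    constructor
    · rintro ⟨a, ⟨b, hb, rfl⟩, rfl⟩
      simpa using hb
    · intro hv
      exact ⟨φ.symm v, ⟨v, hv, rfl⟩, by simp⟩
  · intro _ _; rfl

theorem Zf_map (x : V → ℝ) : Zf G β (S.map (em φ)) (x ∘ φ.symm) = Zf G β S x := by
  unfold Zf
  rw [powerset_sum_map]
  exact Finset.sum_congr rfl fun A _ => wt_map φ S A x

theorem mean_map (φ : G ≃g G) (S : Finset V) (x : V → ℝ) (v : V) :
    mean G β (S.map φ.toEquiv.toEmbedding) (x ∘ φ.symm) (φ v) = mean G β S x v := by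
  unfold mean Ee mu
  rw [powerset_sum_map]
  refine Finset.sum_congr rfl fun A _ => ?_
  rw [wt_map, Zf_map]
  simp only [sp_map]

theorem eulerStep_map (δ : ℝ) (ξ x : V → ℝ) :
    eulerStep G β (S.map (em φ)) δ (ξ ∘ φ.symm) (x ∘ φ.symm) =
      eulerStep G β S δ ξ x ∘ φ.symm := by
  funext w
  unfold eulerStep
  have h := mean_map (β := β) φ S x (φ.symm w)
  simp only [RelIso.apply_symm_apply] at h
  simp only [Function.comp, h]

theorem flow_map (φ : G ≃g G) (S : Finset V) (δ : ℝ) (ξ : ℕ → V → ℝ) (i n : ℕ) (x : V → ℝ) (v : V) :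
    flow G β (S.map φ.toEquiv.toEmbedding) δ (fun k => ξ k ∘ φ.symm) i n (x ∘ φ.symm) (φ v) =
      flow G β S δ ξ i n x v := by
  induction n generalizing i x with
  | zero => simp [flow]
  | succ n ih =>
    simp only [flow]
    rw [eulerStep_map]
    exact ih _ _

end Maps

end Vale.Agent.Lib.P161
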