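import Vale.Agent.Lib.P161.Main
import Vale.Agent.Lib.P161.Noise
import Vale.Agent.Lib.P161.Equiv
import Vale.Agent.Lib.P161.Peel

/-! The law of the noise array, and the estimates under this law which are needed to build the
factor: bounds on the planted law, and one time and two time bounds for the exact chain. -/

open MeasureTheory Finset
open scoped Classical ENNReal

noncomputable section

namespace Vale.Agent.Lib.P161

variable {V : Type*} {G : SimpleGraph V} {β : ℝ}

/-- The indicator of a proposition. -/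
def ind (p : Prop) : ℝ≥0∞ := if p then 1 else 0

/-- The Boolean sign. -/
def sgnB (x : ℝ) : Bool := decide (0 < x)

theorem ind_true {p : Prop} (h : p) : ind p = 1 := by simp [ind, h]

theorem ind_false {p : Prop} (h : ¬p) : ind p = 0 := by simp [ind, h]

theorem ind_le_one (p : Prop) : ind p ≤ 1 := by
  unfold ind; split_ifs <;> simp

theorem ind_le_of_imp {p q : Prop} (h : p → q) : ind p ≤ ind q := by
  by_cases hp : p
  · rw [ind_true hp, ind_true (h hp)]
  · rw [ind_false hp]; exact zero_le

theorem ind_or_le (p q : Prop) : ind (p ∨ q) ≤ ind p + ind q := by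
  by_cases hp : p
  · rw [ind_true (Or.inl hp), ind_true hp]; exact le_self_add
  · by_cases hq : q
    · rw [ind_true (Or.inr hq), ind_true hq]; exact le_add_self
    · rw [ind_false (by tauto)]; exact zero_le

theorem ind_eq_indicator {Ω : Type*} (p : Ω → Prop) :
    (fun x => ind (p x)) = Set.indicator {x | p x} 1 := by
  funext x
  by_cases h : p x
  · rw [ind_true h, Set.indicator_of_mem (by exact h)]; rfl
  · rw [ind_false h, Set.indicator_of_notMem (by exact h)]

theorem measurable_ind {Ω : Type*} [MeasurableSpace Ω] {p : Ω → Prop}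
    (hp : MeasurableSet {x | p x}) : Measurable (fun x => ind (p x)) := by
  rw [ind_eq_indicator]
  exact measurable_one.indicator hp

theorem lintegral_ind {Ω : Type*} [MeasurableSpace Ω] (μ : Measure Ω) {p : Ω → Prop}
    (hp : MeasurableSet {x | p x}) : ∫⁻ x, ind (p x) ∂μ = μ {x | p x} := by
  rw [ind_eq_indicator, lintegral_indicator_one hp]

/-- Chebyshev form of the indicator. -/
theorem ind_ge_le_sq {c a : ℝ} (hc : 0 < c) :
    ind (c ≤ |a|) ≤ ENNReal.ofReal (1 / c ^ 2) * ENNReal.ofReal (a ^ 2) := by
  by_cases h : c ≤ |a|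
  · rw [ind_true h, ← ENNReal.ofReal_mul (by positivity), ← ENNReal.ofReal_one]
    apply ENNReal.ofReal_le_ofReal
    have h2 : c ^ 2 ≤ a ^ 2 := by
      rw [← sq_abs a]
      exact pow_le_pow_left₀ hc.le h 2
    rw [div_mul_eq_mul_div, one_mul, le_div_iff₀ (by positivity)]
    linarith
  · rw [ind_false h]; exact zero_le

/-- Markov form of the indicator. -/
theorem ind_ge_le_abs {c a : ℝ} (hc : 0 < c) :
    ind (c ≤ a) ≤ ENNReal.ofReal (1 / c) * ENNReal.ofReal a := by
  by_cases h : c ≤ a
  · rw [ind_true h, ← ENNReal.ofReal_mul (by positivity), ← ENNReal.ofReal_one]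
    apply ENNReal.ofReal_le_ofReal
    rw [div_mul_eq_mul_div, one_mul, le_div_iff₀ hc]
    linarith
  · rw [ind_false h]; exact zero_le

/-- If `a` is large and `b` is close to `a`, they have the same sign. -/
theorem sgnB_eq_of_close {a b c : ℝ} (hc : 0 < c) (ha : c ≤ |a|) (hb : |b - a| < c) :
    sgnB b = sgnB a := by
  unfold sgnB
  rw [decide_eq_decide]
  rw [abs_lt] at hb
  rcases le_abs.1 ha with h | h
  · constructor <;> intro <;> linarith [hb.1]
  · constructor <;> intro <;> linarith [hb.2]

/-- The law of the whole noise array. -/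
def nu (V : Type*) : Measure (ℕ → V → ℝ) := Measure.infinitePi (fun _ : ℕ => gam V)

instance : IsProbabilityMeasure (nu V) := by unfold nu; infer_instance

/-- Integrating a function of finitely many time steps. -/
theorem lintegral_nu_eq_lmarginal (s : Finset ℕ) (Q : (ℕ → V → ℝ) → ℝ≥0∞) (hQ : Measurable Q)
    (hdep : ∀ ξ ξ', (∀ i ∈ s, ξ i = ξ' i) → Q ξ = Q ξ') (x : ℕ → V → ℝ) :
    ∫⁻ ξ, Q ξ ∂nu V = lmarginal (fun _ : ℕ => gam V) s Q x := by
  have h1 : ∀ ξ, Q ξ = Q (Function.updateFinset x s (s.restrict ξ)) := fun ξ =>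
    hdep _ _ (fun i hi => by simp [Function.updateFinset, hi])
  unfold lmarginal
  have hm : Measurable fun z : ((i : s) → V → ℝ) => Q (Function.updateFinset x s z) :=
    hQ.comp (measurable_updateFinset)
  have h2 : Measure.pi (fun _ : s => gam V) = (nu V).map s.restrict :=
    (Measure.infinitePi_map_restrict (μ := fun _ : ℕ => gam V)).symm
  rw [h2, lintegral_map hm (Finset.measurable_restrict _)]
  exact lintegral_congr h1

/-- The Euler scheme reads only the noise of its own steps. -/
theorem flow_congr_noise (S : Finset V) (δ : ℝ) {ξ ξ' : ℕ → V → ℝ} (n : ℕ) :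
    ∀ (i : ℕ) (x : V → ℝ), (∀ j ∈ Finset.Ico i (i + n), ξ j = ξ' j) →
      flow G β S δ ξ i n x = flow G β S δ ξ' i n x := by
  induction n with
  | zero => intro i x _; rfl
  | succ n ih =>
    intro i x h
    simp only [flow]
    rw [h i (Finset.mem_Ico.2 ⟨le_rfl, by omega⟩)]
    refine ih (i + 1) _ fun j hj => h j ?_
    rw [Finset.mem_Ico] at hj ⊢
    omega

/-- Measurability of the flow in the noise. -/
theorem measurable_flow_noise (S : Finset V) (δ : ℝ) (K : ℕ) (r : V) :
    Measurable (fun ξ : ℕ → V → ℝ => flow G β S δ ξ 0 K 0 r) := by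
  have h := measurable_flow (G := G) (β := β) S δ 0 K
  have h2 : Measurable (fun ξ : ℕ → V → ℝ => (ξ, (0 : V → ℝ))) :=
    measurable_id.prodMk measurable_const
  exact (measurable_pi_apply r).comp (h.comp h2)

theorem measurable_chain_at (S : Finset V) (δ : ℝ) (i n : ℕ) (F : (ℕ → V → ℝ) → (V → ℝ) → ℝ≥0∞)
    (hF : Measurable (Function.uncurry F)) (y₀ : V → ℝ) :
    Measurable (fun ξ => chainFrom G β S δ i ξ n (F ξ) y₀) :=
  (measurable_chainFrom_uc i n F hF).comp (measurable_id.prodMk measurable_const)

/-- The law of the chain at a fixed test function. -/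
theorem lintegral_chain_planted (S : Finset V) {δ : ℝ} (hδ : 0 ≤ δ) (K : ℕ) (f : (V → ℝ) → ℝ≥0∞)
    (hf : Measurable f) :
    ∫⁻ ξ, chainFrom G β S δ 0 ξ K f 0 ∂nu V = planted G β S (K * δ) 0 f := by
  have hm : Measurable (fun ξ : ℕ → V → ℝ => chainFrom G β S δ 0 ξ K f 0) :=
    measurable_chain_at S δ 0 K (fun _ => f) (hf.comp measurable_snd) 0
  rw [lintegral_nu_eq_lmarginal (Finset.Ico 0 (0 + K)) _ hm
    (fun ξ ξ' h => chainFrom_congr S δ 0 K h f 0) 0]
  exact chain_law S hδ 0 K 0 (fun _ => f) (hf.comp measurable_snd) (fun _ _ _ => rfl) 0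

/-- Bounding the planted law started from zero term by term. -/
theorem planted_le_of_each (S : Finset V) (t : ℝ) (F : (V → ℝ) → ℝ≥0∞) (b : ℝ≥0∞)
    (h : ∀ A ∈ S.powerset, ∫⁻ g, F (0 + t • stepVec S A + Real.sqrt t • g) ∂gam V ≤ b) :
    planted G β S t 0 F ≤ b := by
  unfold planted
  calc ∑ A ∈ S.powerset, ENNReal.ofReal (mu G β S 0 A) *
        ∫⁻ g, F (0 + t • stepVec S A + Real.sqrt t • g) ∂gam V
      ≤ ∑ A ∈ S.powerset, ENNReal.ofReal (mu G β S 0 A) * b :=
        Finset.sum_le_sum fun A hA => mul_le_mul_right (h A hA) _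
    _ = b := by rw [← Finset.sum_mul, sum_ofReal_mu, one_mul]

theorem stepVec_abs {S : Finset V} (A : Finset V) {r : V} (hr : r ∈ S) : |stepVec S A r| = 1 := by
  unfold stepVec sp
  simp only [hr, if_true]
  split_ifs <;> simp

/-- The coordinate at `r` has size at least about `t` under the planted law. -/
theorem planted_small {S : Finset V} {r : V} (hr : r ∈ S) {t : ℝ} (ht : 0 < t) :
    planted G β S t 0 (fun y => ind (|y r| < t / 2)) ≤ ENNReal.ofReal (4 / t) := by
  refine planted_le_of_each S t _ _ fun A _ => ?_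
  set c := Real.sqrt t / 2 with hc
  have hs : Real.sqrt t * Real.sqrt t = t := Real.mul_self_sqrt ht.le
  have hsp : 0 < Real.sqrt t := Real.sqrt_pos.2 ht
  have hc0 : 0 < c := by positivity
  have hcc : c ^ 2 = t / 4 := by rw [hc]; nlinarith
  have hle : ∀ g : V → ℝ, ind (|(0 + t • stepVec S A + Real.sqrt t • g) r| < t / 2) ≤
      Set.indicator {g : V → ℝ | c ^ 2 ≤ |c * g r|} 1 g := by
    intro g
    by_cases hlt : |(0 + t • stepVec S A + Real.sqrt t • g) r| < t / 2
    · rw [ind_true hlt, Set.indicator_of_mem]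
      · rfl
      · simp only [Set.mem_ofPred_eq]
        simp only [Pi.add_apply, Pi.smul_apply, smul_eq_mul, zero_add] at hlt
        have h1 : |t * stepVec S A r| = t := by
          rw [abs_mul, stepVec_abs A hr, abs_of_pos ht, mul_one]
        have h2 : t ≤ |t * stepVec S A r + Real.sqrt t * g r| + |Real.sqrt t * g r| := by
          have := abs_sub_le (t * stepVec S A r) (t * stepVec S A r + Real.sqrt t * g r) 0
          rw [sub_zero, h1, sub_add_cancel_left, abs_neg] at this
          have h3 : |t * stepVec S A r + Real.sqrt t * g r - 0| =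
              |t * stepVec S A r + Real.sqrt t * g r| := by rw [sub_zero]
          rw [h3] at this
          linarith [abs_sub_comm (t * stepVec S A r) 0]
        have h4 : t / 2 ≤ |Real.sqrt t * g r| := by linarith
        have h5 : |c * g r| = |Real.sqrt t * g r| / 2 := by
          rw [hc, div_mul_eq_mul_div, abs_div, abs_of_pos (by norm_num : (0 : ℝ) < 2)]
        rw [hcc, h5]
        linarith
    · rw [ind_false hlt]; exact zero_le
  calc ∫⁻ g, ind (|(0 + t • stepVec S A + Real.sqrt t • g) r| < t / 2) ∂gam V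
      ≤ ∫⁻ g, Set.indicator {g : V → ℝ | c ^ 2 ≤ |c * g r|} 1 g ∂gam V := lintegral_mono hle
    _ = gam V {g : V → ℝ | c ^ 2 ≤ |c * g r|} := by
        refine lintegral_indicator_one ?_
        refine measurableSet_le measurable_const ?_
        exact ((measurable_pi_apply r : Measurable fun g : V → ℝ => g r).const_mul c).abs
    _ ≤ ENNReal.ofReal (1 / c ^ 2) := cheb_coord r hc0
    _ = ENNReal.ofReal (4 / t) := by
        congr 1
        rw [hcc]
        field_simp

/-- A coordinate of the noise is rarely of the order of the signal. -/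
theorem cheb_time (r : V) {t : ℝ} (ht : 0 < t) :
    gam V {g : V → ℝ | t ≤ |Real.sqrt t * g r|} ≤ ENNReal.ofReal (1 / t) := by
  have h := cheb_coord (V := V) r (Real.sqrt_pos.2 ht)
  rwa [Real.sq_sqrt ht.le] at h

theorem measurableSet_cheb_time (r : V) (t : ℝ) :
    MeasurableSet {g : V → ℝ | t ≤ |Real.sqrt t * g r|} :=
  measurableSet_le measurable_const
    ((measurable_pi_apply r : Measurable fun g : V → ℝ => g r).const_mul _).abs

/-- The sign of a tilt under the planted law. -/
theorem sgnB_planted {t s w : ℝ} (ht : 0 < t) (hs : |s| = 1) (hw : |w| < t) :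
    sgnB (t * s + w) = sgnB s := by
  unfold sgnB
  rw [decide_eq_decide]
  rw [abs_lt] at hw
  rcases (abs_eq (by norm_num : (0 : ℝ) ≤ 1)).1 hs with h | h
  · subst h
    constructor
    · intro _; norm_num
    · intro _; linarith [hw.1]
  · subst h
    constructor
    · intro h; linarith [hw.2]
    · intro h; norm_num at h

end Vale.Agent.Lib.P161
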