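import Vale.Agent.Lib.P161.PC

/-! FKG inequality for the tilted Ising measure, and the variance bound for the conditional
expectation given the spins on a set `B`. -/

open Finset
open scoped Classical FinsetFamily

noncomputable section

namespace Vale.Agent.Lib.P161

variable {V : Type*} {G : SimpleGraph V} {β : ℝ}

theorem powerset_infs (S : Finset V) : S.powerset ⊼ S.powerset = S.powerset := by
  ext a
  simp only [Finset.mem_infs, Finset.mem_powerset]
  constructor
  · rintro ⟨b, hb, c, hc, rfl⟩
    exact (inf_le_left).trans hb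
  · intro h
    exact ⟨a, h, a, h, inf_idem a⟩

theorem powerset_sups (S : Finset V) : S.powerset ⊻ S.powerset = S.powerset := by
  ext a
  simp only [Finset.mem_sups, Finset.mem_powerset]
  constructor
  · rintro ⟨b, hb, c, hc, rfl⟩
    exact sup_le hb hc
  · intro h
    exact ⟨a, h, a, h, sup_idem a⟩

/-- FKG on the subsets of `S`, for nonnegative monotone functions. -/
theorem fkg_powerset_nonneg (S : Finset V) (m f g : Finset V → ℝ)
    (hm0 : ∀ A, A ⊆ S → 0 ≤ m A)
    (hf0 : ∀ A, A ⊆ S → 0 ≤ f A) (hg0 : ∀ A, A ⊆ S → 0 ≤ g A)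
    (hf : ∀ A A', A ⊆ A' → A' ⊆ S → f A ≤ f A')
    (hg : ∀ A A', A ⊆ A' → A' ⊆ S → g A ≤ g A')
    (hm : ∀ A A', A ⊆ S → A' ⊆ S → m A * m A' ≤ m (A ∩ A') * m (A ∪ A')) :
    (∑ A ∈ S.powerset, m A * f A) * ∑ A ∈ S.powerset, m A * g A ≤
      (∑ A ∈ S.powerset, m A) * ∑ A ∈ S.powerset, m A * (f A * g A) := by
  set ind : Finset V → ℝ := fun A => if A ⊆ S then 1 else 0 with hind
  have hind0 : ∀ A, 0 ≤ ind A := fun A => by simp only [hind]; split_ifs <;> norm_num
  have key := four_functions_theorem (fun A => ind A * (m A * f A)) (fun A => ind A * (m A * g A))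
    (fun A => ind A * m A) (fun A => ind A * (m A * (f A * g A)))
    (fun A => by
      simp only [hind, Pi.zero_apply]
      split_ifs with h
      · simpa using mul_nonneg (hm0 A h) (hf0 A h)
      · simp)
    (fun A => by
      simp only [hind, Pi.zero_apply]
      split_ifs with h
      · simpa using mul_nonneg (hm0 A h) (hg0 A h)
      · simp)
    (fun A => by
      simp only [hind, Pi.zero_apply]
      split_ifs with h
      · simpa using hm0 A h
      · simp)
    (fun A => by
      simp only [hind, Pi.zero_apply]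
      split_ifs with h
      · simpa using mul_nonneg (hm0 A h) (mul_nonneg (hf0 A h) (hg0 A h))
      · simp)
    (by
      intro a b
      simp only [hind]
      by_cases ha : a ⊆ S
      · by_cases hb : b ⊆ S
        · have hi : a ⊓ b ⊆ S := (inf_le_left : a ⊓ b ≤ a).trans ha
          have hu : a ⊔ b ⊆ S := sup_le ha hb
          rw [if_pos ha, if_pos hb, if_pos hi, if_pos hu]
          simp only [one_mul]
          have h1 := hm a b ha hb
          have h2 := hf a (a ⊔ b) (le_sup_left) hu
          have h3 := hg b (a ⊔ b) (le_sup_right) hu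
          have hma := hm0 a ha
          have hmb := hm0 b hb
          have hfa := hf0 a ha
          have hgb := hg0 b hb
          have hmi := hm0 _ hi
          have hmu := hm0 _ hu
          have h4 : f a * g b ≤ f (a ⊔ b) * g (a ⊔ b) :=
            mul_le_mul h2 h3 hgb (hfa.trans h2)
          calc m a * f a * (m b * g b) = (m a * m b) * (f a * g b) := by ring
            _ ≤ (m (a ⊓ b) * m (a ⊔ b)) * (f (a ⊔ b) * g (a ⊔ b)) :=
                mul_le_mul h1 h4 (mul_nonneg hfa hgb) (mul_nonneg hmi hmu)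
            _ = _ := by ring
        · rw [if_neg hb]
          simp only [zero_mul, mul_zero]
          refine mul_nonneg ?_ ?_
          · split_ifs with h
            · simpa using hm0 _ h
            · simp
          · split_ifs with h
            · simpa using mul_nonneg (hm0 _ h) (mul_nonneg (hf0 _ h) (hg0 _ h))
            · simp
      · rw [if_neg ha]
        simp only [zero_mul]
        refine mul_nonneg ?_ ?_
        · split_ifs with h
          · simpa using hm0 _ h
          · simp
        · split_ifs with h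
          · simpa using mul_nonneg (hm0 _ h) (mul_nonneg (hf0 _ h) (hg0 _ h))
          · simp)
    S.powerset S.powerset
  rw [powerset_infs, powerset_sups] at key
  have e : ∀ (φ : Finset V → ℝ), ∑ A ∈ S.powerset, ind A * φ A = ∑ A ∈ S.powerset, φ A := by
    intro φ
    refine Finset.sum_congr rfl fun A hA => ?_
    simp only [hind, if_pos (Finset.mem_powerset.mp hA), one_mul]
  simp only [e] at key
  exact key

/-- FKG for expectations, shifted to remove the sign condition. -/
theorem fkg_powerset (S : Finset V) (m f g : Finset V → ℝ)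
    (hm0 : ∀ A, A ⊆ S → 0 ≤ m A)
    (hf : ∀ A A', A ⊆ A' → A' ⊆ S → f A ≤ f A')
    (hg : ∀ A A', A ⊆ A' → A' ⊆ S → g A ≤ g A')
    (hm : ∀ A A', A ⊆ S → A' ⊆ S → m A * m A' ≤ m (A ∩ A') * m (A ∪ A')) :
    (∑ A ∈ S.powerset, m A * f A) * ∑ A ∈ S.powerset, m A * g A ≤
      (∑ A ∈ S.powerset, m A) * ∑ A ∈ S.powerset, m A * (f A * g A) := by
  -- shift by the value at the empty configuration
  set a := f ∅ with ha
  set b := g ∅ with hb
  have key := fkg_powerset_nonneg S m (fun A => f A - a) (fun A => g A - b) hm0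
    (fun A hA => sub_nonneg.mpr (hf ∅ A (Finset.empty_subset _) hA))
    (fun A hA => sub_nonneg.mpr (hg ∅ A (Finset.empty_subset _) hA))
    (fun A A' h h' => sub_le_sub_right (hf A A' h h') a)
    (fun A A' h h' => sub_le_sub_right (hg A A' h h') b) hm
  set Sm := ∑ A ∈ S.powerset, m A with hSm
  set Sf := ∑ A ∈ S.powerset, m A * f A with hSf
  set Sg := ∑ A ∈ S.powerset, m A * g A with hSg
  set Sfg := ∑ A ∈ S.powerset, m A * (f A * g A) with hSfg
  have e1 : ∑ A ∈ S.powerset, m A * (f A - a) = Sf - a * Sm := by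
    rw [hSf, hSm, Finset.mul_sum, ← Finset.sum_sub_distrib]
    exact Finset.sum_congr rfl fun A _ => by ring
  have e2 : ∑ A ∈ S.powerset, m A * (g A - b) = Sg - b * Sm := by
    rw [hSg, hSm, Finset.mul_sum, ← Finset.sum_sub_distrib]
    exact Finset.sum_congr rfl fun A _ => by ring
  have e3 : ∑ A ∈ S.powerset, m A * ((f A - a) * (g A - b)) =
      Sfg - b * Sf - a * Sg + a * b * Sm := by
    rw [hSfg, hSf, hSg, hSm, Finset.mul_sum, Finset.mul_sum, Finset.mul_sum,
      ← Finset.sum_sub_distrib, ← Finset.sum_sub_distrib, ← Finset.sum_add_distrib]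
    exact Finset.sum_congr rfl fun A _ => by ring
  rw [e1, e2, e3] at key
  nlinarith [key]

theorem sp_inf_union_pair (A A' : Finset V) (u v : V) :
    sp A u * sp A v + sp A' u * sp A' v ≤
      sp (A ∩ A') u * sp (A ∩ A') v + sp (A ∪ A') u * sp (A ∪ A') v := by
  simp only [sp, Finset.mem_inter, Finset.mem_union]
  by_cases h1 : u ∈ A <;> by_cases h2 : u ∈ A' <;> by_cases h3 : v ∈ A <;> by_cases h4 : v ∈ A' <;>
    simp [h1, h2, h3, h4] <;> norm_num

theorem sp_inf_union (A A' : Finset V) (v : V) :
    sp A v + sp A' v = sp (A ∩ A') v + sp (A ∪ A') v := by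
  simp only [sp, Finset.mem_inter, Finset.mem_union]
  by_cases h3 : v ∈ A <;> by_cases h4 : v ∈ A' <;> simp [h3, h4]

theorem wt_supermodular (hβ : 0 ≤ β) (S : Finset V) (y : V → ℝ) (A A' : Finset V) :
    wt G β S y A * wt G β S y A' ≤ wt G β S y (A ∩ A') * wt G β S y (A ∪ A') := by
  unfold wt baseW
  have e1 : ∀ X Y : Finset V, Real.exp (β / 2 * pairSum G S X) * Real.exp (tilt S X y) *
      (Real.exp (β / 2 * pairSum G S Y) * Real.exp (tilt S Y y)) =
      Real.exp (β / 2 * (pairSum G S X + pairSum G S Y) + (tilt S X y + tilt S Y y)) := by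
    intro X Y
    rw [mul_add, Real.exp_add, Real.exp_add, Real.exp_add]
    ring
  rw [e1, e1]
  apply Real.exp_le_exp.mpr
  have h1 : pairSum G S A + pairSum G S A' ≤ pairSum G S (A ∩ A') + pairSum G S (A ∪ A') := by
    unfold pairSum
    simp_rw [← Finset.sum_add_distrib]
    refine Finset.sum_le_sum fun u _ => Finset.sum_le_sum fun v _ => ?_
    by_cases h : G.Adj u v
    · simp only [if_pos h]
      exact sp_inf_union_pair A A' u v
    · simp [if_neg h]
  have h2 : tilt S A y + tilt S A' y = tilt S (A ∩ A') y + tilt S (A ∪ A') y := by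
    unfold tilt
    rw [← Finset.sum_add_distrib, ← Finset.sum_add_distrib]
    refine Finset.sum_congr rfl fun v _ => ?_
    have := sp_inf_union A A' v
    calc y v * sp A v + y v * sp A' v = y v * (sp A v + sp A' v) := by ring
      _ = y v * (sp (A ∩ A') v + sp (A ∪ A') v) := by rw [this]
      _ = _ := by ring
  have h3 : β / 2 * (pairSum G S A + pairSum G S A') ≤
      β / 2 * (pairSum G S (A ∩ A') + pairSum G S (A ∪ A')) :=
    mul_le_mul_of_nonneg_left h1 (by positivity)
  linarith

/-- FKG for the tilted measure. -/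
theorem Ee_fkg (hβ : 0 ≤ β) (S : Finset V) (y : V → ℝ) (f g : Finset V → ℝ)
    (hf : ∀ A A', A ⊆ A' → A' ⊆ S → f A ≤ f A')
    (hg : ∀ A A', A ⊆ A' → A' ⊆ S → g A ≤ g A') :
    Ee G β S y f * Ee G β S y g ≤ Ee G β S y (fun A => f A * g A) := by
  have key := fkg_powerset S (wt G β S y) f g (fun A _ => (wt_pos _ _ _ _ _).le) hf hg
    (fun A A' _ _ => wt_supermodular hβ S y A A')
  rw [Ee_eq, Ee_eq, Ee_eq]
  have hZ := Zf_pos G β S y
  change (∑ A ∈ S.powerset, wt G β S y A * f A) * ∑ A ∈ S.powerset, wt G β S y A * g A ≤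
    Zf G β S y * ∑ A ∈ S.powerset, wt G β S y A * (f A * g A) at key
  rw [div_mul_div_comm, div_le_div_iff₀ (by positivity) hZ]
  calc _ ≤ (Zf G β S y * ∑ A ∈ S.powerset, wt G β S y A * (f A * g A)) * Zf G β S y :=
        mul_le_mul_of_nonneg_right key hZ.le
    _ = _ := by ring

/-- Variance comparison from monotonicity of `H + F` and `H - F`. -/
theorem variance_le_of_mono (hβ : 0 ≤ β) (S : Finset V) (y : V → ℝ) (F H : Finset V → ℝ)
    (h1 : ∀ A A', A ⊆ A' → A' ⊆ S → H A + F A ≤ H A' + F A')
    (h2 : ∀ A A', A ⊆ A' → A' ⊆ S → H A - F A ≤ H A' - F A') :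
    Ee G β S y (fun A => F A * F A) - Ee G β S y F * Ee G β S y F ≤
      Ee G β S y (fun A => H A * H A) - Ee G β S y H * Ee G β S y H := by
  have key := Ee_fkg (G := G) hβ S y (fun A => H A + F A) (fun A => H A - F A) h1 h2
  rw [Ee_add, Ee_sub] at key
  have e : (fun A => (H A + F A) * (H A - F A)) = fun A => H A * H A - F A * F A := by
    funext A; ring
  rw [e, Ee_sub] at key
  nlinarith [key]

/-! ### Conditional expectation given the spins on `B` -/

/-- Sum over configurations with prescribed trace `τ` on `B`. -/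
def condSum (G : SimpleGraph V) (β : ℝ) (S B : Finset V) (y : V → ℝ) (τ : Finset V)
    (φ : Finset V → ℝ) : ℝ :=
  ∑ A ∈ S.powerset.filter (fun A => A ∩ B = τ), wt G β S y A * φ A

/-- Conditional mean of the spin at `v` given the trace `τ`. -/
def condMean (G : SimpleGraph V) (β : ℝ) (S B : Finset V) (y : V → ℝ) (τ : Finset V) (v : V) : ℝ :=
  condSum G β S B y τ (fun A => sp A v) / condSum G β S B y τ (fun _ => 1)

theorem condSum_one_pos {S B τ : Finset V} (hB : B ⊆ S) (hτ : τ ⊆ B) (y : V → ℝ) :
    0 < condSum G β S B y τ (fun _ => 1) := by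
  unfold condSum
  refine Finset.sum_pos (fun A _ => by simpa using wt_pos _ _ _ _ _) ⟨τ, ?_⟩
  refine Finset.mem_filter.mpr ⟨Finset.mem_powerset.mpr (hτ.trans hB), ?_⟩
  exact Finset.inter_eq_left.mpr hτ

/-- Site factors pinned on `B` according to `τ`. -/
def pinAll (B τ : Finset V) (y : V → ℝ) : V → ℝ → ℝ :=
  fun x s => if x ∈ B then (if s = sp τ x then tiltH y x s else 0) else tiltH y x s

theorem pinAll_nonneg (B τ : Finset V) (y : V → ℝ) : ∀ x s, 0 ≤ pinAll B τ y x s := by
  intro x s
  unfold pinAll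
  split_ifs <;> first | exact tiltH_nonneg y x s | exact le_rfl

theorem hw_pinAll {S B τ : Finset V} (hB : B ⊆ S) (hτ : τ ⊆ B) (y : V → ℝ) {A : Finset V} :
    hw G β S (pinAll B τ y) A = if A ∩ B = τ then wt G β S y A else 0 := by
  unfold hw wt
  by_cases hA : A ∩ B = τ
  · rw [if_pos hA]
    congr 1
    unfold tilt
    rw [Real.exp_sum]
    refine Finset.prod_congr rfl fun x hx => ?_
    unfold pinAll tiltH
    by_cases hxB : x ∈ B
    · rw [if_pos hxB, if_pos]
      subst hA
      simp [sp, hxB]
    · rw [if_neg hxB]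
  · rw [if_neg hA]
    -- some vertex of `B` has the wrong spin
    have : ∃ x ∈ B, (x ∈ A ↔ x ∉ τ) := by
      by_contra hcon
      push Not at hcon
      apply hA
      ext x
      simp only [Finset.mem_inter]
      constructor
      · rintro ⟨h1, h2⟩
        have := hcon x h2
        tauto
      · intro h
        have h2 := hτ h
        have := hcon x h2
        tauto
    obtain ⟨x, hxB, hx⟩ := this
    have hprod : ∏ x ∈ S, pinAll B τ y x (sp A x) = 0 := by
      refine Finset.prod_eq_zero (hB hxB) ?_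
      unfold pinAll
      rw [if_pos hxB, if_neg]
      unfold sp
      by_cases h : x ∈ A
      · have h' := hx.mp h
        rw [if_pos h, if_neg h']
        norm_num
      · have h' : x ∈ τ := by
          by_contra h''
          exact h (hx.mpr h'')
        rw [if_neg h, if_pos h']
        norm_num
    rw [hprod, mul_zero]

/-- Pinning one more site of `B` from the configuration with `w` open. -/
theorem hw_pin_pinAll_minus {S B τ : Finset V} (hB : B ⊆ S) (hτ : τ ⊆ B) {w : V} (hw' : w ∈ B)
    (hwτ : w ∉ τ) (y : V → ℝ) (A : Finset V) :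
    hw G β S (pin (pinAll (B.erase w) τ y) w (-1)) A = if A ∩ B = τ then wt G β S y A else 0 := by
  have hτ' : τ ⊆ B.erase w := fun x hx =>
    Finset.mem_erase.mpr ⟨fun e => hwτ (e ▸ hx), hτ hx⟩
  rw [hw_pin_of_mem S A _ (hB hw'), hw_pinAll ((Finset.erase_subset _ _).trans hB) hτ']
  have hiff : (sp A w = -1 ∧ A ∩ B.erase w = τ) ↔ A ∩ B = τ := by
    constructor
    · rintro ⟨h1, h2⟩
      have hwA : w ∉ A := by
        intro h
        simp [sp, h] at h1
        norm_num at h1
      rw [← h2]
      ext x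
      simp only [Finset.mem_inter, Finset.mem_erase]
      constructor
      · rintro ⟨h3, h4⟩
        exact ⟨h3, fun e => hwA (e ▸ h3), h4⟩
      · rintro ⟨h3, _, h4⟩
        exact ⟨h3, h4⟩
    · intro h
      have hwA : w ∉ A := by
        intro h'
        apply hwτ
        rw [← h]
        exact Finset.mem_inter.mpr ⟨h', hw'⟩
      refine ⟨by simp [sp, hwA], ?_⟩
      rw [← h]
      ext x
      simp only [Finset.mem_inter, Finset.mem_erase]
      constructor
      · rintro ⟨h3, _, h4⟩
        exact ⟨h3, h4⟩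
      · rintro ⟨h3, h4⟩
        exact ⟨h3, fun e => hwA (e ▸ h3), h4⟩
  by_cases h : A ∩ B = τ
  · rw [if_pos h]
    obtain ⟨h1, h2⟩ := hiff.mpr h
    rw [if_pos h1, if_pos h2]
  · rw [if_neg h]
    by_cases h1 : sp A w = -1
    · rw [if_pos h1, if_neg]
      intro h2
      exact h (hiff.mp ⟨h1, h2⟩)
    · rw [if_neg h1]

theorem hw_pin_pinAll_plus {S B τ : Finset V} (hB : B ⊆ S) (hτ : τ ⊆ B) {w : V} (hw' : w ∈ B)
    (hwτ : w ∉ τ) (y : V → ℝ) (A : Finset V) :
    hw G β S (pin (pinAll (B.erase w) τ y) w 1) A =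
      if A ∩ B = insert w τ then wt G β S y A else 0 := by
  have hτ' : τ ⊆ B.erase w := fun x hx =>
    Finset.mem_erase.mpr ⟨fun e => hwτ (e ▸ hx), hτ hx⟩
  rw [hw_pin_of_mem S A _ (hB hw'), hw_pinAll ((Finset.erase_subset _ _).trans hB) hτ']
  have hiff : (sp A w = 1 ∧ A ∩ B.erase w = τ) ↔ A ∩ B = insert w τ := by
    constructor
    · rintro ⟨h1, h2⟩
      have hwA : w ∈ A := by
        by_contra h
        simp [sp, h] at h1
        norm_num at h1
      rw [← h2]
      ext x
      simp only [Finset.mem_inter, Finset.mem_erase, Finset.mem_insert]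
      constructor
      · rintro ⟨h3, h4⟩
        by_cases e : x = w
        · exact Or.inl e
        · exact Or.inr ⟨h3, e, h4⟩
      · rintro (e | ⟨h3, _, h4⟩)
        · subst e; exact ⟨hwA, hw'⟩
        · exact ⟨h3, h4⟩
    · intro h
      have hwA : w ∈ A := by
        have : w ∈ A ∩ B := by rw [h]; exact Finset.mem_insert_self _ _
        exact (Finset.mem_inter.mp this).1
      refine ⟨by simp [sp, hwA], ?_⟩
      ext x
      simp only [Finset.mem_inter, Finset.mem_erase]
      constructor
      · rintro ⟨h3, h4, h5⟩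
        have : x ∈ A ∩ B := Finset.mem_inter.mpr ⟨h3, h5⟩
        rw [h] at this
        rcases Finset.mem_insert.mp this with e | e
        · exact absurd e h4
        · exact e
      · intro hx
        have : x ∈ insert w τ := Finset.mem_insert_of_mem hx
        rw [← h] at this
        obtain ⟨h3, h5⟩ := Finset.mem_inter.mp this
        exact ⟨h3, fun e => hwτ (e ▸ hx), h5⟩
  by_cases h : A ∩ B = insert w τ
  · rw [if_pos h]
    obtain ⟨h1, h2⟩ := hiff.mpr h
    rw [if_pos h1, if_pos h2]
  · rw [if_neg h]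
    by_cases h1 : sp A w = 1
    · rw [if_pos h1, if_neg]
      intro h2
      exact h (hiff.mp ⟨h1, h2⟩)
    · rw [if_neg h1]

/-- Conditional means change little when one boundary spin is flipped. -/
theorem abs_condMean_insert_le (hT : G.IsTree) (hβ : 0 ≤ β) {S B τ : Finset V} (hB : B ⊆ S)
    (hτ : τ ⊆ B) {w : V} (hw' : w ∈ B) (hwτ : w ∉ τ) (y : V → ℝ) (v : V) :
    |condMean G β S B y (insert w τ) v - condMean G β S B y τ v| ≤
      2 * Real.tanh β ^ G.dist w v := by
  set h := pinAll (B.erase w) τ y with hh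
  have hplus : ∀ φ : Finset V → ℝ, condSum G β S B y (insert w τ) φ =
      ∑ A ∈ S.powerset, hw G β S (pin h w 1) A * φ A := by
    intro φ
    unfold condSum
    rw [Finset.sum_filter]
    refine Finset.sum_congr rfl fun A _ => ?_
    rw [hw_pin_pinAll_plus hB hτ hw' hwτ y A]
    split_ifs <;> simp
  have hminus : ∀ φ : Finset V → ℝ, condSum G β S B y τ φ =
      ∑ A ∈ S.powerset, hw G β S (pin h w (-1)) A * φ A := by
    intro φ
    unfold condSum
    rw [Finset.sum_filter]
    refine Finset.sum_congr rfl fun A _ => ?_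
    rw [hw_pin_pinAll_minus hB hτ hw' hwτ y A]
    split_ifs <;> simp
  have hτ2 : insert w τ ⊆ B := Finset.insert_subset hw' hτ
  have z1 : zw G β S (pin h w 1) = condSum G β S B y (insert w τ) (fun _ => 1) := by
    rw [hplus]; simp [zw]
  have z2 : zw G β S (pin h w (-1)) = condSum G β S B y τ (fun _ => 1) := by
    rw [hminus]; simp [zw]
  have n1 : nw G β S (pin h w 1) v = condSum G β S B y (insert w τ) (fun A => sp A v) := by
    rw [hplus]; rfl
  have n2 : nw G β S (pin h w (-1)) v = condSum G β S B y τ (fun A => sp A v) := by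
    rw [hminus]; rfl
  have := path_contraction hT hβ (G.dist w v) S h w v rfl (pinAll_nonneg _ _ _)
    (by rw [z1]; exact condSum_one_pos hB hτ2 y) (by rw [z2]; exact condSum_one_pos hB hτ y)
  rw [z1, z2, n1, n2] at this
  exact this

/-- Tower property: conditioning on the trace on `B`, with an extra weight depending only on the
trace. -/
theorem tower {S B : Finset V} (y : V → ℝ) (Λ : Finset V → ℝ)
    (hB : B ⊆ S) (v : V) :
    ∑ A ∈ S.powerset, wt G β S y A * Λ (A ∩ B) * sp A v =
      ∑ A ∈ S.powerset, wt G β S y A * Λ (A ∩ B) * condMean G β S B y (A ∩ B) v := by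
  have hmaps : ∀ A ∈ S.powerset, A ∩ B ∈ B.powerset := fun A _ =>
    Finset.mem_powerset.mpr Finset.inter_subset_right
  rw [← Finset.sum_fiberwise_of_maps_to hmaps, ← Finset.sum_fiberwise_of_maps_to hmaps]
  refine Finset.sum_congr rfl fun τ hτ => ?_
  have hτ' := Finset.mem_powerset.mp hτ
  have hpos := condSum_one_pos (G := G) (β := β) hB hτ' y
  have e1 : ∑ A ∈ S.powerset with A ∩ B = τ, wt G β S y A * Λ (A ∩ B) * sp A v =
      Λ τ * condSum G β S B y τ (fun A => sp A v) := by
    unfold condSum
    rw [Finset.mul_sum]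
    refine Finset.sum_congr rfl fun A hA => ?_
    rw [(Finset.mem_filter.mp hA).2]
    ring
  have e2 : ∑ A ∈ S.powerset with A ∩ B = τ,
      wt G β S y A * Λ (A ∩ B) * condMean G β S B y (A ∩ B) v =
      Λ τ * condMean G β S B y τ v * condSum G β S B y τ (fun _ => 1) := by
    unfold condSum
    rw [Finset.mul_sum]
    refine Finset.sum_congr rfl fun A hA => ?_
    rw [(Finset.mem_filter.mp hA).2]
    ring
  rw [e1, e2]
  unfold condMean
  field_simp

/-- The function of the boundary trace that gives the conditional mean of a linear functional. -/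
def condLin (G : SimpleGraph V) (β : ℝ) (S B : Finset V) (y a : V → ℝ) (τ : Finset V) : ℝ :=
  ∑ v ∈ S, a v * condMean G β S B y τ v

/-- The linear functional of the boundary spins which dominates it. -/
def bdLin (B : Finset V) (L : V → ℝ) (A : Finset V) : ℝ := ∑ w ∈ B, L w * sp A w

theorem sp_inter_of_mem {A B : Finset V} {w : V} (hw : w ∈ B) : sp (A ∩ B) w = sp A w := by
  simp [sp, hw]

theorem bdLin_inter (B : Finset V) (L : V → ℝ) (A : Finset V) :
    bdLin B L (A ∩ B) = bdLin B L A :=
  Finset.sum_congr rfl fun w hw => by rw [sp_inter_of_mem hw]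

theorem bdLin_insert {B τ : Finset V} (L : V → ℝ) {w : V} (hw : w ∈ B) (hwτ : w ∉ τ) :
    bdLin B L (insert w τ) = bdLin B L τ + 2 * L w := by
  unfold bdLin
  rw [← Finset.add_sum_erase B _ hw, ← Finset.add_sum_erase B (fun w => L w * sp τ w) hw]
  have e : ∑ x ∈ B.erase w, L x * sp (insert w τ) x = ∑ x ∈ B.erase w, L x * sp τ x := by
    refine Finset.sum_congr rfl fun x hx => ?_
    have : x ≠ w := (Finset.mem_erase.mp hx).1
    simp [sp, Finset.mem_insert, this]
  rw [e]
  simp only [sp, Finset.mem_insert_self, if_true, hwτ, if_false]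
  ring

/-- A function which increases along single insertions inside `B` is monotone. -/
theorem mono_of_insert {B : Finset V} {P : Finset V → ℝ}
    (h : ∀ τ, τ ⊆ B → ∀ w ∈ B, w ∉ τ → P τ ≤ P (insert w τ)) {τ τ' : Finset V}
    (hττ' : τ ⊆ τ') (hτ' : τ' ⊆ B) : P τ ≤ P τ' := by
  have key : ∀ E : Finset V, Disjoint E τ → E ∪ τ ⊆ B → P τ ≤ P (E ∪ τ) := by
    intro E
    induction E using Finset.induction_on with
    | empty => intro _ _; simp
    | insert e E he ih =>
      intro hd hsub
      have hd' : Disjoint E τ := Finset.disjoint_of_subset_left (Finset.subset_insert _ _) hd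
      have hsub' : E ∪ τ ⊆ B := (Finset.union_subset_union_left (Finset.subset_insert _ _)).trans hsub
      refine (ih hd' hsub').trans ?_
      have e1 : insert e E ∪ τ = insert e (E ∪ τ) := Finset.insert_union _ _ _
      rw [e1]
      refine h _ hsub' e (hsub (by simp)) ?_
      simp only [Finset.mem_union, not_or]
      exact ⟨he, Finset.disjoint_left.mp hd (Finset.mem_insert_self _ _)⟩
  have e : (τ' \ τ) ∪ τ = τ' := Finset.sdiff_union_of_subset hττ'
  have := key (τ' \ τ) Finset.sdiff_disjoint (by rw [e]; exact hτ')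
  rwa [e] at this

/-- Variance of the conditional mean of a linear functional, bounded through FKG. -/
theorem var_condLin_le (hT : G.IsTree) (hβ : 0 ≤ β) {S B : Finset V} (hB : B ⊆ S) (y a L : V → ℝ)
    (hL : ∀ w ∈ B, ∑ v ∈ S, |a v| * Real.tanh β ^ G.dist w v ≤ L w) :
    Ee G β S y (fun A => condLin G β S B y a (A ∩ B) * condLin G β S B y a (A ∩ B)) -
        Ee G β S y (fun A => condLin G β S B y a (A ∩ B)) *
          Ee G β S y (fun A => condLin G β S B y a (A ∩ B)) ≤
      ∑ w ∈ B, ∑ w' ∈ B, L w * L w' * Real.tanh β ^ G.dist w w' := by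
  have htanh0 : 0 ≤ Real.tanh β := by
    rw [Real.tanh_eq_sinh_div_cosh]
    exact div_nonneg (Real.sinh_nonneg_iff.mpr hβ) (Real.cosh_pos β).le
  have hL0 : ∀ w ∈ B, 0 ≤ L w := fun w hw =>
    (Finset.sum_nonneg fun v _ => mul_nonneg (abs_nonneg _) (pow_nonneg htanh0 _)).trans (hL w hw)
  set f := condLin G β S B y a with hf
  have hincr : ∀ τ, τ ⊆ B → ∀ w ∈ B, w ∉ τ → |f (insert w τ) - f τ| ≤ 2 * L w := by
    intro τ hτ w hw hwτ
    have e : f (insert w τ) - f τ = ∑ v ∈ S, a v *
        (condMean G β S B y (insert w τ) v - condMean G β S B y τ v) := by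
      simp only [hf, condLin]
      rw [← Finset.sum_sub_distrib]
      exact Finset.sum_congr rfl fun v _ => by ring
    rw [e]
    calc |∑ v ∈ S, a v * (condMean G β S B y (insert w τ) v - condMean G β S B y τ v)|
        ≤ ∑ v ∈ S, |a v * (condMean G β S B y (insert w τ) v - condMean G β S B y τ v)| :=
          Finset.abs_sum_le_sum_abs _ _
      _ ≤ ∑ v ∈ S, |a v| * (2 * Real.tanh β ^ G.dist w v) := by
          refine Finset.sum_le_sum fun v _ => ?_
          rw [abs_mul]
          exact mul_le_mul_of_nonneg_left (abs_condMean_insert_le hT hβ hB hτ hw hwτ y v)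
            (abs_nonneg _)
      _ = 2 * ∑ v ∈ S, |a v| * Real.tanh β ^ G.dist w v := by
          rw [Finset.mul_sum]
          exact Finset.sum_congr rfl fun v _ => by ring
      _ ≤ 2 * L w := by linarith [hL w hw]
  have hP1 : ∀ τ τ', τ ⊆ τ' → τ' ⊆ B → bdLin B L τ + f τ ≤ bdLin B L τ' + f τ' := by
    intro τ τ' h1 h2
    refine mono_of_insert (P := fun τ => bdLin B L τ + f τ) ?_ h1 h2
    intro τ hτ w hw hwτ
    have := abs_le.mp (hincr τ hτ w hw hwτ)
    simp only [bdLin_insert L hw hwτ]
    linarith [this.1]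
  have hP2 : ∀ τ τ', τ ⊆ τ' → τ' ⊆ B → bdLin B L τ - f τ ≤ bdLin B L τ' - f τ' := by
    intro τ τ' h1 h2
    refine mono_of_insert (P := fun τ => bdLin B L τ - f τ) ?_ h1 h2
    intro τ hτ w hw hwτ
    have := abs_le.mp (hincr τ hτ w hw hwτ)
    simp only [bdLin_insert L hw hwτ]
    linarith [this.2]
  have hinter : ∀ A A' : Finset V, A ⊆ A' → A ∩ B ⊆ A' ∩ B := fun A A' h =>
    Finset.inter_subset_inter_right h
  have key := variance_le_of_mono (G := G) hβ S y (fun A => f (A ∩ B)) (bdLin B L)
    (fun A A' h _ => by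
      have := hP1 _ _ (hinter A A' h) Finset.inter_subset_right
      rwa [bdLin_inter, bdLin_inter] at this)
    (fun A A' h _ => by
      have := hP2 _ _ (hinter A A' h) Finset.inter_subset_right
      rwa [bdLin_inter, bdLin_inter] at this)
  refine key.trans ?_
  -- variance of the boundary functional
  have e1 : Ee G β S y (fun A => bdLin B L A * bdLin B L A) =
      ∑ w ∈ B, ∑ w' ∈ B, L w * L w' * Ee G β S y (fun A => sp A w * sp A w') := by
    have : (fun A => bdLin B L A * bdLin B L A) =
        fun A => ∑ w ∈ B, ∑ w' ∈ B, L w * L w' * (sp A w * sp A w') := by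
      funext A
      unfold bdLin
      rw [Finset.sum_mul_sum]
      refine Finset.sum_congr rfl fun w _ => Finset.sum_congr rfl fun w' _ => by ring
    rw [this, Ee_sum]
    refine Finset.sum_congr rfl fun w _ => ?_
    rw [Ee_sum]
    exact Finset.sum_congr rfl fun w' _ => Ee_const_mul _ _ _ _ _ _
  have e2 : Ee G β S y (bdLin B L) = ∑ w ∈ B, L w * mean G β S y w := by
    have : bdLin B L = fun A => ∑ w ∈ B, L w * sp A w := rfl
    rw [this, Ee_sum]
    exact Finset.sum_congr rfl fun w _ => Ee_const_mul _ _ _ _ _ _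
  rw [e1, e2, Finset.sum_mul_sum, ← Finset.sum_sub_distrib]
  refine Finset.sum_le_sum fun w hw => ?_
  rw [← Finset.sum_sub_distrib]
  refine Finset.sum_le_sum fun w' hw' => ?_
  have hc := abs_cov_le (G := G) hT hβ S y w w'
  have e3 : L w * L w' * Ee G β S y (fun A => sp A w * sp A w') -
      L w * mean G β S y w * (L w' * mean G β S y w') = L w * L w' * cov G β S y w w' := by
    simp only [cov]; ring
  rw [e3]
  exact mul_le_mul_of_nonneg_left (le_of_abs_le hc) (mul_nonneg (hL0 w hw) (hL0 w' hw'))

end Vale.Agent.Lib.P161
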