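import Vale.Agent.Lib.P161.Limit

/-! The free Ising measure on a regular tree is a factor of IID below the reconstruction threshold. -/

open MeasureTheory Finset Filter Topology
open scoped Classical ENNReal

noncomputable section

namespace Vale.Agent.Lib.P161

theorem exists_params {d : ℕ} (hd : 2 ≤ d) {θ : ℝ} (hθ0 : 0 ≤ θ) (hθ : ((d : ℝ) - 1) * θ ^ 2 < 1) :
    ∃ κ ρ : ℝ, θ ≤ κ ∧ 0 < κ ∧ κ < ρ ∧ ρ < 1 ∧ ((d : ℝ) - 1) * κ * ρ < 1 ∧
      ((d : ℝ) - 1) * ρ ^ 2 < 1 := by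
  have hx : (1 : ℝ) ≤ (d : ℝ) - 1 := by
    have : (2 : ℝ) ≤ d := by exact_mod_cast hd
    linarith
  set x : ℝ := (d : ℝ) - 1 with hxd
  have hx0 : 0 < x := by linarith
  set ρ₀ := Real.sqrt (1 / x) with hρ₀d
  have hρ₀ : ρ₀ ^ 2 = 1 / x := Real.sq_sqrt (by positivity)
  have h1x : 1 / x ≤ 1 := by
    rw [div_le_one hx0]
    exact hx
  have hρ₀1 : ρ₀ ≤ 1 := Real.sqrt_le_one.2 h1x
  have hθρ : θ < ρ₀ := by
    apply Real.lt_sqrt_of_sq_lt
    rw [lt_div_iff₀ hx0]
    linarith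
  have hρ₀pos : 0 < ρ₀ := by linarith
  have hxρ₀ : x * ρ₀ ^ 2 = 1 := by
    rw [hρ₀]
    field_simp
  set ρ := (θ + ρ₀) / 2 with hρd
  have hρρ₀ : ρ < ρ₀ := by rw [hρd]; linarith
  have hρ0 : 0 < ρ := by rw [hρd]; linarith
  have hθρ' : θ < ρ := by rw [hρd]; linarith
  have hρ2 : x * ρ ^ 2 < 1 := by
    have h1 : ρ ^ 2 < ρ₀ ^ 2 := pow_lt_pow_left₀ hρρ₀ hρ0.le (by norm_num)
    have h2 : x * ρ ^ 2 < x * ρ₀ ^ 2 := mul_lt_mul_of_pos_left h1 hx0
    rw [hxρ₀] at h2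
    exact h2
  refine ⟨(θ + ρ) / 2, ρ, by linarith, by linarith, by linarith, by linarith, ?_, hρ2⟩
  have h3 : (θ + ρ) / 2 * ρ < ρ * ρ := by
    apply mul_lt_mul_of_pos_right _ hρ0
    linarith
  have h4 : x * ((θ + ρ) / 2 * ρ) < x * (ρ * ρ) := mul_lt_mul_of_pos_left h3 hx0
  have e1 : x * ((θ + ρ) / 2) * ρ = x * ((θ + ρ) / 2 * ρ) := by ring
  have e2 : x * (ρ * ρ) = x * ρ ^ 2 := by ring
  rw [e1]
  linarith

section

variable {V : Type*} {G : SimpleGraph V} {β : ℝ} [G.LocallyFinite] {n l : ℕ → ℕ}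

theorem Xj_map (g : ℕ → ℕ → unitInterval → ℝ) (hT : G.IsTree) (φ : G ≃g G) (U : V → unitInterval)
    (j : ℕ) (v : V) : Xj g G β n l j (φ v) (U ∘ φ.symm) = Xj g G β n l j v U := by
  unfold Xj Zlev
  rw [ball_map φ hT]
  congr 1
  exact flow_map φ _ _ (xiN g (l j) U) 0 _ 0 v

theorem Xlim_map (g : ℕ → ℕ → unitInterval → ℝ) (hT : G.IsTree) (φ : G ≃g G) (U : V → unitInterval)
    (v : V) : Xlim g G β n l (φ v) (U ∘ φ.symm) = Xlim g G β n l v U := by
  unfold Xlim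
  simp only [Xj_map g hT φ U]

end

/-- The free Ising measure on a regular tree is a factor of IID as soon as `(d - 1) θ ^ 2 < 1`. -/
theorem fiid_main {V : Type*} (G : SimpleGraph V) [G.LocallyFinite] {d : ℕ} (hd : 2 ≤ d)
    (hT : G.IsTree) (hreg : G.IsRegularOfDegree d) {β : ℝ} (hβ : 0 ≤ β)
    (hθ : ((d : ℝ) - 1) * Real.tanh β ^ 2 < 1) :
    ∃ Φ : (V → unitInterval) → (V → Bool), Measurable Φ ∧
      (∀ (φ : G ≃g G) (U : V → unitInterval), Φ (U ∘ φ.symm) = Φ U ∘ φ.symm) ∧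
      ∀ D : Finset V, (G.induce (D : Set V)).Connected → ∀ η : V → Bool,
        (iidUniform V).map Φ {σ | ∀ v ∈ D, σ v = η v} =
          ENNReal.ofReal (isingCyl G (Real.tanh β) D η) := by
  have hθ0 : 0 ≤ Real.tanh β := by
    rw [Real.tanh_eq_sinh_div_cosh]
    exact div_nonneg (Real.sinh_nonneg_iff.mpr hβ) (Real.cosh_pos β).le
  obtain ⟨κ, ρ, hθκ, hκ, hκρ, hρ, hdκρ, hρ2⟩ := exists_params hd hθ0 hθ
  obtain ⟨n, l, hs⟩ := exists_seqs d κ ρ hd hρ2
  obtain ⟨g, hm, hsum, hlaw⟩ := exists_dyadic_noise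
  have hΦm : Measurable (fun (U : V → unitInterval) (v : V) => Xlim g G β n l v U) :=
    measurable_pi_iff.2 fun v => measurable_Xlim g hm v
  refine ⟨fun U v => Xlim g G β n l v U, hΦm, ?_, ?_⟩
  · intro φ U
    funext w
    have h := Xlim_map (n := n) (l := l) (β := β) g hT φ U (φ.symm w)
    rw [φ.apply_symm_apply] at h
    exact h
  · intro D hD η
    have hcylm : MeasurableSet {σ : V → Bool | ∀ v ∈ D, σ v = η v} := by
      refine measurableSet_forall_mem D fun v _ => ?_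
      exact measurableSet_eq_fun (measurable_pi_apply v) measurable_const
    rw [Measure.map_apply hΦm hcylm]
    show iidUniform V {U | ∀ v ∈ D, Xlim g G β n l v U = η v} = _
    set a : ℝ≥0∞ := (D.card : ℝ≥0∞) with ha
    have hatop : a ≠ ∞ := ENNReal.natCast_ne_top _
    have e148 : ∀ j : ℕ, ENNReal.ofReal (148 * (1 / 2) ^ j) =
        ENNReal.ofReal 148 * ENNReal.ofReal ((1 / 2) ^ j) := fun j =>
      ENNReal.ofReal_mul (by norm_num)
    have e604 : ∀ j : ℕ, ENNReal.ofReal (604 * (1 / 2) ^ j) =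
        ENNReal.ofReal 604 * ENNReal.ofReal ((1 / 2) ^ j) := fun j =>
      ENNReal.ofReal_mul (by norm_num)
    apply le_antisymm
    · refine le_of_forall_pow _ _
        (1 + a * ENNReal.ofReal 148 + a * ENNReal.ofReal 604) ?_ fun j => ?_
      · exact ENNReal.add_ne_top.2 ⟨ENNReal.add_ne_top.2 ⟨ENNReal.one_ne_top,
          ENNReal.mul_ne_top hatop ENNReal.ofReal_ne_top⟩,
          ENNReal.mul_ne_top hatop ENNReal.ofReal_ne_top⟩
      have h1 := cyl_compare (a := fun v U => Xlim g G β n l v U)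
        (b := fun v U => Xj g G β n l j v U) D η _
        (fun v _ => deviation g hm hsum hlaw hT hd hreg hβ hθκ hκ hκρ hρ hdκρ hs j v)
      have h2 := (stage_law (β := β) g hm hlaw hT hd hreg hβ hθκ hκ hκρ hρ hdκρ hs j D hD η).1
      refine h1.trans ((add_le_add h2 le_rfl).trans (le_of_eq ?_))
      rw [e148, e604]
      ring
    · refine le_of_forall_pow _ _
        (a * ENNReal.ofReal 604 + a * ENNReal.ofReal 148 + a) ?_ fun j => ?_
      · exact ENNReal.add_ne_top.2 ⟨ENNReal.add_ne_top.2 ⟨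
          ENNReal.mul_ne_top hatop ENNReal.ofReal_ne_top,
          ENNReal.mul_ne_top hatop ENNReal.ofReal_ne_top⟩, hatop⟩
      have h1 := cyl_compare (a := fun v U => Xj g G β n l j v U)
        (b := fun v U => Xlim g G β n l v U) D η _
        (fun v _ => by
          have := deviation (β := β) (n := n) (l := l) g hm hsum hlaw hT hd hreg hβ hθκ hκ hκρ hρ
            hdκρ hs j v
          simp only [ne_comm] at this ⊢
          exact this)
      have h2 := (stage_law (β := β) g hm hlaw hT hd hreg hβ hθκ hκ hκρ hρ hdκρ hs j D hD η).2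
      refine h2.trans ((add_le_add (add_le_add h1 le_rfl) le_rfl).trans (le_of_eq ?_))
      rw [e148, e604]
      ring

end Vale.Agent.Lib.P161
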