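import Mathlib

/-! Finite volume tilted Gibbs measures: weights, expectations, derivative in the tilt, Lipschitz
bounds and the first order expansion of the mean vector. -/

open Finset
open scoped Classical

noncomputable section

namespace Vale.Agent.Lib.P161

variable {V : Type*}

/-- Spin of `v` in the configuration `A`. -/
def sp (A : Finset V) (v : V) : ℝ := if v ∈ A then 1 else -1

theorem sp_eq_or (A : Finset V) (v : V) : sp A v = 1 ∨ sp A v = -1 := by
  unfold sp; split_ifs <;> simp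

theorem sp_mul_self (A : Finset V) (v : V) : sp A v * sp A v = 1 := by
  rcases sp_eq_or A v with h | h <;> rw [h] <;> norm_num

theorem abs_sp (A : Finset V) (v : V) : |sp A v| = 1 := by
  rcases sp_eq_or A v with h | h <;> rw [h] <;> norm_num

/-- Ordered pair sum over adjacent pairs in `S`. -/
def pairSum (G : SimpleGraph V) (S A : Finset V) : ℝ :=
  ∑ u ∈ S, ∑ v ∈ S, if G.Adj u v then sp A u * sp A v else 0

/-- Pair weight. -/
def baseW (G : SimpleGraph V) (β : ℝ) (S A : Finset V) : ℝ := Real.exp (β / 2 * pairSum G S A)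

theorem baseW_pos (G : SimpleGraph V) (β : ℝ) (S A : Finset V) : 0 < baseW G β S A :=
  Real.exp_pos _

/-- Tilt term. -/
def tilt (S A : Finset V) (y : V → ℝ) : ℝ := ∑ v ∈ S, y v * sp A v

theorem tilt_add_smul (S A : Finset V) (y w : V → ℝ) (τ : ℝ) :
    tilt S A (y + τ • w) = tilt S A y + τ * tilt S A w := by
  simp only [tilt, Pi.add_apply, Pi.smul_apply, smul_eq_mul, add_mul, Finset.sum_add_distrib,
    Finset.mul_sum, mul_assoc]

theorem abs_tilt_le (S A : Finset V) (w : V → ℝ) : |tilt S A w| ≤ ∑ v ∈ S, |w v| := by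
  unfold tilt
  refine (Finset.abs_sum_le_sum_abs _ _).trans (le_of_eq ?_)
  refine Finset.sum_congr rfl fun v _ => ?_
  rw [abs_mul, abs_sp, mul_one]

/-- Gibbs weight of a configuration with tilt `y`. -/
def wt (G : SimpleGraph V) (β : ℝ) (S : Finset V) (y : V → ℝ) (A : Finset V) : ℝ :=
  baseW G β S A * Real.exp (tilt S A y)

theorem wt_pos (G : SimpleGraph V) (β : ℝ) (S : Finset V) (y : V → ℝ) (A : Finset V) :
    0 < wt G β S y A := mul_pos (baseW_pos _ _ _ _) (Real.exp_pos _)

/-- Partition function. -/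
def Zf (G : SimpleGraph V) (β : ℝ) (S : Finset V) (y : V → ℝ) : ℝ :=
  ∑ A ∈ S.powerset, wt G β S y A

theorem Zf_pos (G : SimpleGraph V) (β : ℝ) (S : Finset V) (y : V → ℝ) : 0 < Zf G β S y :=
  Finset.sum_pos (fun A _ => wt_pos _ _ _ _ _) ⟨∅, by simp⟩

/-- Gibbs probability of a configuration. -/
def mu (G : SimpleGraph V) (β : ℝ) (S : Finset V) (y : V → ℝ) (A : Finset V) : ℝ :=
  wt G β S y A / Zf G β S y

theorem mu_pos (G : SimpleGraph V) (β : ℝ) (S : Finset V) (y : V → ℝ) (A : Finset V) :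
    0 < mu G β S y A := div_pos (wt_pos _ _ _ _ _) (Zf_pos _ _ _ _)

theorem sum_mu (G : SimpleGraph V) (β : ℝ) (S : Finset V) (y : V → ℝ) :
    ∑ A ∈ S.powerset, mu G β S y A = 1 := by
  unfold mu
  rw [← Finset.sum_div]
  exact div_self (Zf_pos _ _ _ _).ne'

/-- Gibbs expectation. -/
def Ee (G : SimpleGraph V) (β : ℝ) (S : Finset V) (y : V → ℝ) (f : Finset V → ℝ) : ℝ :=
  ∑ A ∈ S.powerset, mu G β S y A * f A

theorem Ee_eq (G : SimpleGraph V) (β : ℝ) (S : Finset V) (y : V → ℝ) (f : Finset V → ℝ) :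
    Ee G β S y f = (∑ A ∈ S.powerset, wt G β S y A * f A) / Zf G β S y := by
  unfold Ee mu
  rw [Finset.sum_div]
  exact Finset.sum_congr rfl fun A _ => by ring

theorem Ee_const (G : SimpleGraph V) (β : ℝ) (S : Finset V) (y : V → ℝ) (c : ℝ) :
    Ee G β S y (fun _ => c) = c := by
  unfold Ee
  rw [← Finset.sum_mul, sum_mu, one_mul]

theorem abs_Ee_le (G : SimpleGraph V) (β : ℝ) (S : Finset V) (y : V → ℝ) (f : Finset V → ℝ)
    {c : ℝ} (hc : ∀ A, |f A| ≤ c) : |Ee G β S y f| ≤ c := by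
  unfold Ee
  calc |∑ A ∈ S.powerset, mu G β S y A * f A|
      ≤ ∑ A ∈ S.powerset, |mu G β S y A * f A| := Finset.abs_sum_le_sum_abs _ _
    _ ≤ ∑ A ∈ S.powerset, mu G β S y A * c := by
        refine Finset.sum_le_sum fun A _ => ?_
        rw [abs_mul, abs_of_pos (mu_pos _ _ _ _ _)]
        exact mul_le_mul_of_nonneg_left (hc A) (mu_pos _ _ _ _ _).le
    _ = c := by rw [← Finset.sum_mul, sum_mu, one_mul]

theorem Ee_mono (G : SimpleGraph V) (β : ℝ) (S : Finset V) (y : V → ℝ) {f g : Finset V → ℝ}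
    (h : ∀ A, f A ≤ g A) : Ee G β S y f ≤ Ee G β S y g :=
  Finset.sum_le_sum fun A _ => mul_le_mul_of_nonneg_left (h A) (mu_pos _ _ _ _ _).le

theorem Ee_add (G : SimpleGraph V) (β : ℝ) (S : Finset V) (y : V → ℝ) (f g : Finset V → ℝ) :
    Ee G β S y (fun A => f A + g A) = Ee G β S y f + Ee G β S y g := by
  unfold Ee
  rw [← Finset.sum_add_distrib]
  exact Finset.sum_congr rfl fun A _ => by ring

theorem Ee_sub (G : SimpleGraph V) (β : ℝ) (S : Finset V) (y : V → ℝ) (f g : Finset V → ℝ) :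
    Ee G β S y (fun A => f A - g A) = Ee G β S y f - Ee G β S y g := by
  unfold Ee
  rw [← Finset.sum_sub_distrib]
  exact Finset.sum_congr rfl fun A _ => by ring

theorem Ee_mul_const (G : SimpleGraph V) (β : ℝ) (S : Finset V) (y : V → ℝ) (f : Finset V → ℝ)
    (c : ℝ) : Ee G β S y (fun A => f A * c) = Ee G β S y f * c := by
  unfold Ee
  rw [Finset.sum_mul]
  exact Finset.sum_congr rfl fun A _ => by ring

theorem Ee_const_mul (G : SimpleGraph V) (β : ℝ) (S : Finset V) (y : V → ℝ) (f : Finset V → ℝ)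
    (c : ℝ) : Ee G β S y (fun A => c * f A) = c * Ee G β S y f := by
  unfold Ee
  rw [Finset.mul_sum]
  exact Finset.sum_congr rfl fun A _ => by ring

theorem Ee_sum {ι : Type*} (G : SimpleGraph V) (β : ℝ) (S : Finset V) (y : V → ℝ) (s : Finset ι)
    (f : ι → Finset V → ℝ) :
    Ee G β S y (fun A => ∑ i ∈ s, f i A) = ∑ i ∈ s, Ee G β S y (f i) := by
  unfold Ee
  simp_rw [Finset.mul_sum]
  rw [Finset.sum_comm]

/-- Mean spin vector. -/
def mean (G : SimpleGraph V) (β : ℝ) (S : Finset V) (y : V → ℝ) (v : V) : ℝ :=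
  Ee G β S y (fun A => sp A v)

/-- Covariance of two spins. -/
def cov (G : SimpleGraph V) (β : ℝ) (S : Finset V) (y : V → ℝ) (u v : V) : ℝ :=
  Ee G β S y (fun A => sp A u * sp A v) - mean G β S y u * mean G β S y v

theorem abs_mean_le (G : SimpleGraph V) (β : ℝ) (S : Finset V) (y : V → ℝ) (v : V) :
    |mean G β S y v| ≤ 1 :=
  abs_Ee_le _ _ _ _ _ fun A => (abs_sp A v).le

section deriv

variable (G : SimpleGraph V) (β : ℝ) (S : Finset V) (y w : V → ℝ)

theorem hasDerivAt_wt (A : Finset V) (τ : ℝ) :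
    HasDerivAt (fun τ : ℝ => wt G β S (y + τ • w) A) (wt G β S (y + τ • w) A * tilt S A w) τ := by
  have h1 : HasDerivAt (fun τ : ℝ => tilt S A y + τ * tilt S A w) (tilt S A w) τ := by
    simpa using ((hasDerivAt_id τ).mul_const (tilt S A w)).const_add (tilt S A y)
  have h2 := (h1.exp).const_mul (baseW G β S A)
  have h3 : (fun τ : ℝ => wt G β S (y + τ • w) A) =
      fun τ : ℝ => baseW G β S A * Real.exp (tilt S A y + τ * tilt S A w) := by
    funext τ; simp only [wt, tilt_add_smul]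
  rw [h3]
  refine h2.congr_deriv ?_
  simp only [wt, tilt_add_smul]
  ring

/-- Derivative of an expectation along a line of tilts. -/
theorem hasDerivAt_Ee (f : Finset V → ℝ) (τ : ℝ) :
    HasDerivAt (fun τ : ℝ => Ee G β S (y + τ • w) f)
      (Ee G β S (y + τ • w) (fun A => f A * tilt S A w) -
        Ee G β S (y + τ • w) f * Ee G β S (y + τ • w) (fun A => tilt S A w)) τ := by
  have hN : HasDerivAt (fun τ : ℝ => ∑ A ∈ S.powerset, wt G β S (y + τ • w) A * f A)
      (∑ A ∈ S.powerset, wt G β S (y + τ • w) A * tilt S A w * f A) τ :=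
    HasDerivAt.fun_sum fun A _ => (hasDerivAt_wt G β S y w A τ).mul_const (f A)
  have hZ : HasDerivAt (fun τ : ℝ => Zf G β S (y + τ • w))
      (∑ A ∈ S.powerset, wt G β S (y + τ • w) A * tilt S A w) τ :=
    HasDerivAt.fun_sum fun A _ => hasDerivAt_wt G β S y w A τ
  have h := hN.fun_div hZ (Zf_pos G β S (y + τ • w)).ne'
  have h3 : (fun τ : ℝ => Ee G β S (y + τ • w) f) =
      fun τ : ℝ => (∑ A ∈ S.powerset, wt G β S (y + τ • w) A * f A) / Zf G β S (y + τ • w) := by
    funext τ; exact Ee_eq _ _ _ _ _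
  rw [h3]
  refine h.congr_deriv ?_
  rw [Ee_eq, Ee_eq, Ee_eq]
  have hZ0 := (Zf_pos G β S (y + τ • w)).ne'
  field_simp
  have e1 : ∑ A ∈ S.powerset, wt G β S (y + τ • w) A * f A * tilt S A w =
      ∑ A ∈ S.powerset, wt G β S (y + τ • w) A * tilt S A w * f A :=
    Finset.sum_congr rfl fun A _ => by ring
  rw [e1]
  ring

/-- Covariance bound. -/
theorem abs_deriv_le (f g : Finset V → ℝ) (z : V → ℝ) {c e : ℝ} (hc : ∀ A, |f A| ≤ c)
    (he : ∀ A, |g A| ≤ e) :
    |Ee G β S z (fun A => f A * g A) - Ee G β S z f * Ee G β S z g| ≤ 2 * c * e := by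
  have hc0 : 0 ≤ c := (abs_nonneg _).trans (hc ∅)
  have he0 : 0 ≤ e := (abs_nonneg _).trans (he ∅)
  have h1 : |Ee G β S z (fun A => f A * g A)| ≤ c * e :=
    abs_Ee_le _ _ _ _ _ fun A => by
      rw [abs_mul]; exact mul_le_mul (hc A) (he A) (abs_nonneg _) hc0
  have h2 : |Ee G β S z f * Ee G β S z g| ≤ c * e := by
    rw [abs_mul]
    exact mul_le_mul (abs_Ee_le _ _ _ _ _ hc) (abs_Ee_le _ _ _ _ _ he) (abs_nonneg _) hc0
  calc _ ≤ |Ee G β S z (fun A => f A * g A)| + |Ee G β S z f * Ee G β S z g| := abs_sub _ _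
    _ ≤ 2 * c * e := by linarith

/-- Expectations are Lipschitz in the tilt for the `ℓ¹` norm on `S`. -/
theorem Ee_lipschitz (f : Finset V → ℝ) {c : ℝ} (hc : ∀ A, |f A| ≤ c) :
    |Ee G β S (y + w) f - Ee G β S y f| ≤ 2 * c * ∑ v ∈ S, |w v| := by
  have hd := fun τ : ℝ => hasDerivAt_Ee G β S y w f τ
  obtain ⟨τ, -, hτ⟩ := exists_hasDerivAt_eq_slope (fun τ : ℝ => Ee G β S (y + τ • w) f)
    (fun τ : ℝ => Ee G β S (y + τ • w) (fun A => f A * tilt S A w) -
      Ee G β S (y + τ • w) f * Ee G β S (y + τ • w) (fun A => tilt S A w))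
    (by norm_num : (0 : ℝ) < 1)
    (continuousOn_of_forall_continuousAt fun τ _ => (hd τ).continuousAt)
    (fun τ _ => hd τ)
  simp only [zero_smul, add_zero, one_smul, sub_zero, div_one] at hτ
  rw [← hτ]
  exact abs_deriv_le G β S _ _ _ hc (fun A => abs_tilt_le S A w)

theorem mean_lipschitz (u : V) :
    |mean G β S (y + w) u - mean G β S y u| ≤ 2 * ∑ v ∈ S, |w v| := by
  have := Ee_lipschitz G β S y w (fun A => sp A u) (c := 1) (fun A => (abs_sp A u).le)
  simpa [mean] using this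

theorem cov_lipschitz (u v : V) :
    |cov G β S (y + w) u v - cov G β S y u v| ≤ 6 * ∑ x ∈ S, |w x| := by
  have h1 := Ee_lipschitz G β S y w (fun A => sp A u * sp A v) (c := 1)
    (fun A => by rw [abs_mul, abs_sp, abs_sp, one_mul])
  have h2 := mean_lipschitz G β S y w u
  have h3 := mean_lipschitz G β S y w v
  have h4 := abs_mean_le G β S (y + w) u
  have h5 := abs_mean_le G β S y v
  set a := mean G β S (y + w) u
  set b := mean G β S (y + w) v
  set c := mean G β S y u
  set d := mean G β S y v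
  set L := ∑ x ∈ S, |w x|
  have e : (a * b - c * d) = a * (b - d) + (a - c) * d := by ring
  have h6 : |a * b - c * d| ≤ 2 * L + 2 * L := by
    rw [e]
    refine (abs_add_le _ _).trans ?_
    rw [abs_mul, abs_mul]
    have hL : 0 ≤ L := Finset.sum_nonneg fun _ _ => abs_nonneg _
    have i1 : |a| * |b - d| ≤ 1 * (2 * L) :=
      mul_le_mul h4 h3 (abs_nonneg _) zero_le_one
    have i2 : |a - c| * |d| ≤ 2 * L * 1 :=
      mul_le_mul h2 h5 (abs_nonneg _) (by positivity)
    linarith
  simp only [cov]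
  have e2 : Ee G β S (y + w) (fun A => sp A u * sp A v) - a * b -
      (Ee G β S y (fun A => sp A u * sp A v) - c * d) =
      (Ee G β S (y + w) (fun A => sp A u * sp A v) - Ee G β S y (fun A => sp A u * sp A v))
        - (a * b - c * d) := by ring
  rw [e2]
  refine (abs_sub _ _).trans ?_
  linarith

/-- The derivative of the mean along `w`, written with the covariance matrix. -/
theorem deriv_mean_eq (u : V) (z : V → ℝ) :
    Ee G β S z (fun A => sp A u * tilt S A w) -
        Ee G β S z (fun A => sp A u) * Ee G β S z (fun A => tilt S A w) =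
      ∑ v ∈ S, cov G β S z u v * w v := by
  have h1 : Ee G β S z (fun A => sp A u * tilt S A w) =
      ∑ v ∈ S, Ee G β S z (fun A => sp A u * sp A v) * w v := by
    have : (fun A => sp A u * tilt S A w) = fun A => ∑ v ∈ S, (sp A u * sp A v) * w v := by
      funext A
      simp only [tilt, Finset.mul_sum]
      exact Finset.sum_congr rfl fun v _ => by ring
    rw [this, Ee_sum]
    exact Finset.sum_congr rfl fun v _ => Ee_mul_const _ _ _ _ _ _
  have h2 : Ee G β S z (fun A => tilt S A w) = ∑ v ∈ S, mean G β S z v * w v := by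
    have : (fun A => tilt S A w) = fun A => ∑ v ∈ S, sp A v * w v := by
      funext A
      simp only [tilt]
      exact Finset.sum_congr rfl fun v _ => by ring
    rw [this, Ee_sum]
    exact Finset.sum_congr rfl fun v _ => Ee_mul_const _ _ _ _ _ _
  rw [h1, h2, Finset.mul_sum, ← Finset.sum_sub_distrib]
  refine Finset.sum_congr rfl fun v _ => ?_
  simp only [cov, mean]
  ring

/-- First order expansion of the mean vector. -/
theorem mean_taylor (u : V) :
    |mean G β S (y + w) u - mean G β S y u - ∑ v ∈ S, cov G β S y u v * w v| ≤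
      6 * (∑ v ∈ S, |w v|) ^ 2 := by
  have hd := fun τ : ℝ => hasDerivAt_Ee G β S y w (fun A => sp A u) τ
  obtain ⟨τ, hτ01, hτ⟩ := exists_hasDerivAt_eq_slope
    (fun τ : ℝ => Ee G β S (y + τ • w) (fun A => sp A u))
    (fun τ : ℝ => Ee G β S (y + τ • w) (fun A => sp A u * tilt S A w) -
      Ee G β S (y + τ • w) (fun A => sp A u) * Ee G β S (y + τ • w) (fun A => tilt S A w))
    (by norm_num : (0 : ℝ) < 1)
    (continuousOn_of_forall_continuousAt fun τ _ => (hd τ).continuousAt)
    (fun τ _ => hd τ)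
  simp only [zero_smul, add_zero, one_smul, sub_zero, div_one] at hτ
  have e : mean G β S (y + w) u - mean G β S y u = ∑ v ∈ S, cov G β S (y + τ • w) u v * w v := by
    rw [← deriv_mean_eq]
    exact hτ.symm
  rw [e, ← Finset.sum_sub_distrib]
  set L := ∑ v ∈ S, |w v| with hL
  have hL0 : 0 ≤ L := Finset.sum_nonneg fun _ _ => abs_nonneg _
  have key : ∀ v ∈ S, |cov G β S (y + τ • w) u v * w v - cov G β S y u v * w v| ≤ 6 * L * |w v| := by
    intro v _
    rw [← sub_mul, abs_mul]
    refine mul_le_mul_of_nonneg_right ?_ (abs_nonneg _)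
    have := cov_lipschitz G β S y (τ • w) u v
    refine this.trans ?_
    have h1 : ∑ x ∈ S, |(τ • w) x| ≤ L := by
      refine Finset.sum_le_sum fun x _ => ?_
      simp only [Pi.smul_apply, smul_eq_mul, abs_mul]
      have : |τ| ≤ 1 := by
        rw [abs_of_pos hτ01.1]; exact hτ01.2.le
      calc |τ| * |w x| ≤ 1 * |w x| := mul_le_mul_of_nonneg_right this (abs_nonneg _)
        _ = |w x| := one_mul _
    linarith
  calc _ ≤ ∑ v ∈ S, |cov G β S (y + τ • w) u v * w v - cov G β S y u v * w v| :=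
        Finset.abs_sum_le_sum_abs _ _
    _ ≤ ∑ v ∈ S, 6 * L * |w v| := Finset.sum_le_sum key
    _ = 6 * L ^ 2 := by rw [← Finset.mul_sum, ← hL]; ring

end deriv

end Vale.Agent.Lib.P161
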