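import Vale.Agent.Lib.P161.Times

/-! The law of the signs of the Euler scheme on a finite set of vertices. -/

open MeasureTheory Finset
open scoped Classical ENNReal

noncomputable section

namespace Vale.Agent.Lib.P161

variable {V : Type*} {G : SimpleGraph V} {β : ℝ}

theorem chainFrom_sum {S : Finset V} {δ : ℝ} {i : ℕ} {ξ : ℕ → V → ℝ} {ι : Type*} (s : Finset ι)
    (f : ι → (V → ℝ) → ℝ≥0∞) (n : ℕ) (y : V → ℝ) :
    chainFrom G β S δ i ξ n (fun y => ∑ a ∈ s, f a y) y =
      ∑ a ∈ s, chainFrom G β S δ i ξ n (f a) y := by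
  induction s using Finset.induction_on with
  | empty => simp [chainFrom_const]
  | insert a s ha ih =>
    simp only [Finset.sum_insert ha]
    rw [chainFrom_add', ih]

theorem measurableSet_forall_mem {Ω ι : Type*} [MeasurableSpace Ω] (D : Finset ι) {p : ι → Ω → Prop}
    (h : ∀ v ∈ D, MeasurableSet {ω | p v ω}) : MeasurableSet {ω | ∀ v ∈ D, p v ω} := by
  have : {ω | ∀ v ∈ D, p v ω} = ⋂ v ∈ D, {ω | p v ω} := by
    ext ω
    simp
  rw [this]
  exact Finset.measurableSet_biInter D h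

theorem sgnB_sp_iff (C : Finset V) (v : V) (b : Bool) : sp C v = spin b ↔ sgnB (sp C v) = b := by
  unfold sp spin sgnB
  by_cases h : v ∈ C <;> cases b <;> norm_num [h]

/-- The sign event on `D`. -/
def signsAgree (D : Finset V) (η : V → Bool) (y : V → ℝ) : Prop := ∀ v ∈ D, sgnB (y v) = η v

theorem measurableSet_signsAgree (D : Finset V) (η : V → Bool) :
    MeasurableSet {y : V → ℝ | signsAgree D η y} := by
  refine measurableSet_forall_mem D fun v _ => ?_
  exact measurableSet_eq_fun (measurable_sgnB.comp (measurable_pi_apply v)) measurable_const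

/-- Term by term bounds for the cylinder events under the planted law. -/
theorem cyl_term_upper {S' D : Finset V} (hDS' : D ⊆ S') (η : V → Bool) {T : ℝ} (hT : 0 < T)
    (C : Finset V) :
    ∫⁻ g, ind (signsAgree D η (0 + T • stepVec S' C + Real.sqrt T • g)) ∂gam V ≤
      ind (∀ v ∈ D, sp C v = spin (η v)) + ENNReal.ofReal (1 / T) := by
  by_cases hag : ∀ v ∈ D, sp C v = spin (η v)
  · rw [ind_true hag]
    refine le_trans ?_ le_self_add
    calc ∫⁻ g, ind (signsAgree D η (0 + T • stepVec S' C + Real.sqrt T • g)) ∂gam V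
        ≤ ∫⁻ _, 1 ∂gam V := lintegral_mono fun g => ind_le_one _
      _ = 1 := by simp
  · rw [ind_false hag]
    refine le_trans ?_ le_add_self
    push Not at hag
    obtain ⟨v, hv, hne⟩ := hag
    have hpt : ∀ g : V → ℝ, ind (signsAgree D η (0 + T • stepVec S' C + Real.sqrt T • g)) ≤
        ind (T ≤ |Real.sqrt T * g v|) := by
      intro g
      refine ind_le_of_imp fun h => ?_
      by_contra hcon
      push Not at hcon
      have h1 := h v hv
      simp only [Pi.add_apply, Pi.smul_apply, smul_eq_mul, zero_add] at h1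
      have hs : stepVec S' C v = sp C v := by simp [stepVec, hDS' hv]
      rw [sgnB_planted hT (stepVec_abs C (hDS' hv)) hcon, hs] at h1
      exact hne ((sgnB_sp_iff C v (η v)).2 h1)
    calc ∫⁻ g, ind (signsAgree D η (0 + T • stepVec S' C + Real.sqrt T • g)) ∂gam V
        ≤ ∫⁻ g, ind (T ≤ |Real.sqrt T * g v|) ∂gam V := lintegral_mono hpt
      _ = gam V {g : V → ℝ | T ≤ |Real.sqrt T * g v|} :=
          lintegral_ind _ (measurableSet_cheb_time v T)
      _ ≤ _ := cheb_time v hT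

theorem measurable_shift0 (S' C : Finset V) (T : ℝ) :
    Measurable (fun g : V → ℝ => (0 : V → ℝ) + T • stepVec S' C + Real.sqrt T • g) := by
  refine measurable_pi_iff.2 fun v => ?_
  simp only [Pi.add_apply, Pi.smul_apply, smul_eq_mul]
  exact measurable_const.add ((measurable_pi_apply v).const_mul _)

theorem cyl_term_lower {S' D : Finset V} (hDS' : D ⊆ S') (η : V → Bool) {T : ℝ} (hT : 0 < T)
    (C : Finset V) :
    ind (∀ v ∈ D, sp C v = spin (η v)) ≤
      ∫⁻ g, ind (signsAgree D η (0 + T • stepVec S' C + Real.sqrt T • g)) ∂gam V +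
        (D.card : ℝ≥0∞) * ENNReal.ofReal (1 / T) := by
  by_cases hag : ∀ v ∈ D, sp C v = spin (η v)
  · rw [ind_true hag]
    have hpt : ∀ g : V → ℝ, (1 : ℝ≥0∞) ≤
        ind (signsAgree D η (0 + T • stepVec S' C + Real.sqrt T • g)) +
          ∑ v ∈ D, ind (T ≤ |Real.sqrt T * g v|) := by
      intro g
      by_cases hex : ∃ v ∈ D, T ≤ |Real.sqrt T * g v|
      · obtain ⟨v, hv, hle⟩ := hex
        refine le_trans ?_ le_add_self
        rw [← ind_true hle]
        exact Finset.single_le_sum (f := fun v => ind (T ≤ |Real.sqrt T * g v|))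
          (fun _ _ => zero_le) hv
      · refine le_trans ?_ le_self_add
        rw [ind_true]
        intro v hv
        have hcon : |Real.sqrt T * g v| < T := by
          by_contra h
          exact hex ⟨v, hv, not_lt.1 h⟩
        simp only [Pi.add_apply, Pi.smul_apply, smul_eq_mul, zero_add]
        have hs : stepVec S' C v = sp C v := by simp [stepVec, hDS' hv]
        rw [sgnB_planted hT (stepVec_abs C (hDS' hv)) hcon, hs]
        exact (sgnB_sp_iff C v (η v)).1 (hag v hv)
    have hm : ∀ v ∈ D, Measurable (fun g : V → ℝ => ind (T ≤ |Real.sqrt T * g v|)) :=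
      fun v _ => measurable_ind (measurableSet_cheb_time v T)
    calc (1 : ℝ≥0∞) = ∫⁻ _, 1 ∂gam V := by simp
      _ ≤ ∫⁻ g, (ind (signsAgree D η (0 + T • stepVec S' C + Real.sqrt T • g)) +
            ∑ v ∈ D, ind (T ≤ |Real.sqrt T * g v|)) ∂gam V := lintegral_mono hpt
      _ = ∫⁻ g, ind (signsAgree D η (0 + T • stepVec S' C + Real.sqrt T • g)) ∂gam V +
            ∑ v ∈ D, gam V {g : V → ℝ | T ≤ |Real.sqrt T * g v|} := by
          rw [lintegral_add_right _ (Finset.measurable_sum _ hm), lintegral_finsetSum _ hm]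
          congr 1
          exact Finset.sum_congr rfl fun v _ => lintegral_ind _ (measurableSet_cheb_time v T)
      _ ≤ _ := by
          refine add_le_add_right ?_ _
          calc ∑ v ∈ D, gam V {g : V → ℝ | T ≤ |Real.sqrt T * g v|}
              ≤ ∑ _v ∈ D, ENNReal.ofReal (1 / T) := Finset.sum_le_sum fun v _ => cheb_time v hT
            _ = _ := by rw [Finset.sum_const, nsmul_eq_mul]
  · rw [ind_false hag]; exact zero_le

theorem ofReal_if_mu (S' : Finset V) (p : Prop) [Decidable p] (C : Finset V) :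
    ENNReal.ofReal (if p then mu G β S' 0 C else 0) = ENNReal.ofReal (mu G β S' 0 C) * ind p := by
  by_cases hp : p
  · rw [ind_true hp, if_pos hp, mul_one]
  · rw [ind_false hp, if_neg hp, mul_zero, ENNReal.ofReal_zero]

/-- The planted law of the signs on `D` is close to the free Ising law. -/
theorem planted_cyl (hT' : G.IsTree) {r : V} {D S' : Finset V} (hr : r ∈ D) (hD : Star G r D)
    (hDS' : D ⊆ S') (hS' : Star G r S') (η : V → Bool) {T : ℝ} (hT : 0 < T) :
    planted G β S' T 0 (fun y => ind (signsAgree D η y)) ≤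
        ENNReal.ofReal (isingCyl G (Real.tanh β) D η) + ENNReal.ofReal (1 / T) ∧
    ENNReal.ofReal (isingCyl G (Real.tanh β) D η) ≤
        planted G β S' T 0 (fun y => ind (signsAgree D η y)) +
          (D.card : ℝ≥0∞) * ENNReal.ofReal (1 / T) := by
  have hcyl : ENNReal.ofReal (isingCyl G (Real.tanh β) D η) =
      ∑ C ∈ S'.powerset, ENNReal.ofReal (mu G β S' 0 C) * ind (∀ v ∈ D, sp C v = spin (η v)) := by
    rw [← marginal_eq hT' hr hD hDS' hS' η, ENNReal.ofReal_sum_of_nonneg]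
    · exact Finset.sum_congr rfl fun C _ => ofReal_if_mu S' _ C
    · intro C _
      split_ifs
      · exact (mu_pos _ _ _ _ _).le
      · exact le_rfl
  rw [hcyl]
  unfold planted
  constructor
  · calc ∑ C ∈ S'.powerset, ENNReal.ofReal (mu G β S' 0 C) *
          ∫⁻ g, ind (signsAgree D η (0 + T • stepVec S' C + Real.sqrt T • g)) ∂gam V
        ≤ ∑ C ∈ S'.powerset, ENNReal.ofReal (mu G β S' 0 C) *
            (ind (∀ v ∈ D, sp C v = spin (η v)) + ENNReal.ofReal (1 / T)) :=
          Finset.sum_le_sum fun C _ => mul_le_mul_right (cyl_term_upper hDS' η hT C) _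
      _ = _ := by
          simp only [mul_add]
          rw [Finset.sum_add_distrib, ← Finset.sum_mul, sum_ofReal_mu, one_mul]
  · calc ∑ C ∈ S'.powerset, ENNReal.ofReal (mu G β S' 0 C) * ind (∀ v ∈ D, sp C v = spin (η v))
        ≤ ∑ C ∈ S'.powerset, ENNReal.ofReal (mu G β S' 0 C) *
            (∫⁻ g, ind (signsAgree D η (0 + T • stepVec S' C + Real.sqrt T • g)) ∂gam V +
              (D.card : ℝ≥0∞) * ENNReal.ofReal (1 / T)) :=
          Finset.sum_le_sum fun C _ => mul_le_mul_right (cyl_term_lower hDS' η hT C) _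
      _ = _ := by
          simp only [mul_add]
          rw [Finset.sum_add_distrib, ← Finset.sum_mul, sum_ofReal_mu, one_mul]

section withParams

variable [G.LocallyFinite] {S' : Finset V} {d : ℕ} {κ ρ δ : ℝ}

/-- Signs of the Euler schemes on balls around the points of `D`, compared to the planted law. -/
theorem signs_law (hT : G.IsTree) (hd : 2 ≤ d) (hreg : G.IsRegularOfDegree d) (hβ : 0 ≤ β)
    (hθκ : Real.tanh β ≤ κ) (hκ : 0 < κ) (hκρ : κ < ρ) (hρ : ρ < 1)
    (hdκρ : ((d : ℝ) - 1) * κ * ρ < 1) (D : Finset V) (η : V → Bool) (n : ℕ)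
    (hSS' : ∀ v ∈ D, ball G v n ⊆ S') (hS' : ∀ v ∈ D, Star G v S')
    (hδ0 : 0 < δ) (hδ1 : δ ≤ 1) (K : ℕ) (hK : 0 < K) (E : ℝ≥0∞)
    (hE : ∀ v ∈ D, ENNReal.ofReal (4 / (K * δ)) + ENNReal.ofReal (1 / ((K * δ) / 4) ^ 2) *
        ENNReal.ofReal (errC d κ ρ (ball G v n).card (K * δ) δ n) ≤ E) :
    nu V {ξ | ∀ v ∈ D, sgnB (flow G β (ball G v n) δ ξ 0 K 0 v) = η v} ≤
        planted G β S' (K * δ) 0 (fun y => ind (signsAgree D η y)) + (D.card : ℝ≥0∞) * E ∧
    planted G β S' (K * δ) 0 (fun y => ind (signsAgree D η y)) ≤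
        nu V {ξ | ∀ v ∈ D, sgnB (flow G β (ball G v n) δ ξ 0 K 0 v) = η v} +
          (D.card : ℝ≥0∞) * E := by
  set T : ℝ := K * δ with hTd
  set Z : V → (ℕ → V → ℝ) → ℝ := fun v ξ => flow G β (ball G v n) δ ξ 0 K 0 v with hZ
  have hZm : ∀ v, Measurable (Z v) := fun v => measurable_flow_noise _ _ _ _
  have hWs : MeasurableSet {ξ | ∀ v ∈ D, sgnB (Z v ξ) = η v} := by
    refine measurableSet_forall_mem D fun v _ => ?_
    exact measurableSet_eq_fun (measurable_sgnB.comp (hZm v)) measurable_const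
  set A : (V → ℝ) → ℝ≥0∞ := fun y => ind (signsAgree D η y) with hA
  have hAm : Measurable A := measurable_ind (measurableSet_signsAgree D η)
  set W : (ℕ → V → ℝ) → ℝ≥0∞ := fun ξ => ind (∀ v ∈ D, sgnB (Z v ξ) = η v) with hW
  set Bv : V → (ℕ → V → ℝ) → (V → ℝ) → ℝ≥0∞ := fun v ξ y => ind (unreliable T (Z v ξ) (y v)) with hBv
  have hBvm : ∀ v, Measurable (Function.uncurry (Bv v)) := fun v =>
    measurable_ind (measurableSet_unreliable T ((hZm v).comp measurable_fst)
      ((measurable_pi_apply v).comp measurable_snd))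
  -- the basic pointwise comparison
  have hcomp : ∀ ξ y, (∀ v ∈ D, ¬ unreliable T (Z v ξ) (y v)) →
      ((∀ v ∈ D, sgnB (Z v ξ) = η v) ↔ signsAgree D η y) := by
    intro ξ y h
    have h' : ∀ v ∈ D, sgnB (Z v ξ) = sgnB (y v) := by
      intro v hv
      have := h v hv
      unfold unreliable at this
      push Not at this
      exact this.2
    constructor
    · intro hh v hv
      rw [← h' v hv]
      exact hh v hv
    · intro hh v hv
      rw [h' v hv]
      exact hh v hv
  have hsum1 : ∀ ξ y, (∃ v ∈ D, unreliable T (Z v ξ) (y v)) → (1 : ℝ≥0∞) ≤ ∑ v ∈ D, Bv v ξ y := by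
    rintro ξ y ⟨v, hv, hu⟩
    have h1 : Bv v ξ y = 1 := ind_true hu
    rw [← h1]
    exact Finset.single_le_sum (f := fun v => Bv v ξ y) (fun _ _ => zero_le) hv
  have hpt1 : ∀ ξ y, W ξ ≤ A y + ∑ v ∈ D, Bv v ξ y := by
    intro ξ y
    by_cases hex : ∃ v ∈ D, unreliable T (Z v ξ) (y v)
    · exact (ind_le_one _).trans ((hsum1 ξ y hex).trans le_add_self)
    · push Not at hex
      refine le_trans (ind_le_of_imp (hcomp ξ y hex).1) le_self_add
  have hpt2 : ∀ ξ y, A y ≤ W ξ + ∑ v ∈ D, Bv v ξ y := by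
    intro ξ y
    by_cases hex : ∃ v ∈ D, unreliable T (Z v ξ) (y v)
    · exact (ind_le_one _).trans ((hsum1 ξ y hex).trans le_add_self)
    · push Not at hex
      refine le_trans (ind_le_of_imp (hcomp ξ y hex).2) le_self_add
  have hm1 : ∀ v, Measurable (fun ξ => chainFrom G β S' δ 0 ξ K (Bv v ξ) 0) := fun v =>
    measurable_chain_at S' δ 0 K (Bv v) (hBvm v) 0
  have hBad : ∫⁻ ξ, ∑ v ∈ D, chainFrom G β S' δ 0 ξ K (Bv v ξ) 0 ∂nu V ≤ (D.card : ℝ≥0∞) * E := by
    rw [lintegral_finsetSum _ (fun v _ => hm1 v)]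
    calc ∑ v ∈ D, ∫⁻ ξ, chainFrom G β S' δ 0 ξ K (Bv v ξ) 0 ∂nu V
        ≤ ∑ _v ∈ D, E := Finset.sum_le_sum fun v hv =>
          (oneTime hT hd hreg hβ hθκ hκ hκρ hρ hdκρ v n (hSS' v hv) (hS' v hv) hδ0 hδ1 K hK).trans
            (hE v hv)
      _ = _ := by rw [Finset.sum_const, nsmul_eq_mul]
  have hPl : planted G β S' T 0 A = ∫⁻ ξ, chainFrom G β S' δ 0 ξ K A 0 ∂nu V :=
    (lintegral_chain_planted S' hδ0.le K A hAm).symm
  have hAcm : Measurable (fun ξ : ℕ → V → ℝ => chainFrom G β S' δ 0 ξ K A 0) :=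
    measurable_chain_at S' δ 0 K (fun _ => A) (hAm.comp measurable_snd) 0
  have hWm : Measurable W := measurable_ind hWs
  have hBm : Measurable (fun ξ => ∑ v ∈ D, chainFrom G β S' δ 0 ξ K (Bv v ξ) 0) :=
    Finset.measurable_sum _ fun v _ => hm1 v
  constructor
  · rw [← lintegral_ind _ hWs, hPl]
    calc ∫⁻ ξ, W ξ ∂nu V
        ≤ ∫⁻ ξ, (chainFrom G β S' δ 0 ξ K A 0 + ∑ v ∈ D, chainFrom G β S' δ 0 ξ K (Bv v ξ) 0) ∂nu V := by
          refine lintegral_mono fun ξ => ?_
          calc W ξ = chainFrom G β S' δ 0 ξ K (fun _ => W ξ) 0 := (chainFrom_const K _ _).symm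
            _ ≤ chainFrom G β S' δ 0 ξ K (fun y => A y + ∑ v ∈ D, Bv v ξ y) 0 :=
                chainFrom_mono K (hpt1 ξ) 0
            _ = _ := by rw [chainFrom_add', chainFrom_sum]
      _ = ∫⁻ ξ, chainFrom G β S' δ 0 ξ K A 0 ∂nu V +
            ∫⁻ ξ, ∑ v ∈ D, chainFrom G β S' δ 0 ξ K (Bv v ξ) 0 ∂nu V := lintegral_add_left hAcm _
      _ ≤ _ := add_le_add le_rfl hBad
  · rw [← lintegral_ind _ hWs, hPl]
    calc ∫⁻ ξ, chainFrom G β S' δ 0 ξ K A 0 ∂nu V
        ≤ ∫⁻ ξ, (W ξ + ∑ v ∈ D, chainFrom G β S' δ 0 ξ K (Bv v ξ) 0) ∂nu V := by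
          refine lintegral_mono fun ξ => ?_
          calc chainFrom G β S' δ 0 ξ K A 0
              ≤ chainFrom G β S' δ 0 ξ K (fun y => W ξ + ∑ v ∈ D, Bv v ξ y) 0 :=
                chainFrom_mono K (hpt2 ξ) 0
            _ = _ := by rw [chainFrom_add', chainFrom_sum, chainFrom_const]
      _ = ∫⁻ ξ, W ξ ∂nu V +
            ∫⁻ ξ, ∑ v ∈ D, chainFrom G β S' δ 0 ξ K (Bv v ξ) 0 ∂nu V := lintegral_add_left hWm _
      _ ≤ _ := add_le_add le_rfl hBad

end withParams

end Vale.Agent.Lib.P161
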