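import Vale.Agent.Lib.P161.Level

/-! The noise levels read off the uniform variables, and comparison of the Euler scheme across
levels. -/

open MeasureTheory Finset
open scoped Classical ENNReal

noncomputable section

namespace Vale.Agent.Lib.P161

variable {V : Type*} {G : SimpleGraph V} {β : ℝ}

instance : IsProbabilityMeasure (iidUniform V) := by unfold iidUniform; infer_instance

/-- The noise at level `l`, read off the uniform variables. -/
def xiN (g : ℕ → ℕ → unitInterval → ℝ) (l : ℕ) (U : V → unitInterval) : ℕ → V → ℝ :=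
  fun k v => g l k (U v)

/-- The step size at level `l`. -/
def dlt (l : ℕ) : ℝ := (1 / 2) ^ l

/-- The ratio of the bounds between consecutive levels. -/
def qq : ℝ := Real.sqrt (1 / 2)

theorem dlt_pos (l : ℕ) : 0 < dlt l := by unfold dlt; positivity

theorem dlt_le_one (l : ℕ) : dlt l ≤ 1 := by
  unfold dlt
  exact pow_le_one₀ (by norm_num) (by norm_num)

theorem dlt_succ (l : ℕ) : dlt (l + 1) = dlt l / 2 := by
  unfold dlt
  rw [pow_succ]
  ring

theorem dlt_anti {l l' : ℕ} (h : l ≤ l') : dlt l' ≤ dlt l := by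
  unfold dlt
  exact pow_le_pow_of_le_one (by norm_num) (by norm_num) h

theorem qq_pos : 0 < qq := by unfold qq; positivity

theorem qq_le : qq ≤ 3 / 4 := by
  unfold qq
  rw [Real.sqrt_le_left (by norm_num)]
  norm_num

theorem qq_sq : qq * qq = 1 / 2 := Real.mul_self_sqrt (by norm_num)

theorem half_le_qq : (1 / 2 : ℝ) ≤ qq := by
  have h := qq_sq
  have h0 := qq_pos
  nlinarith

theorem sqrt_dlt (l : ℕ) : Real.sqrt (dlt l) = qq ^ l := by
  induction l with
  | zero => simp [dlt]
  | succ l ih =>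
    have : dlt (l + 1) = dlt l * (1 / 2) := by rw [dlt_succ]; ring
    rw [this, Real.sqrt_mul (dlt_pos l).le, ih, pow_succ]
    rfl

theorem dlt_le_qq_pow (l : ℕ) : dlt l ≤ qq ^ l := by
  unfold dlt
  exact pow_le_pow_left₀ (by norm_num) half_le_qq l

theorem Kdelta (j l : ℕ) : (((2 ^ (j + l) : ℕ) : ℝ)) * dlt l = 2 ^ j := by
  unfold dlt
  push_cast
  rw [pow_add, mul_assoc, ← mul_pow]
  norm_num

section noise

variable (g : ℕ → ℕ → unitInterval → ℝ) (hm : ∀ l k, Measurable (g l k))
  (hsum : ∀ l k u, g l k u = (g (l + 1) (2 * k) u + g (l + 1) (2 * k + 1) u) / Real.sqrt 2)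
  (hlaw : ∀ l, (volume : Measure unitInterval).map (fun u k => g l k u) =
    Measure.infinitePi (fun _ : ℕ => stdN))

include hm in
theorem measurable_xiN (l : ℕ) : Measurable (xiN (V := V) g l) := by
  refine measurable_pi_iff.2 fun k => measurable_pi_iff.2 fun v => ?_
  exact (hm l k).comp (measurable_pi_apply v)

include hm hlaw in
theorem map_xiN (l : ℕ) : (iidUniform V).map (xiN g l) = nu V :=
  vertex_noise_law g hm hlaw l

include hm hlaw in
theorem lintegral_xiN (l : ℕ) (Q : (ℕ → V → ℝ) → ℝ≥0∞) (hQ : Measurable Q) :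
    ∫⁻ U, Q (xiN g l U) ∂iidUniform V = ∫⁻ ξ, Q ξ ∂nu V := by
  rw [← map_xiN g hm hlaw l, lintegral_map hQ (measurable_xiN g hm l)]

include hm hlaw in
theorem measure_xiN (l : ℕ) {s : Set (ℕ → V → ℝ)} (hs : MeasurableSet s) :
    iidUniform V {U | xiN g l U ∈ s} = nu V s := by
  rw [← map_xiN g hm hlaw l, Measure.map_apply (measurable_xiN g hm l) hs]
  rfl

theorem map_nu_coord (k : ℕ) (v : V) :
    (nu V).map (fun ξ : ℕ → V → ℝ => ξ k v) = ProbabilityTheory.gaussianReal 0 1 := by
  have h1 : (nu V).map (fun ξ : ℕ → V → ℝ => ξ k) = gam V :=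
    Measure.infinitePi_map_eval (fun _ : ℕ => gam V) k
  have h2 : (gam V).map (fun x : V → ℝ => x v) = ProbabilityTheory.gaussianReal 0 1 :=
    Measure.infinitePi_map_eval (fun _ : V => ProbabilityTheory.gaussianReal (0 : ℝ) 1) v
  have h3 : (fun ξ : ℕ → V → ℝ => ξ k v) = (fun x : V → ℝ => x v) ∘ (fun ξ : ℕ → V → ℝ => ξ k) := rfl
  rw [h3, ← Measure.map_map (measurable_pi_apply v) (measurable_pi_apply k), h1, h2]

include hm hlaw in
theorem mom_xiN (l k : ℕ) (v : V) :
    ∫⁻ U, ENNReal.ofReal |xiN g l U k v| ∂iidUniform V ≤ 1 := by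
  have hQ : Measurable (fun ξ : ℕ → V → ℝ => ENNReal.ofReal |ξ k v|) :=
    ENNReal.measurable_ofReal.comp
      (((measurable_pi_apply v).comp (measurable_pi_apply k)).abs)
  rw [lintegral_xiN g hm hlaw l _ hQ]
  have hm2 : Measurable (fun x : ℝ => ENNReal.ofReal |x|) :=
    ENNReal.measurable_ofReal.comp measurable_abs
  have hc : Measurable (fun ξ : ℕ → V → ℝ => ξ k v) :=
    (measurable_pi_apply v).comp (measurable_pi_apply k)
  have h := lintegral_map (μ := nu V) hm2 hc
  rw [map_nu_coord] at h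
  rw [← h]
  exact lintegral_abs_gauss_le

/-- The Euler scheme at time `2 ^ j` at level `l`. -/
def Zlev (G : SimpleGraph V) (β : ℝ) (S : Finset V) (j l : ℕ) (U : V → unitInterval) (u : V) : ℝ :=
  flow G β S (dlt l) (xiN g l U) 0 (2 ^ (j + l)) 0 u

include hm in
theorem measurable_Zlev (S : Finset V) (j l : ℕ) (u : V) :
    Measurable (fun U : V → unitInterval => Zlev g G β S j l U u) := by
  exact (measurable_flow_noise S (dlt l) _ u).comp (measurable_xiN g hm l)

/-- The constant of the comparison between levels. -/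
def Rc (N : ℝ) (j : ℕ) : ℝ := 2 * Real.exp (2 * N * 2 ^ j) * 2 ^ j * N ^ 2

theorem Rc_nonneg (N : ℝ) (j : ℕ) : 0 ≤ Rc N j := by unfold Rc; positivity

include hm hsum hlaw in
theorem refine_level (S : Finset V) (j l : ℕ) :
    ∫⁻ U, ENNReal.ofReal (∑ u ∈ S, |Zlev g G β S j (l + 1) U u - Zlev g G β S j l U u|)
        ∂iidUniform V ≤ ENNReal.ofReal (Rc S.card j * qq ^ l) := by
  have h := refine_bound (G := G) (β := β) (iidUniform V) S (dlt_pos l) (dlt_le_one l) (2 ^ (j + l))
    (xiN g l) (xiN g (l + 1))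
    (fun k v => by
      have := measurable_xiN (V := V) g hm (l + 1)
      exact (measurable_pi_apply v).comp ((measurable_pi_apply k).comp this))
    (fun U k v => hsum l k (U v))
    (fun k v => mom_xiN g hm hlaw (l + 1) k v)
  rw [Kdelta, sqrt_dlt, ← dlt_succ] at h
  have e : 2 * 2 ^ (j + l) = 2 ^ (j + (l + 1)) := by
    rw [← add_assoc, pow_succ]; ring
  rw [e] at h
  exact h

include hm hsum hlaw in
theorem refine_iter (S : Finset V) (j l : ℕ) (m : ℕ) :
    ∫⁻ U, ENNReal.ofReal (∑ u ∈ S, |Zlev g G β S j (l + m) U u - Zlev g G β S j l U u|)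
        ∂iidUniform V ≤ ENNReal.ofReal (4 * Rc S.card j * (qq ^ l - qq ^ (l + m))) := by
  induction m with
  | zero => simp
  | succ m ih =>
    have hmeas : ∀ (a b : ℕ), Measurable (fun U : V → unitInterval => ENNReal.ofReal
        (∑ u ∈ S, |Zlev g G β S j a U u - Zlev g G β S j b U u|)) := by
      intro a b
      refine ENNReal.measurable_ofReal.comp (Finset.measurable_sum _ fun u _ => ?_)
      exact ((measurable_Zlev g hm S j a u).sub (measurable_Zlev g hm S j b u)).abs
    have hR := Rc_nonneg (S.card : ℝ) j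
    have hq1 : qq ≤ 1 := qq_le.trans (by norm_num)
    have hpow : 0 ≤ qq ^ (l + m) := pow_nonneg qq_pos.le _
    have hle : qq ^ (l + m) ≤ qq ^ l :=
      pow_le_pow_of_le_one qq_pos.le hq1 (by omega)
    calc ∫⁻ U, ENNReal.ofReal (∑ u ∈ S, |Zlev g G β S j (l + (m + 1)) U u - Zlev g G β S j l U u|)
          ∂iidUniform V
        ≤ ∫⁻ U, (ENNReal.ofReal (∑ u ∈ S, |Zlev g G β S j (l + m + 1) U u -
              Zlev g G β S j (l + m) U u|) +
            ENNReal.ofReal (∑ u ∈ S, |Zlev g G β S j (l + m) U u - Zlev g G β S j l U u|))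
            ∂iidUniform V := by
          refine lintegral_mono fun U => ?_
          refine le_trans (ENNReal.ofReal_le_ofReal ?_) ENNReal.ofReal_add_le
          rw [← Finset.sum_add_distrib]
          refine Finset.sum_le_sum fun u _ => ?_
          rw [← add_assoc]
          exact abs_sub_le _ _ _
      _ = ∫⁻ U, ENNReal.ofReal (∑ u ∈ S, |Zlev g G β S j (l + m + 1) U u -
              Zlev g G β S j (l + m) U u|) ∂iidUniform V +
            ∫⁻ U, ENNReal.ofReal (∑ u ∈ S, |Zlev g G β S j (l + m) U u - Zlev g G β S j l U u|)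
              ∂iidUniform V := lintegral_add_left (hmeas _ _) _
      _ ≤ ENNReal.ofReal (Rc S.card j * qq ^ (l + m)) +
            ENNReal.ofReal (4 * Rc S.card j * (qq ^ l - qq ^ (l + m))) :=
          add_le_add (refine_level g hm hsum hlaw S j (l + m)) ih
      _ = ENNReal.ofReal (Rc S.card j * qq ^ (l + m) +
            4 * Rc S.card j * (qq ^ l - qq ^ (l + m))) := by
          rw [ENNReal.ofReal_add (mul_nonneg hR hpow)
            (mul_nonneg (by positivity) (sub_nonneg.2 hle))]
      _ ≤ _ := by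
          refine ENNReal.ofReal_le_ofReal ?_
          have e : qq ^ (l + (m + 1)) = qq ^ (l + m) * qq := by rw [← add_assoc, pow_succ]
          rw [e]
          have h3 : 0 ≤ Rc S.card j * qq ^ (l + m) * (3 - 4 * qq) :=
            mul_nonneg (mul_nonneg hR hpow) (by linarith [qq_le])
          nlinarith

include hm hsum hlaw in
/-- Comparison of two levels at one point. -/
theorem refine_point (S : Finset V) {r : V} (hr : r ∈ S) (j : ℕ) {l l' : ℕ} (hl : l ≤ l') :
    ∫⁻ U, ENNReal.ofReal |Zlev g G β S j l' U r - Zlev g G β S j l U r| ∂iidUniform V ≤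
      ENNReal.ofReal (4 * Rc S.card j * qq ^ l) := by
  obtain ⟨m, rfl⟩ := Nat.exists_eq_add_of_le hl
  refine le_trans (lintegral_mono fun U => ENNReal.ofReal_le_ofReal ?_)
    ((refine_iter (G := G) (β := β) g hm hsum hlaw S j l m).trans (ENNReal.ofReal_le_ofReal ?_))
  · exact Finset.single_le_sum (f := fun u => |Zlev g G β S j (l + m) U u - Zlev g G β S j l U u|)
      (fun _ _ => abs_nonneg _) hr
  · have hR := Rc_nonneg (S.card : ℝ) j
    have hpow : 0 ≤ qq ^ (l + m) := pow_nonneg qq_pos.le _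
    have : 0 ≤ 4 * Rc S.card j * qq ^ (l + m) := by positivity
    nlinarith

end noise

end Vale.Agent.Lib.P161
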