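import Vale.Agent.Lib.P161.Params

/-! The factor: signs of the Euler schemes converge, and the limit has the free Ising law. -/

open MeasureTheory Finset Filter Topology
open scoped Classical ENNReal

noncomputable section

namespace Vale.Agent.Lib.P161

variable {V : Type*} {G : SimpleGraph V} {β : ℝ} [G.LocallyFinite] {d : ℕ} {κ ρ : ℝ} {n l : ℕ → ℕ}

theorem card_ball_cast (hreg : G.IsRegularOfDegree d) (v : V) (m : ℕ) :
    ((ball G v m).card : ℝ) ≤ (((d + 1) ^ m : ℕ) : ℝ) := by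
  exact_mod_cast card_ball_le hreg v m

section noise

variable (g : ℕ → ℕ → unitInterval → ℝ) (hm : ∀ l k, Measurable (g l k))
  (hsum : ∀ l k u, g l k u = (g (l + 1) (2 * k) u + g (l + 1) (2 * k + 1) u) / Real.sqrt 2)
  (hlaw : ∀ l, (volume : Measure unitInterval).map (fun u k => g l k u) =
    Measure.infinitePi (fun _ : ℕ => stdN))

/-- The sign at stage `j`. -/
def Xj (G : SimpleGraph V) [G.LocallyFinite] (β : ℝ) (n l : ℕ → ℕ) (j : ℕ) (v : V)
    (U : V → unitInterval) : Bool :=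
  sgnB (Zlev g G β (ball G v (n j)) j (l j) U v)

include hm in
theorem measurable_Xj (j : ℕ) (v : V) :
    Measurable (fun U : V → unitInterval => Xj g G β n l j v U) :=
  measurable_sgnB.comp (measurable_Zlev g hm _ _ _ _)

include hm hsum hlaw in
/-- One step of the stages changes the sign with small probability. -/
theorem cauchy_step (hT : G.IsTree) (hd : 2 ≤ d) (hreg : G.IsRegularOfDegree d) (hβ : 0 ≤ β)
    (hθκ : Real.tanh β ≤ κ) (hκ : 0 < κ) (hκρ : κ < ρ) (hρ : ρ < 1)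
    (hdκρ : ((d : ℝ) - 1) * κ * ρ < 1) (hs : Seqs d κ ρ n l) (j : ℕ) (v : V) :
    iidUniform V {U | Xj g G β n l j v U ≠ Xj g G β n l (j + 1) v U} ≤
      ENNReal.ofReal (302 * (1 / 2) ^ j) := by
  set l' := l (j + 1) with hl'
  have hll : l j ≤ l' := hs.mono_l (Nat.le_succ j)
  have hnn : n j ≤ n (j + 1) := hs.mono_n (Nat.le_succ j)
  set k : ℕ := 2 ^ (j + l') with hk
  set δ : ℝ := dlt l' with hδ
  have hδ0 : 0 < δ := dlt_pos _
  have hδ1 : δ ≤ 1 := dlt_le_one _
  have hk0 : 0 < k := by positivity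
  have hkδ : (k : ℝ) * δ = 2 ^ j := Kdelta j l'
  have hkk : 2 ^ (j + 1 + l') = k + k := by
    rw [hk, add_right_comm, pow_succ]
    ring
  have hkδ2 : ((k + k : ℕ) : ℝ) * δ = 2 ^ (j + 1) := by
    rw [← hkk]
    exact Kdelta (j + 1) l'
  set ε : ℝ := (1 / 2) ^ j with hε
  have hε0 : 0 < ε := by positivity
  set T : ℝ := 2 ^ j with hTd
  have hT1 : 1 ≤ T := one_le_pow₀ (by norm_num)
  have hT0 : 0 < T := by linarith
  have h1T : 1 / T = ε := by
    rw [hTd, hε]
    simp
  have hcard0 : ∀ m : ℕ, (0 : ℝ) ≤ ((ball G v m).card : ℝ) := fun m => Nat.cast_nonneg _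
  have hrr : ∀ m, v ∈ ball G v m := fun m => by rw [mem_ball hT]; simp
  -- the three values
  set Z₁ : (V → unitInterval) → ℝ := fun U => Zlev g G β (ball G v (n j)) j (l j) U v with hZ₁
  set Z₂ : (V → unitInterval) → ℝ := fun U => Zlev g G β (ball G v (n j)) j l' U v with hZ₂
  have hZ₁m : Measurable Z₁ := measurable_Zlev g hm _ _ _ _
  have hZ₂m : Measurable Z₂ := measurable_Zlev g hm _ _ _ _
  set A : Set (V → unitInterval) := {U | T / 4 ≤ |Z₂ U - Z₁ U|} with hA
  have hAm : MeasurableSet A := measurableSet_le measurable_const (hZ₂m.sub hZ₁m).abs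
  set s : Set (ℕ → V → ℝ) := {ξ | unreliable (k * δ) (flow G β (ball G v (n j)) δ ξ 0 k 0 v)
    (flow G β (ball G v (n (j + 1))) δ ξ 0 (k + k) 0 v)} with hs'
  have hsm : MeasurableSet s :=
    measurableSet_unreliable _ (measurable_flow_noise _ _ _ _) (measurable_flow_noise _ _ _ _)
  have hsub : {U | Xj g G β n l j v U ≠ Xj g G β n l (j + 1) v U} ⊆ A ∪ {U | xiN g l' U ∈ s} := by
    intro U hU
    by_contra hcon
    simp only [Set.mem_union, not_or] at hcon
    obtain ⟨h1, h2⟩ := hcon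
    have h1' : |Z₂ U - Z₁ U| < T / 4 := not_le.1 h1
    have h2' : ¬ unreliable (k * δ) (Z₂ U) (flow G β (ball G v (n (j + 1))) δ (xiN g l' U) 0 (k + k) 0 v) := h2
    rw [hkδ] at h2'
    unfold unreliable at h2'
    push Not at h2'
    apply hU
    show sgnB (Z₁ U) = sgnB (Zlev g G β (ball G v (n (j + 1))) (j + 1) (l (j + 1)) U v)
    have e : Zlev g G β (ball G v (n (j + 1))) (j + 1) (l (j + 1)) U v =
        flow G β (ball G v (n (j + 1))) δ (xiN g l' U) 0 (k + k) 0 v := by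
      unfold Zlev
      rw [hkk]
    rw [e, ← h2'.2]
    refine sgnB_eq_of_close (by positivity) h2'.1 ?_
    rw [abs_sub_comm]
    exact h1'
  -- the bound for `A`
  have hAb : iidUniform V A ≤ ENNReal.ofReal (4 * ε) := by
    have hind : ∀ U, ind (T / 4 ≤ |Z₂ U - Z₁ U|) ≤
        ENNReal.ofReal (1 / (T / 4)) * ENNReal.ofReal |Z₂ U - Z₁ U| :=
      fun U => ind_ge_le_abs (by positivity)
    have hmabs : Measurable (fun U => ENNReal.ofReal |Z₂ U - Z₁ U|) :=
      ENNReal.measurable_ofReal.comp (hZ₂m.sub hZ₁m).abs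
    have hR : 4 * Rc ((ball G v (n j)).card : ℝ) j * qq ^ l j ≤ ε := by
      refine le_trans ?_ (hs.Rc_le j)
      have := Rc_mono j (hcard0 (n j)) (card_ball_cast hreg v (n j))
      have hq := pow_nonneg qq_pos.le (l j)
      gcongr
    rw [← lintegral_ind (iidUniform V) hAm]
    calc ∫⁻ U, ind (T / 4 ≤ |Z₂ U - Z₁ U|) ∂iidUniform V
        ≤ ∫⁻ U, ENNReal.ofReal (1 / (T / 4)) * ENNReal.ofReal |Z₂ U - Z₁ U| ∂iidUniform V :=
          lintegral_mono hind
      _ = ENNReal.ofReal (1 / (T / 4)) * ∫⁻ U, ENNReal.ofReal |Z₂ U - Z₁ U| ∂iidUniform V :=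
          lintegral_const_mul _ hmabs
      _ ≤ ENNReal.ofReal (1 / (T / 4)) *
            ENNReal.ofReal (4 * Rc ((ball G v (n j)).card : ℝ) j * qq ^ l j) :=
          mul_le_mul_right (refine_point g hm hsum hlaw _ (hrr _) j hll) _
      _ ≤ ENNReal.ofReal (4 * ε) := by
          rw [← ENNReal.ofReal_mul (by positivity)]
          refine ENNReal.ofReal_le_ofReal ?_
          have h4 : 1 / (T / 4) ≤ 4 := by
            have : 1 / (T / 4) = 4 * (1 / T) := by ring
            rw [this, h1T]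
            have : ε ≤ 1 := by
              rw [hε]
              exact pow_le_one₀ (by norm_num) (by norm_num)
            linarith
          have hRc := Rc_nonneg ((ball G v (n j)).card : ℝ) j
          have hq := pow_nonneg qq_pos.le (l j)
          exact mul_le_mul h4 hR (by positivity) (by norm_num)
  -- the bound for the other event
  have hsb : iidUniform V {U | xiN g l' U ∈ s} ≤ ENNReal.ofReal (298 * ε) := by
    rw [measure_xiN g hm hlaw l' hsm]
    refine (wBound hT hd hreg hβ hθκ hκ hκρ hρ hdκρ v hnn hδ0 hδ1 hk0).trans ?_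
    rw [hkδ, hkδ2]
    have hE1 : ENNReal.ofReal (4 / T) + ENNReal.ofReal (1 / (T / 4) ^ 2) *
        ENNReal.ofReal (errC d κ ρ (ball G v (n j)).card T δ (n j)) ≤
        ENNReal.ofReal (148 * ε) := by
      refine E_bound hT1 h1T.le (hs.stat_le j) ?_
      refine le_trans ?_ (hs.cS_le j)
      have h1 : cS ((ball G v (n j)).card : ℝ) T (convC d κ ρ) ≤
          cS (((d + 1) ^ n j : ℕ) : ℝ) T (convC d κ ρ) :=
        cS_mono (hcard0 _) (card_ball_cast hreg v (n j)) hT0.le
      have h2 : δ ≤ dlt (l j) := dlt_anti hll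
      have h3 : 0 ≤ cS (((d + 1) ^ n j : ℕ) : ℝ) T (convC d κ ρ) :=
        cS_nonneg (Nat.cast_nonneg _) hT0.le
      exact mul_le_mul h1 h2 hδ0.le h3
    have hE3 : ENNReal.ofReal (4 / 2 ^ (j + 1)) + ENNReal.ofReal (1 / ((2 : ℝ) ^ (j + 1) / 4) ^ 2) *
        ENNReal.ofReal (errC d κ ρ (ball G v (n (j + 1))).card (2 ^ (j + 1)) δ (n (j + 1))) ≤
        ENNReal.ofReal (148 * (1 / 2) ^ (j + 1)) := by
      refine E_bound (one_le_pow₀ (by norm_num)) (by simp) (hs.stat_le (j + 1)) ?_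
      refine le_trans ?_ (hs.cS_le (j + 1))
      have h1 : cS ((ball G v (n (j + 1))).card : ℝ) (2 ^ (j + 1)) (convC d κ ρ) ≤
          cS (((d + 1) ^ n (j + 1) : ℕ) : ℝ) (2 ^ (j + 1)) (convC d κ ρ) :=
        cS_mono (hcard0 _) (card_ball_cast hreg v (n (j + 1))) (by positivity)
      exact mul_le_mul_of_nonneg_right h1 hδ0.le
    have hE2 : ENNReal.ofReal (1 / T) + ENNReal.ofReal (1 / T) ≤ ENNReal.ofReal (2 * ε) := by
      rw [h1T, ← ENNReal.ofReal_add hε0.le hε0.le]
      refine ENNReal.ofReal_le_ofReal ?_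
      linarith
    have hε' : (1 / 2 : ℝ) ^ (j + 1) ≤ ε := by
      rw [hε]
      exact pow_le_pow_of_le_one (by norm_num) (by norm_num) (Nat.le_succ j)
    have hε'0 : (0 : ℝ) ≤ (1 / 2 : ℝ) ^ (j + 1) := by positivity
    refine le_trans (add_le_add (add_le_add hE1 hE2) hE3) ?_
    rw [← ENNReal.ofReal_add (by positivity) (by positivity),
      ← ENNReal.ofReal_add (by positivity) (by positivity)]
    refine ENNReal.ofReal_le_ofReal ?_
    linarith
  calc iidUniform V {U | Xj g G β n l j v U ≠ Xj g G β n l (j + 1) v U}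
      ≤ iidUniform V (A ∪ {U | xiN g l' U ∈ s}) := measure_mono hsub
    _ ≤ iidUniform V A + iidUniform V {U | xiN g l' U ∈ s} := measure_union_le _ _
    _ ≤ ENNReal.ofReal (4 * ε + 298 * ε) := add_ofReal_le hAb hsb (by positivity) (by positivity)
    _ = _ := by
        congr 1
        ring

/-- The limiting sign. -/
def Xlim (G : SimpleGraph V) [G.LocallyFinite] (β : ℝ) (n l : ℕ → ℕ) (v : V)
    (U : V → unitInterval) : Bool :=
  decide (∃ J : ℕ, ∀ j, J ≤ j → Xj g G β n l j v U = true)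

include hm in
theorem measurable_Xlim (v : V) : Measurable (fun U : V → unitInterval => Xlim g G β n l v U) := by
  refine measurable_to_bool ?_
  have : (fun U : V → unitInterval => Xlim g G β n l v U) ⁻¹' {true} =
      ⋃ J : ℕ, ⋂ j : ℕ, ⋂ _ : J ≤ j, {U | Xj g G β n l j v U = true} := by
    ext U
    simp [Xlim]
  rw [this]
  refine MeasurableSet.iUnion fun J => MeasurableSet.iInter fun j => MeasurableSet.iInter fun _ => ?_
  exact measurableSet_eq_fun (measurable_Xj g hm j v) measurable_const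

theorem Xlim_eq_of_stable {j : ℕ} {v : V} {U : V → unitInterval}
    (h : ∀ i, Xj g G β n l (j + i) v U = Xj g G β n l (j + i + 1) v U) :
    Xlim g G β n l v U = Xj g G β n l j v U := by
  have hall : ∀ i, Xj g G β n l (j + i) v U = Xj g G β n l j v U := by
    intro i
    induction i with
    | zero => rfl
    | succ i ih => rw [← ih, ← add_assoc]; exact (h i).symm
  unfold Xlim
  cases hX : Xj g G β n l j v U with
  | true =>
    rw [decide_eq_true_iff]
    refine ⟨j, fun i hi => ?_⟩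
    obtain ⟨m, rfl⟩ := Nat.exists_eq_add_of_le hi
    rw [hall m, hX]
  | false =>
    rw [decide_eq_false_iff_not]
    rintro ⟨J, hJ⟩
    have h1 := hJ (j + J) (by omega)
    rw [hall J, hX] at h1
    exact absurd h1 (by simp)

include hm hsum hlaw in
theorem deviation (hT : G.IsTree) (hd : 2 ≤ d) (hreg : G.IsRegularOfDegree d) (hβ : 0 ≤ β)
    (hθκ : Real.tanh β ≤ κ) (hκ : 0 < κ) (hκρ : κ < ρ) (hρ : ρ < 1)
    (hdκρ : ((d : ℝ) - 1) * κ * ρ < 1) (hs : Seqs d κ ρ n l) (j : ℕ) (v : V) :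
    iidUniform V {U | Xlim g G β n l v U ≠ Xj g G β n l j v U} ≤
      ENNReal.ofReal (604 * (1 / 2) ^ j) := by
  have hsub : {U | Xlim g G β n l v U ≠ Xj g G β n l j v U} ⊆
      ⋃ i : ℕ, {U | Xj g G β n l (j + i) v U ≠ Xj g G β n l (j + i + 1) v U} := by
    intro U hU
    by_contra hcon
    simp only [Set.mem_iUnion, Set.mem_ofPred_eq, not_exists, not_not] at hcon
    exact hU (Xlim_eq_of_stable g hcon)
  have hf : ∀ i : ℕ, (302 * (1 / 2 : ℝ) ^ (j + i)) = (302 * (1 / 2 : ℝ) ^ j) * (1 / 2) ^ i := by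
    intro i
    rw [pow_add]
    ring
  have hsumm : Summable (fun i : ℕ => 302 * (1 / 2 : ℝ) ^ (j + i)) := by
    simp_rw [hf]
    exact summable_geometric_two.mul_left _
  calc iidUniform V {U | Xlim g G β n l v U ≠ Xj g G β n l j v U}
      ≤ iidUniform V (⋃ i : ℕ, {U | Xj g G β n l (j + i) v U ≠ Xj g G β n l (j + i + 1) v U}) :=
        measure_mono hsub
    _ ≤ ∑' i : ℕ, iidUniform V {U | Xj g G β n l (j + i) v U ≠ Xj g G β n l (j + i + 1) v U} :=
        measure_iUnion_le _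
    _ ≤ ∑' i : ℕ, ENNReal.ofReal (302 * (1 / 2) ^ (j + i)) :=
        ENNReal.tsum_le_tsum fun i =>
          cauchy_step g hm hsum hlaw hT hd hreg hβ hθκ hκ hκρ hρ hdκρ hs (j + i) v
    _ = ENNReal.ofReal (∑' i : ℕ, 302 * (1 / 2) ^ (j + i)) :=
        (ENNReal.ofReal_tsum_of_nonneg (fun i => by positivity) hsumm).symm
    _ = _ := by
        congr 1
        simp_rw [hf]
        rw [tsum_mul_left, tsum_geometric_two]
        ring

/-- Replacing one family of values by another in a cylinder event. -/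
theorem cyl_compare {a b : V → (V → unitInterval) → Bool} (D : Finset V) (η : V → Bool) (e : ℝ≥0∞)
    (h : ∀ v ∈ D, iidUniform V {U | a v U ≠ b v U} ≤ e) :
    iidUniform V {U | ∀ v ∈ D, a v U = η v} ≤
      iidUniform V {U | ∀ v ∈ D, b v U = η v} + (D.card : ℝ≥0∞) * e := by
  have hsub : {U | ∀ v ∈ D, a v U = η v} ⊆ {U | ∀ v ∈ D, b v U = η v} ∪
      ⋃ v ∈ D, {U | a v U ≠ b v U} := by
    intro U hU
    by_cases hex : ∃ v ∈ D, a v U ≠ b v U
    · obtain ⟨v, hv, hne⟩ := hex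
      refine Or.inr ?_
      simp only [Set.mem_iUnion]
      exact ⟨v, hv, hne⟩
    · push Not at hex
      refine Or.inl fun v hv => ?_
      rw [← hex v hv]
      exact hU v hv
  calc iidUniform V {U | ∀ v ∈ D, a v U = η v}
      ≤ iidUniform V ({U | ∀ v ∈ D, b v U = η v} ∪ ⋃ v ∈ D, {U | a v U ≠ b v U}) :=
        measure_mono hsub
    _ ≤ iidUniform V {U | ∀ v ∈ D, b v U = η v} + iidUniform V (⋃ v ∈ D, {U | a v U ≠ b v U}) :=
        measure_union_le _ _
    _ ≤ _ := by
        refine add_le_add le_rfl ?_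
        refine (measure_biUnion_finset_le _ _).trans ?_
        calc ∑ v ∈ D, iidUniform V {U | a v U ≠ b v U} ≤ ∑ _v ∈ D, e := Finset.sum_le_sum h
          _ = _ := by rw [Finset.sum_const, nsmul_eq_mul]

include hm hlaw in
/-- The law of the signs at stage `j`. -/
theorem stage_law (hT : G.IsTree) (hd : 2 ≤ d) (hreg : G.IsRegularOfDegree d) (hβ : 0 ≤ β)
    (hθκ : Real.tanh β ≤ κ) (hκ : 0 < κ) (hκρ : κ < ρ) (hρ : ρ < 1)
    (hdκρ : ((d : ℝ) - 1) * κ * ρ < 1) (hs : Seqs d κ ρ n l) (j : ℕ) (D : Finset V)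
    (hD : (G.induce (D : Set V)).Connected) (η : V → Bool) :
    iidUniform V {U | ∀ v ∈ D, Xj g G β n l j v U = η v} ≤
      ENNReal.ofReal (isingCyl G (Real.tanh β) D η) + ENNReal.ofReal ((1 / 2) ^ j) +
        (D.card : ℝ≥0∞) * ENNReal.ofReal (148 * (1 / 2) ^ j) ∧
    ENNReal.ofReal (isingCyl G (Real.tanh β) D η) ≤
      iidUniform V {U | ∀ v ∈ D, Xj g G β n l j v U = η v} +
        (D.card : ℝ≥0∞) * ENNReal.ofReal (148 * (1 / 2) ^ j) +
        (D.card : ℝ≥0∞) * ENNReal.ofReal ((1 / 2) ^ j) := by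
  obtain ⟨⟨r, hr'⟩⟩ := hD.nonempty
  have hr : r ∈ D := hr'
  set R := D.sup (G.dist r) with hR
  have hdistR : ∀ v ∈ D, G.dist r v ≤ R := fun v hv => Finset.le_sup (f := G.dist r) hv
  set S' := ball G r (R + n j) with hS'
  have hmem : ∀ v ∈ D, v ∈ S' := fun v hv => by
    rw [hS', mem_ball hT]
    have := hdistR v hv
    omega
  have hSS' : ∀ v ∈ D, ball G v (n j) ⊆ S' := by
    intro v hv u hu
    rw [hS', mem_ball hT]
    rw [mem_ball hT] at hu
    have h1 := hT.1.dist_triangle (u := r) (v := v) (w := u)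
    have := hdistR v hv
    omega
  have hstar : ∀ v ∈ D, Star G v S' := fun v hv => star_ball hT (hmem v hv)
  set ε : ℝ := (1 / 2) ^ j with hε
  have hε0 : 0 < ε := by positivity
  set T : ℝ := 2 ^ j with hTd
  have hT1 : 1 ≤ T := one_le_pow₀ (by norm_num)
  have hT0 : 0 < T := by linarith
  have h1T : 1 / T = ε := by
    rw [hTd, hε]
    simp
  have hKT : ((2 ^ (j + l j) : ℕ) : ℝ) * dlt (l j) = T := Kdelta j (l j)
  have hE : ∀ v ∈ D, ENNReal.ofReal (4 / (((2 ^ (j + l j) : ℕ) : ℝ) * dlt (l j))) +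
      ENNReal.ofReal (1 / ((((2 ^ (j + l j) : ℕ) : ℝ) * dlt (l j)) / 4) ^ 2) *
        ENNReal.ofReal (errC d κ ρ (ball G v (n j)).card (((2 ^ (j + l j) : ℕ) : ℝ) * dlt (l j))
          (dlt (l j)) (n j)) ≤ ENNReal.ofReal (148 * ε) := by
    intro v _
    rw [hKT]
    refine E_bound hT1 h1T.le (hs.stat_le j) ?_
    refine le_trans ?_ (hs.cS_le j)
    exact mul_le_mul_of_nonneg_right
      (cS_mono (Nat.cast_nonneg _) (card_ball_cast hreg v (n j)) hT0.le) (dlt_pos _).le
  have hlawj := signs_law (S' := S') hT hd hreg hβ hθκ hκ hκρ hρ hdκρ D η (n j) hSS' hstar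
    (dlt_pos (l j)) (dlt_le_one (l j)) (2 ^ (j + l j)) (by positivity) _ hE
  rw [hKT] at hlawj
  have hcyl := planted_cyl (β := β) hT hr (star_of_connected hT hD hr) hmem
    (hstar r hr) η hT0
  rw [h1T] at hcyl
  have hset : iidUniform V {U | ∀ v ∈ D, Xj g G β n l j v U = η v} =
      nu V {ξ | ∀ v ∈ D, sgnB (flow G β (ball G v (n j)) (dlt (l j)) ξ 0 (2 ^ (j + l j)) 0 v) = η v} := by
    rw [← measure_xiN g hm hlaw (l j)]
    · rfl
    · refine measurableSet_forall_mem D fun v _ => ?_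
      exact measurableSet_eq_fun (measurable_sgnB.comp (measurable_flow_noise _ _ _ _))
        measurable_const
  rw [hset]
  constructor
  · refine hlawj.1.trans ?_
    exact add_le_add hcyl.1 le_rfl
  · refine hcyl.2.trans ?_
    exact add_le_add hlawj.2 le_rfl

end noise

theorem le_of_forall_pow (a b c : ℝ≥0∞) (hc : c ≠ ∞)
    (h : ∀ j : ℕ, a ≤ b + c * ENNReal.ofReal ((1 / 2) ^ j)) : a ≤ b := by
  have h1 : Tendsto (fun j : ℕ => ENNReal.ofReal ((1 / 2 : ℝ) ^ j)) atTop (𝓝 0) := by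
    have h2 : Tendsto (fun j : ℕ => (1 / 2 : ℝ) ^ j) atTop (𝓝 0) :=
      tendsto_pow_atTop_nhds_zero_of_lt_one (by norm_num) (by norm_num)
    simpa using ENNReal.tendsto_ofReal h2
  have h3 : Tendsto (fun j : ℕ => b + c * ENNReal.ofReal ((1 / 2 : ℝ) ^ j)) atTop (𝓝 (b + c * 0)) :=
    tendsto_const_nhds.add (ENNReal.Tendsto.const_mul h1 (Or.inr hc))
  rw [mul_zero, add_zero] at h3
  exact ge_of_tendsto' h3 h

end Vale.Agent.Lib.P161
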