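import Vale.Agent.Lib.P161.ChainAlg

/-! The main comparison: the Euler scheme on the ball, and the exact chain on a big set, driven by
the same noise, are close at the centre of the ball. -/

open MeasureTheory Finset
open scoped Classical ENNReal

noncomputable section

namespace Vale.Agent.Lib.P161

variable {V : Type*} {G : SimpleGraph V} {β : ℝ}

section onestep

variable {S S' : Finset V} {δ κ ρ C : ℝ} {r : V}

/-- One step of the recursion, in real form. -/
theorem one_step_real (hr : r ∈ S) (hSS' : S ⊆ S') (hδ : 0 ≤ δ) (hρ0 : 0 ≤ ρ) (hρ1 : ρ ≤ 1) (hC : 0 ≤ C)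
    (hcov : ∀ x u v, |cov G β S x u v| ≤ κ ^ G.dist u v)
    (hconv : ∀ v, ∑ u ∈ S, κ ^ G.dist v u * ρ ^ G.dist u r ≤ C * ρ ^ G.dist v r)
    (ξ : ℕ → V → ℝ) (k m : ℕ) (y : V → ℝ) (h₀ : ℝ) {K₀ : ℝ} (hK₀ : 0 < K₀) :
    ∑ A ∈ S'.powerset, mu G β S' y A *
        (flow G β S δ ξ (k + 1) m (y + δ • stepVec S' A + Real.sqrt δ • ξ k) r - h₀) ^ 2 ≤
      (1 + 1 / K₀) * (flow G β S δ ξ k (m + 1) y r - h₀) ^ 2 +
        2 * K₀ * (δ * ∑ v ∈ S, rowB G β S δ ξ r (k + 1) m (eulerStep G β S δ (ξ k) y) v *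
          (mean G β S' y v - mean G β S y v)) ^ 2 +
        (2 * K₀ * (foC S.card δ C m * (2 * S.card * δ) ^ 2) ^ 2 +
          (2 * (2 * δ * S.card * (1 + δ * C) ^ m) + foC S.card δ C m * (2 * S.card * δ) ^ 2) ^ 2) := by
  set x := eulerStep G β S δ (ξ k) y with hx
  set b := rowB G β S δ ξ r (k + 1) m x with hb
  set N : ℝ := (S.card : ℝ) with hN
  have hN0 : 0 ≤ N := Nat.cast_nonneg _
  set B := (1 + δ * C) ^ m with hB
  have hB0 : 0 ≤ B := by positivity
  set R := foC N δ C m * (2 * N * δ) ^ 2 with hR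
  have hfo0 : 0 ≤ foC N δ C m := by unfold foC; positivity
  have hR0 : 0 ≤ R := by positivity
  set Q := 2 * δ * N * B with hQ
  have hbB : ∀ v, |b v| ≤ B := by
    intro v
    have h1 := rowB_bound (ξ := ξ) (r := r) (n := m) (i := k + 1) (x := x) (v := v) hδ hρ0 hcov hconv
    refine h1.trans ?_
    calc B * ρ ^ G.dist v r ≤ B * 1 := mul_le_mul_of_nonneg_left (pow_le_one₀ hρ0 hρ1) hB0
      _ = B := mul_one _
  set w : Finset V → V → ℝ := fun A v => δ * (stepVec S' A v - mean G β S y v) with hw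
  have hnext : ∀ A, y + δ • stepVec S' A + Real.sqrt δ • ξ k = x + w A := by
    intro A
    funext v
    simp only [Pi.add_apply, Pi.smul_apply, smul_eq_mul, hx, eulerStep, hw]
    ring
  have hwS : ∀ A, ∀ v ∈ S, w A v = δ * (sp A v - mean G β S' y v) +
      δ * (mean G β S' y v - mean G β S y v) := by
    intro A v hv
    simp only [hw, stepVec, if_pos (hSS' hv)]
    ring
  have hnrm : ∀ A, nrm S (w A) ≤ 2 * N * δ := by
    intro A
    unfold nrm
    calc ∑ v ∈ S, |w A v| ≤ ∑ _v ∈ S, 2 * δ := by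
          refine Finset.sum_le_sum fun v hv => ?_
          simp only [hw, stepVec, if_pos (hSS' hv)]
          rw [abs_mul, abs_of_nonneg hδ]
          have h1 := abs_mean_le G β S y v
          have h2 : |sp A v - mean G β S y v| ≤ 2 := by
            refine (abs_sub _ _).trans ?_
            rw [abs_sp]; linarith
          nlinarith
      _ = _ := by rw [Finset.sum_const, nsmul_eq_mul, ← hN]; ring
  set r₀ : Finset V → ℝ := fun A =>
    flow G β S δ ξ (k + 1) m (x + w A) r - flow G β S δ ξ (k + 1) m x r - ∑ v ∈ S, b v * w A v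
    with hr₀
  have hr₀b : ∀ A ∈ S'.powerset, |r₀ A| ≤ R := by
    intro A _
    have h1 := flow_first_order (ξ := ξ) hr hδ hρ0 hρ1 hC hcov hconv m (k + 1) x (w A)
    refine h1.trans ?_
    refine mul_le_mul_of_nonneg_left ?_ hfo0
    exact pow_le_pow_left₀ (nrm_nonneg _ _) (hnrm A) 2
  set q : Finset V → ℝ := fun A => δ * ∑ v ∈ S, b v * (sp A v - mean G β S' y v) with hq
  set c := δ * ∑ v ∈ S, b v * (mean G β S' y v - mean G β S y v) with hc
  have hlin : ∀ A, ∑ v ∈ S, b v * w A v = q A + c := by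
    intro A
    simp only [hq, hc]
    rw [← mul_add, ← Finset.sum_add_distrib, Finset.mul_sum]
    refine Finset.sum_congr rfl fun v hv => ?_
    rw [hwS A v hv]
    ring
  have hqb : ∀ A ∈ S'.powerset, |q A| ≤ Q := by
    intro A _
    simp only [hq]
    rw [abs_mul, abs_of_nonneg hδ]
    have : |∑ v ∈ S, b v * (sp A v - mean G β S' y v)| ≤ N * (B * 2) := by
      calc _ ≤ ∑ v ∈ S, |b v * (sp A v - mean G β S' y v)| := Finset.abs_sum_le_sum_abs _ _
        _ ≤ ∑ _v ∈ S, B * 2 := by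
            refine Finset.sum_le_sum fun v _ => ?_
            rw [abs_mul]
            refine mul_le_mul (hbB v) ?_ (abs_nonneg _) hB0
            refine (abs_sub _ _).trans ?_
            rw [abs_sp]
            linarith [abs_mean_le G β S' y v]
        _ = _ := by rw [Finset.sum_const, nsmul_eq_mul]
    calc δ * _ ≤ δ * (N * (B * 2)) := mul_le_mul_of_nonneg_left this hδ
      _ = Q := by simp only [hQ]; ring
  have hcb : |c| ≤ Q := by
    simp only [hc]
    rw [abs_mul, abs_of_nonneg hδ]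
    have : |∑ v ∈ S, b v * (mean G β S' y v - mean G β S y v)| ≤ N * (B * 2) := by
      calc _ ≤ ∑ v ∈ S, |b v * (mean G β S' y v - mean G β S y v)| := Finset.abs_sum_le_sum_abs _ _
        _ ≤ ∑ _v ∈ S, B * 2 := by
            refine Finset.sum_le_sum fun v _ => ?_
            rw [abs_mul]
            refine mul_le_mul (hbB v) ?_ (abs_nonneg _) hB0
            refine (abs_sub _ _).trans ?_
            linarith [abs_mean_le G β S' y v, abs_mean_le G β S y v]
        _ = _ := by rw [Finset.sum_const, nsmul_eq_mul]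
    calc δ * _ ≤ δ * (N * (B * 2)) := mul_le_mul_of_nonneg_left this hδ
      _ = Q := by simp only [hQ]; ring
  have hq0 : ∑ A ∈ S'.powerset, mu G β S' y A * q A = 0 := by
    simp only [hq]
    have e : ∀ A, mu G β S' y A * (δ * ∑ v ∈ S, b v * (sp A v - mean G β S' y v)) =
        δ * ∑ v ∈ S, b v * (mu G β S' y A * sp A v - mu G β S' y A * mean G β S' y v) := by
      intro A
      rw [mul_left_comm, Finset.mul_sum]
      congr 1
      refine Finset.sum_congr rfl fun v _ => ?_
      ring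
    simp only [e]
    rw [← Finset.mul_sum, Finset.sum_comm]
    have hz : ∀ v ∈ S, ∑ A ∈ S'.powerset,
        b v * (mu G β S' y A * sp A v - mu G β S' y A * mean G β S' y v) = 0 := by
      intro v _
      rw [← Finset.mul_sum, Finset.sum_sub_distrib, ← Finset.sum_mul, sum_mu, one_mul]
      have : ∑ A ∈ S'.powerset, mu G β S' y A * sp A v = mean G β S' y v := rfl
      rw [this, sub_self, mul_zero]
    rw [Finset.sum_eq_zero hz, mul_zero]
  have key := avg_sq_bound S'.powerset (mu G β S' y) q r₀ (fun A _ => (mu_pos _ _ _ _ _).le)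
    (sum_mu _ _ _ _) hq0 (u := flow G β S δ ξ (k + 1) m x r - h₀) (c := c) hK₀ hqb hcb hr₀b hR0
  have hterm : ∀ A, flow G β S δ ξ (k + 1) m (y + δ • stepVec S' A + Real.sqrt δ • ξ k) r - h₀ =
      (flow G β S δ ξ (k + 1) m x r - h₀) + q A + c + r₀ A := by
    intro A
    rw [hnext A]
    simp only [hr₀, hlin A]
    ring
  simp only [hterm]
  refine key.trans (le_of_eq ?_)
  rfl

end onestep

section lmarg

/-- Linearity of the iterated integral for the expression used in the recursion. -/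
theorem lmarginal_combo {W : Type*} [MeasurableSpace W] (γ : Measure W) [IsProbabilityMeasure γ]
    (s : Finset ℕ) (P R : (ℕ → W) → ℝ≥0∞) (hP : Measurable P) (hR : Measurable R) (a b c : ℝ≥0∞)
    (x : ℕ → W) :
    lmarginal (fun _ : ℕ => γ) s (fun ξ => a * P ξ + b * R ξ + c) x =
      a * lmarginal (fun _ : ℕ => γ) s P x + b * lmarginal (fun _ : ℕ => γ) s R x + c := by
  unfold lmarginal
  have hu : Measurable (fun y : ∀ i : s, W => Function.updateFinset x s y) :=
    measurable_updateFinset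
  have hP' : Measurable (fun y : ∀ i : s, W => P (Function.updateFinset x s y)) := hP.comp hu
  have hR' : Measurable (fun y : ∀ i : s, W => R (Function.updateFinset x s y)) := hR.comp hu
  rw [lintegral_add_right _ measurable_const, lintegral_add_left (hP'.const_mul a),
    lintegral_const_mul _ hP', lintegral_const_mul _ hR']
  simp

theorem lmarginal_const_le {W : Type*} [MeasurableSpace W] (γ : Measure W) [IsProbabilityMeasure γ]
    (s : Finset ℕ) (c : ℝ≥0∞) (x : ℕ → W) :
    lmarginal (fun _ : ℕ => γ) s (fun _ => c) x = c := by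
  unfold lmarginal
  simp

end lmarg

section recursion

/-- Constant of the first order expansion. -/
def fc (N T C : ℝ) : ℝ := 6 * T * N * Real.exp (C * T) * Real.exp (4 * N * T)

/-- Constant of the remainder. -/
def cR (N T C : ℝ) : ℝ := 4 * fc N T C * N ^ 2

/-- Constant of the martingale part. -/
def cM (N T C : ℝ) : ℝ := 2 * N * Real.exp (C * T)

/-- The constant in front of `δ ^ 2` in the step inequality. -/
def cS (N T C : ℝ) : ℝ := 2 * T * cR N T C ^ 2 + (2 * cM N T C + cR N T C) ^ 2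

/-- The constant of the static bound. -/
def stat (d : ℕ) (κ ρ T : ℝ) (n : ℕ) : ℝ :=
  2 * Real.exp (convC d κ ρ * T) ^ 2 * convC d κ ρ ^ 3 * (((d : ℝ) - 1) * ρ ^ 2) ^ n

theorem measurable_eulerStep_joint (S : Finset V) (δ : ℝ) :
    Measurable (fun p : (V → ℝ) × (V → ℝ) => eulerStep G β S δ p.1 p.2) := by
  refine measurable_pi_iff.mpr fun v => ?_
  simp only [eulerStep]
  refine Measurable.add (Measurable.add ?_ ?_) ?_
  · exact (measurable_pi_apply v).comp measurable_snd
  · exact ((measurable_mean S v).comp measurable_snd).const_mul _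
  · exact ((measurable_pi_apply v).comp measurable_fst).const_mul _

/-- The numeric bound for the constant term of the step inequality. -/
theorem step_const_le {N δ C T K₀ : ℝ} {m : ℕ} (hN : 0 ≤ N) (hδ : 0 ≤ δ) (hδ1 : δ ≤ 1) (hC : 0 ≤ C)
    (hm : m * δ ≤ T) (hK : K₀ * δ = T) (hK0 : 0 ≤ K₀) :
    2 * K₀ * (foC N δ C m * (2 * N * δ) ^ 2) ^ 2 +
        (2 * (2 * δ * N * (1 + δ * C) ^ m) + foC N δ C m * (2 * N * δ) ^ 2) ^ 2 ≤
      cS N T C * δ ^ 2 := by
  have hT : 0 ≤ T := by rw [← hK]; positivity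
  have hfo0 : 0 ≤ foC N δ C m := by unfold foC; positivity
  have hfo := foC_le hN hδ hC hm
  have hR : foC N δ C m * (2 * N * δ) ^ 2 ≤ cR N T C * δ ^ 2 := by
    have : foC N δ C m * (2 * N * δ) ^ 2 ≤ fc N T C * (2 * N * δ) ^ 2 :=
      mul_le_mul_of_nonneg_right hfo (by positivity)
    refine this.trans (le_of_eq ?_)
    simp only [cR]
    ring
  have hQ : 2 * δ * N * (1 + δ * C) ^ m ≤ cM N T C * δ := by
    have h1 : (1 + δ * C) ^ m ≤ Real.exp (C * T) := by
      refine (one_add_pow_le_exp (by positivity) m).trans (Real.exp_le_exp.mpr ?_)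
      have e : (m : ℝ) * (δ * C) = (m * δ) * C := by ring
      rw [e, mul_comm C T]
      exact mul_le_mul_of_nonneg_right hm hC
    have h2 : 2 * δ * N * (1 + δ * C) ^ m ≤ 2 * δ * N * Real.exp (C * T) :=
      mul_le_mul_of_nonneg_left h1 (by positivity)
    refine h2.trans (le_of_eq ?_)
    simp only [cM]
    ring
  have hcR0 : 0 ≤ cR N T C := by
    simp only [cR, fc]; positivity
  have hcM0 : 0 ≤ cM N T C := by
    simp only [cM]; positivity
  have hR0 : 0 ≤ foC N δ C m * (2 * N * δ) ^ 2 := by positivity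
  have hQ0 : 0 ≤ 2 * δ * N * (1 + δ * C) ^ m := by positivity
  set R := foC N δ C m * (2 * N * δ) ^ 2
  set Q := 2 * δ * N * (1 + δ * C) ^ m
  have hδ2 : δ ^ 2 ≤ δ := by nlinarith
  have h1 : R ^ 2 ≤ (cR N T C * δ ^ 2) ^ 2 := pow_le_pow_left₀ hR0 hR 2
  have h2 : 2 * K₀ * R ^ 2 ≤ 2 * T * cR N T C ^ 2 * δ ^ 2 := by
    have e : 2 * K₀ * (cR N T C * δ ^ 2) ^ 2 = 2 * (K₀ * δ) * cR N T C ^ 2 * δ ^ 2 * δ := by ring
    have h3 : 2 * K₀ * R ^ 2 ≤ 2 * K₀ * (cR N T C * δ ^ 2) ^ 2 :=
      mul_le_mul_of_nonneg_left h1 (by positivity)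
    refine h3.trans ?_
    rw [e, hK]
    have h4 : 0 ≤ 2 * T * cR N T C ^ 2 * δ ^ 2 := by positivity
    nlinarith
  have h3 : 2 * Q + R ≤ (2 * cM N T C + cR N T C) * δ := by
    have h4 : cR N T C * δ ^ 2 ≤ cR N T C * δ := mul_le_mul_of_nonneg_left hδ2 hcR0
    nlinarith
  have h4 : (2 * Q + R) ^ 2 ≤ ((2 * cM N T C + cR N T C) * δ) ^ 2 :=
    pow_le_pow_left₀ (by positivity) h3 2
  have e : cS N T C * δ ^ 2 = 2 * T * cR N T C ^ 2 * δ ^ 2 +
      ((2 * cM N T C + cR N T C) * δ) ^ 2 := by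
    simp only [cS]; ring
  rw [e]
  exact add_le_add h2 h4

variable [G.LocallyFinite] {d : ℕ} {κ ρ : ℝ} {S' : Finset V} {δ : ℝ}

/-- The main comparison. -/
theorem compare_flow (hT : G.IsTree) (hd : 2 ≤ d) (hreg : G.IsRegularOfDegree d) (hβ : 0 ≤ β)
    (hθκ : Real.tanh β ≤ κ) (hκ : 0 < κ) (hκρ : κ < ρ) (hρ : ρ < 1)
    (hdκρ : ((d : ℝ) - 1) * κ * ρ < 1) (r : V) (n : ℕ) (hSS' : ball G r n ⊆ S')
    (hS' : Star G r S') (hδ0 : 0 < δ) (hδ1 : δ ≤ 1) (K : ℕ) (hK : 0 < K) (x : ℕ → V → ℝ) :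
    lmarginal (fun _ : ℕ => gam V) (Finset.range K)
      (fun ξ => chainFrom G β S' δ 0 ξ K
        (fun y => ENNReal.ofReal ((y r - flow G β (ball G r n) δ ξ 0 K 0 r) ^ 2)) 0) x ≤
    ENNReal.ofReal (6 * (K * δ) ^ 2 * stat d κ ρ (K * δ) n +
      3 * (K * δ) * cS ((ball G r n).card) (K * δ) (convC d κ ρ) * δ) := by
  set S := ball G r n with hS
  set T := (K : ℝ) * δ with hTdef
  set C := convC d κ ρ with hC
  have hδ : 0 ≤ δ := hδ0.le
  have hK0 : (0 : ℝ) < K := by exact_mod_cast hK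
  have hT0 : 0 ≤ T := by positivity
  have hρ0 : 0 < ρ := hκ.trans hκρ
  have hκ1 : κ < 1 := hκρ.trans hρ
  have hC0 : 0 ≤ C := by
    have h1 : 0 < 1 - κ / ρ := by
      rw [sub_pos, div_lt_one hρ0]; exact hκρ
    have h2 : 0 < 1 - ((d : ℝ) - 1) * κ * ρ := by linarith
    have h3 : 0 < 1 - κ ^ 2 := by nlinarith
    simp only [hC, convC]
    positivity
  have hθ0 : 0 ≤ Real.tanh β := by
    rw [Real.tanh_eq_sinh_div_cosh]
    exact div_nonneg (Real.sinh_nonneg_iff.mpr hβ) (Real.cosh_pos β).le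
  have hrS : r ∈ S := by
    rw [hS, mem_ball hT]; simp
  have hSS'' : S ⊆ S' := hSS'
  have hcov : ∀ x u v, |cov G β S x u v| ≤ κ ^ G.dist u v := fun x u v =>
    (abs_cov_le hT hβ S x u v).trans (pow_le_pow_left₀ hθ0 hθκ _)
  have hconv : ∀ v, ∑ u ∈ S, κ ^ G.dist v u * ρ ^ G.dist u r ≤ C * ρ ^ G.dist v r := fun v =>
    conv_bound hT hd hreg hκ hκρ hρ hdκρ r v S
  set ε2 := stat d κ ρ T n with hε2
  have hd1 : (0 : ℝ) ≤ (d : ℝ) - 1 := by
    have : (2 : ℝ) ≤ d := by exact_mod_cast hd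
    linarith
  have hε0 : 0 ≤ ε2 := by
    simp only [hε2, stat]
    positivity
  set N : ℝ := (S.card : ℝ) with hN
  have hN0 : 0 ≤ N := Nat.cast_nonneg _
  -- the functions
  set h₀ : (ℕ → V → ℝ) → ℝ := fun ξ => flow G β S δ ξ 0 K 0 r with hh₀
  set f : ℕ → (ℕ → V → ℝ) → (V → ℝ) → ℝ≥0∞ := fun k ξ y =>
    ENNReal.ofReal ((flow G β S δ ξ k (K - k) y r - h₀ ξ) ^ 2) with hf
  set g : ℕ → (ℕ → V → ℝ) → (V → ℝ) → ℝ≥0∞ := fun k ξ y =>
    ENNReal.ofReal ((∑ v ∈ S, rowB G β S δ ξ r (k + 1) (K - (k + 1))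
      (eulerStep G β S δ (ξ k) y) v * (mean G β S' y v - mean G β S y v)) ^ 2) with hg
  have hflowm : ∀ i m, Measurable (fun p : (ℕ → V → ℝ) × (V → ℝ) => flow G β S δ p.1 i m p.2 r) :=
    fun i m => (measurable_pi_apply r).comp (measurable_flow S δ i m)
  have hh₀m : Measurable h₀ := by
    have : Measurable (fun ξ : ℕ → V → ℝ => ((ξ, (0 : V → ℝ)) : (ℕ → V → ℝ) × (V → ℝ))) :=
      measurable_id.prodMk measurable_const
    exact (hflowm 0 K).comp this
  have hfm : ∀ k, Measurable (Function.uncurry (f k)) := by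
    intro k
    refine ENNReal.measurable_ofReal.comp (Measurable.pow_const ?_ 2)
    exact (hflowm k (K - k)).sub (hh₀m.comp measurable_fst)
  have hstepm : ∀ k, Measurable (fun p : (ℕ → V → ℝ) × (V → ℝ) =>
      eulerStep G β S δ (p.1 k) p.2) := by
    intro k
    have : Measurable (fun p : (ℕ → V → ℝ) × (V → ℝ) => ((p.1 k, p.2) : (V → ℝ) × (V → ℝ))) :=
      ((measurable_pi_apply k).comp measurable_fst).prodMk measurable_snd
    exact (measurable_eulerStep_joint S δ).comp this
  have hrowm : ∀ k v, Measurable (fun p : (ℕ → V → ℝ) × (V → ℝ) =>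
      rowB G β S δ p.1 r (k + 1) (K - (k + 1)) (eulerStep G β S δ (p.1 k) p.2) v) := by
    intro k v
    have : Measurable (fun p : (ℕ → V → ℝ) × (V → ℝ) =>
        ((p.1, eulerStep G β S δ (p.1 k) p.2) : (ℕ → V → ℝ) × (V → ℝ))) :=
      measurable_fst.prodMk (hstepm k)
    exact (measurable_pi_apply v).comp ((measurable_rowB S δ r (k + 1) (K - (k + 1))).comp this)
  have hgm : ∀ k, Measurable (Function.uncurry (g k)) := by
    intro k
    refine ENNReal.measurable_ofReal.comp (Measurable.pow_const ?_ 2)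
    refine Finset.measurable_sum _ fun v _ => (hrowm k v).mul ?_
    exact ((measurable_mean S' v).comp measurable_snd).sub ((measurable_mean S v).comp measurable_snd)
  have hzero : Measurable (fun ξ : ℕ → V → ℝ => ((ξ, (0 : V → ℝ)) : (ℕ → V → ℝ) × (V → ℝ))) :=
    measurable_id.prodMk measurable_const
  have hPm : ∀ k, Measurable (fun ξ => chainFrom G β S' δ 0 ξ k (f k ξ) 0) := fun k =>
    (measurable_chainFrom_uc 0 k (f k) (hfm k)).comp hzero
  have hRm : ∀ k, Measurable (fun ξ => chainFrom G β S' δ 0 ξ k (g k ξ) 0) := fun k =>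
    (measurable_chainFrom_uc 0 k (g k) (hgm k)).comp hzero
  -- the static term
  have hstatic : ∀ k, k < K → lmarginal (fun _ : ℕ => gam V) (Finset.range K)
      (fun ξ => chainFrom G β S' δ 0 ξ k (g k ξ) 0) x ≤ ENNReal.ofReal ε2 := by
    intro k hk
    have hunion : Finset.range K = Finset.Ico k K ∪ Finset.Ico 0 (0 + k) := by
      ext j
      simp only [Finset.mem_range, Finset.mem_union, Finset.mem_Ico]
      omega
    have hdisj : Disjoint (Finset.Ico k K) (Finset.Ico 0 (0 + k)) := by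
      rw [Finset.disjoint_left]
      intro j h1 h2
      simp only [Finset.mem_Ico] at h1 h2
      omega
    rw [hunion, lmarginal_union (fun _ : ℕ => gam V) _ (hRm k) hdisj]
    have hinner : ∀ x' : ℕ → V → ℝ, lmarginal (fun _ : ℕ => gam V) (Finset.Ico 0 (0 + k))
        (fun ξ => chainFrom G β S' δ 0 ξ k (g k ξ) 0) x' ≤ ENNReal.ofReal ε2 := by
      intro x'
      rw [chain_law S' hδ 0 k 0 (g k) (hgm k) _ x']
      · -- static bound
        have hm : (K - (k + 1) : ℕ) * δ ≤ T := by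
          have h1 : ((K - (k + 1) : ℕ) : ℝ) ≤ K := by exact_mod_cast Nat.sub_le _ _
          exact mul_le_mul_of_nonneg_right h1 hδ
        refine static_ball (G := G) (β := β) hT hd hreg hβ hθκ hκ hκρ hρ hdκρ r n hSS' hS'
          (t := k * δ) (by positivity)
          (fun y => rowB G β S δ x' r (k + 1) (K - (k + 1)) (eulerStep G β S δ (x' k) y))
          (fun v => ?_) ?_ (A₀ := Real.exp (C * T)) (Real.exp_pos _).le ?_
        · have h1 : Measurable (fun y : V → ℝ => (((x', y) : (ℕ → V → ℝ) × (V → ℝ)))) :=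
            measurable_const.prodMk measurable_id
          exact (hrowm k v).comp h1
        · intro y y' hyy
          exact rowB_congr_state x' _ _ _ _ (eulerStep_congr_state (x' k) hyy)
        · intro y v
          have h1 := rowB_bound (ξ := x') (r := r) (n := K - (k + 1)) (i := k + 1)
            (x := eulerStep G β S δ (x' k) y) (v := v) hδ hρ0.le hcov hconv
          refine h1.trans ?_
          refine mul_le_mul_of_nonneg_right ?_ (by positivity)
          refine (one_add_pow_le_exp (by positivity) _).trans (Real.exp_le_exp.mpr ?_)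
          have e : ((K - (k + 1) : ℕ) : ℝ) * (δ * C) = ((K - (k + 1) : ℕ) * δ) * C := by ring
          rw [e, mul_comm C T]
          exact mul_le_mul_of_nonneg_right hm hC0
      · -- dependence on the noise
        intro ξ ξ' hξ
        funext y
        have hjk : ξ k = ξ' k := hξ k (by simp)
        have hrow : ∀ z : V → ℝ, rowB G β S δ ξ r (k + 1) (K - (k + 1)) z =
            rowB G β S δ ξ' r (k + 1) (K - (k + 1)) z := fun z =>
          rowB_congr_noise _ _ z ξ ξ' (fun j hj => hξ j (by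
            simp only [Finset.mem_Ico, zero_add]
            omega))
        simp only [hg, hjk, hrow]
    calc _ ≤ lmarginal (fun _ : ℕ => gam V) (Finset.Ico k K) (fun _ => ENNReal.ofReal ε2) x :=
          lmarginal_mono hinner x
      _ = _ := lmarginal_const_le _ _ _ _
  -- the step inequality
  set A₁ := 1 + 1 / (K : ℝ) with hA₁
  set A₂ := 2 * (K : ℝ) * δ ^ 2 with hA₂
  set c₀ := cS N T C * δ ^ 2 with hc₀
  have hA₁0 : 0 ≤ A₁ := by positivity
  have hA₂0 : 0 ≤ A₂ := by positivity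
  have hcS0 : 0 ≤ cS N T C := by
    simp only [cS, cR, cM, fc]; positivity
  have hc₀0 : 0 ≤ c₀ := by positivity
  have hpt : ∀ k, k < K → ∀ ξ y, Tstep G β S' δ (ξ k) (f (k + 1) ξ) y ≤
      ENNReal.ofReal A₁ * f k ξ y + ENNReal.ofReal A₂ * g k ξ y + ENNReal.ofReal c₀ := by
    intro k hk ξ y
    set m := K - (k + 1) with hm
    have hKk : K - k = m + 1 := by omega
    have hmδ : (m : ℝ) * δ ≤ T := by
      have h1 : (m : ℝ) ≤ K := by exact_mod_cast Nat.sub_le _ _
      exact mul_le_mul_of_nonneg_right h1 hδ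
    have hreal := one_step_real (G := G) (β := β) (S := S) (S' := S') (κ := κ) (ρ := ρ) (C := C)
      (δ := δ) hrS hSS'' hδ hρ0.le hρ.le hC0 hcov hconv ξ k m y (h₀ ξ) hK0
    have hcon := step_const_le (N := N) (δ := δ) (C := C) (T := T) (K₀ := K) (m := m) hN0 hδ hδ1 hC0
      hmδ rfl hK0.le
    have hL : Tstep G β S' δ (ξ k) (f (k + 1) ξ) y = ENNReal.ofReal (∑ A ∈ S'.powerset,
        mu G β S' y A *
          (flow G β S δ ξ (k + 1) m (y + δ • stepVec S' A + Real.sqrt δ • ξ k) r - h₀ ξ) ^ 2) := by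
      rw [ENNReal.ofReal_sum_of_nonneg (fun A _ =>
        mul_nonneg (mu_pos _ _ _ _ _).le (sq_nonneg _))]
      refine Finset.sum_congr rfl fun A _ => ?_
      rw [ENNReal.ofReal_mul (mu_pos _ _ _ _ _).le]
    rw [hL]
    have hfk : f k ξ y = ENNReal.ofReal ((flow G β S δ ξ k (m + 1) y r - h₀ ξ) ^ 2) := by
      simp only [hf, hKk]
    set X := ∑ v ∈ S, rowB G β S δ ξ r (k + 1) m (eulerStep G β S δ (ξ k) y) v *
      (mean G β S' y v - mean G β S y v) with hX
    have hgk : g k ξ y = ENNReal.ofReal (X ^ 2) := rfl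
    rw [hfk, hgk, ← ENNReal.ofReal_mul hA₁0, ← ENNReal.ofReal_mul hA₂0,
      ← ENNReal.ofReal_add (by positivity) (by positivity),
      ← ENNReal.ofReal_add (by positivity) hc₀0]
    apply ENNReal.ofReal_le_ofReal
    refine hreal.trans ?_
    have e : 2 * (K : ℝ) * (δ * X) ^ 2 = A₂ * X ^ 2 := by
      simp only [hA₂]; ring
    rw [e]
    exact add_le_add le_rfl hcon
  -- the integrated recursion
  set V₀ : ℕ → ℝ≥0∞ := fun k => lmarginal (fun _ : ℕ => gam V) (Finset.range K)
      (fun ξ => chainFrom G β S' δ 0 ξ k (f k ξ) 0) x with hV₀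
  have hrec : ∀ k, k < K → V₀ (k + 1) ≤ ENNReal.ofReal A₁ * V₀ k +
      ENNReal.ofReal (A₂ * ε2 + c₀) := by
    intro k hk
    have h1 : ∀ ξ, chainFrom G β S' δ 0 ξ (k + 1) (f (k + 1) ξ) 0 ≤
        ENNReal.ofReal A₁ * chainFrom G β S' δ 0 ξ k (f k ξ) 0 +
          ENNReal.ofReal A₂ * chainFrom G β S' δ 0 ξ k (g k ξ) 0 + ENNReal.ofReal c₀ := by
      intro ξ
      have e : chainFrom G β S' δ 0 ξ (k + 1) (f (k + 1) ξ) 0 =
          chainFrom G β S' δ 0 ξ k (Tstep G β S' δ (ξ (0 + k)) (f (k + 1) ξ)) 0 := rfl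
      rw [e, zero_add]
      refine (chainFrom_mono k (hpt k hk ξ) 0).trans (le_of_eq ?_)
      rw [chainFrom_add', chainFrom_add', chainFrom_const_mul, chainFrom_const_mul, chainFrom_const]
    have h2 := lmarginal_mono (μ := fun _ : ℕ => gam V) (s := Finset.range K) h1 x
    refine h2.trans ?_
    rw [lmarginal_combo (gam V) _ _ _ (hPm k) (hRm k)]
    rw [ENNReal.ofReal_add (by positivity) hc₀0, ENNReal.ofReal_mul hA₂0, ← add_assoc]
    gcongr
    exact hstatic k hk
  -- solving the recursion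
  set b := A₂ * ε2 + c₀ with hb
  have hb0 : 0 ≤ b := by positivity
  have hV0 : V₀ 0 = 0 := by
    have : (fun ξ => chainFrom G β S' δ 0 ξ 0 (f 0 ξ) 0) = fun _ => 0 := by
      funext ξ
      simp [chainFrom, hf, hh₀]
    simp only [hV₀]
    rw [this, lmarginal_const_le]
  have hA1 : 1 ≤ A₁ := by
    simp only [hA₁]
    have : 0 ≤ 1 / (K : ℝ) := by positivity
    linarith
  have hsolve : ∀ k, k ≤ K → V₀ k ≤ ENNReal.ofReal (A₁ ^ k * (k * b)) := by
    intro k
    induction k with
    | zero =>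
      intro _
      rw [hV0]
      exact zero_le
    | succ k ih =>
      intro hk
      refine (hrec k (by omega)).trans ?_
      have h3 := ih (by omega)
      have h4 : ENNReal.ofReal A₁ * V₀ k ≤ ENNReal.ofReal (A₁ * (A₁ ^ k * (k * b))) := by
        rw [ENNReal.ofReal_mul hA₁0]
        gcongr
      refine (add_le_add h4 le_rfl).trans ?_
      rw [← ENNReal.ofReal_add (by positivity) hb0]
      apply ENNReal.ofReal_le_ofReal
      have h5 : 1 ≤ A₁ ^ (k + 1) := one_le_pow₀ hA1
      push_cast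
      have e : A₁ ^ (k + 1) * ((k + 1) * b) = A₁ * (A₁ ^ k * (k * b)) + A₁ ^ (k + 1) * b := by
        rw [pow_succ]; ring
      rw [e]
      have := mul_le_mul_of_nonneg_right h5 hb0
      linarith
  have hfinal := hsolve K le_rfl
  have hfK : (fun ξ => chainFrom G β S' δ 0 ξ K
        (fun y => ENNReal.ofReal ((y r - flow G β S δ ξ 0 K 0 r) ^ 2)) 0) =
      fun ξ => chainFrom G β S' δ 0 ξ K (f K ξ) 0 := by
    funext ξ
    congr 1
    funext y
    have e : flow G β S δ ξ K (K - K) y = y := by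
      rw [Nat.sub_self]; rfl
    simp only [hf, e, hh₀]
  rw [hfK]
  refine hfinal.trans ?_
  apply ENNReal.ofReal_le_ofReal
  have hpow : A₁ ^ K ≤ 3 := by
    have h1 := one_add_pow_le_exp (a := 1 / (K : ℝ)) (by positivity) K
    have e : (K : ℝ) * (1 / (K : ℝ)) = 1 := by field_simp
    rw [e] at h1
    have h2 := Real.exp_one_lt_d9
    simp only [hA₁]
    linarith
  have hKb : 0 ≤ (K : ℝ) * b := by positivity
  calc A₁ ^ K * ((K : ℝ) * b) ≤ 3 * ((K : ℝ) * b) := mul_le_mul_of_nonneg_right hpow hKb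
    _ = _ := by
      simp only [hb, hA₂, hc₀, hTdef]
      ring

end recursion

end Vale.Agent.Lib.P161
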