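import Vale.Agent.Lib.P161.Gibbs
import Vale.Agent.Lib.P161.Tree

/-! Path contraction: on a tree, with arbitrary nonnegative site weights, pinning a spin at `u` has
an effect at `v` at most `2 θ ^ dist u v`; hence covariance decay for tilted measures. -/

open Finset
open scoped Classical

noncomputable section

namespace Vale.Agent.Lib.P161

variable {V : Type*} {G : SimpleGraph V} {β : ℝ}

/-- Weight with site factors `h`. -/
def hw (G : SimpleGraph V) (β : ℝ) (S : Finset V) (h : V → ℝ → ℝ) (A : Finset V) : ℝ :=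
  baseW G β S A * ∏ x ∈ S, h x (sp A x)

/-- Partition sum with site factors. -/
def zw (G : SimpleGraph V) (β : ℝ) (S : Finset V) (h : V → ℝ → ℝ) : ℝ :=
  ∑ A ∈ S.powerset, hw G β S h A

/-- Spin sum with site factors. -/
def nw (G : SimpleGraph V) (β : ℝ) (S : Finset V) (h : V → ℝ → ℝ) (v : V) : ℝ :=
  ∑ A ∈ S.powerset, hw G β S h A * sp A v

/-- Pin the spin at `u` to the value `t`. -/
def pin (h : V → ℝ → ℝ) (u : V) (t : ℝ) : V → ℝ → ℝ :=
  fun x s => if x = u then (if s = t then h x s else 0) else h x s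

theorem pin_nonneg {h : V → ℝ → ℝ} (hh : ∀ x s, 0 ≤ h x s) (u : V) (t : ℝ) :
    ∀ x s, 0 ≤ pin h u t x s := by
  intro x s
  unfold pin
  split_ifs <;> first | exact hh x s | exact le_rfl

theorem hw_nonneg {h : V → ℝ → ℝ} (hh : ∀ x s, 0 ≤ h x s) (S A : Finset V) :
    0 ≤ hw G β S h A :=
  mul_nonneg (baseW_pos _ _ _ _).le (Finset.prod_nonneg fun x _ => hh x _)

theorem hw_pin_of_notMem (S A : Finset V) (h : V → ℝ → ℝ) {u : V} (hu : u ∉ S) (t : ℝ) :
    hw G β S (pin h u t) A = hw G β S h A := by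
  unfold hw
  congr 1
  refine Finset.prod_congr rfl fun x hx => ?_
  have : x ≠ u := fun e => hu (e ▸ hx)
  simp [pin, this]

theorem hw_pin_of_mem (S A : Finset V) (h : V → ℝ → ℝ) {u : V} (hu : u ∈ S) (t : ℝ) :
    hw G β S (pin h u t) A = if sp A u = t then hw G β S h A else 0 := by
  unfold hw
  rw [← Finset.mul_prod_erase S _ hu, ← Finset.mul_prod_erase S (fun x => h x (sp A x)) hu]
  have e : ∏ x ∈ S.erase u, pin h u t x (sp A x) = ∏ x ∈ S.erase u, h x (sp A x) := by
    refine Finset.prod_congr rfl fun x hx => ?_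
    have : x ≠ u := (Finset.mem_erase.mp hx).1
    simp [pin, this]
  rw [e]
  by_cases ht : sp A u = t
  · simp [pin, ht]
  · simp [pin, ht]

theorem abs_nw_le {h : V → ℝ → ℝ} (hh : ∀ x s, 0 ≤ h x s) (S : Finset V) (v : V) :
    |nw G β S h v| ≤ zw G β S h := by
  unfold nw zw
  refine (Finset.abs_sum_le_sum_abs _ _).trans (Finset.sum_le_sum fun A _ => ?_)
  rw [abs_mul, abs_sp, mul_one, abs_of_nonneg (hw_nonneg hh S A)]

/-- Sum over the configurations of a disjoint union. -/
theorem sum_powerset_union {S₁ S₂ : Finset V} (hd : Disjoint S₁ S₂) (f : Finset V → ℝ) :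
    ∑ A ∈ (S₁ ∪ S₂).powerset, f A =
      ∑ A₁ ∈ S₁.powerset, ∑ A₂ ∈ S₂.powerset, f (A₁ ∪ A₂) := by
  rw [← Finset.sum_product']
  refine Finset.sum_bij' (fun A _ => (A ∩ S₁, A ∩ S₂)) (fun p _ => p.1 ∪ p.2) ?_ ?_ ?_ ?_ ?_
  · intro A hA
    simp only [Finset.mem_product, Finset.mem_powerset]
    exact ⟨Finset.inter_subset_right, Finset.inter_subset_right⟩
  · rintro ⟨A₁, A₂⟩ hp
    simp only [Finset.mem_product, Finset.mem_powerset] at hp
    simp only [Finset.mem_powerset]
    exact Finset.union_subset_union hp.1 hp.2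
  · intro A hA
    simp only [Finset.mem_powerset] at hA
    simp only
    rw [← Finset.inter_union_distrib_left]
    exact Finset.inter_eq_left.mpr hA
  · rintro ⟨A₁, A₂⟩ hp
    simp only [Finset.mem_product, Finset.mem_powerset] at hp
    have h1 : (A₁ ∪ A₂) ∩ S₁ = A₁ := by
      ext a
      simp only [Finset.mem_inter, Finset.mem_union]
      constructor
      · rintro ⟨h | h, h'⟩
        · exact h
        · exact absurd h' (Finset.disjoint_right.mp hd (hp.2 h))
      · intro h; exact ⟨Or.inl h, hp.1 h⟩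
    have h2 : (A₁ ∪ A₂) ∩ S₂ = A₂ := by
      ext a
      simp only [Finset.mem_inter, Finset.mem_union]
      constructor
      · rintro ⟨h | h, h'⟩
        · exact absurd h' (Finset.disjoint_left.mp hd (hp.1 h))
        · exact h
      · intro h; exact ⟨Or.inr h, hp.2 h⟩
    simp [h1, h2]
  · intro A hA
    simp only [Finset.mem_powerset] at hA
    rw [← Finset.inter_union_distrib_left, Finset.inter_eq_left.mpr hA]

theorem pairSum_congr (G : SimpleGraph V) {S A A' : Finset V} (h : ∀ v ∈ S, (v ∈ A ↔ v ∈ A')) :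
    pairSum G S A = pairSum G S A' := by
  unfold pairSum
  have hs : ∀ v ∈ S, sp A v = sp A' v := by
    intro v hv
    simp [sp, h v hv]
  refine Finset.sum_congr rfl fun u hu => Finset.sum_congr rfl fun v hv => ?_
  rw [hs u hu, hs v hv]

theorem pairSum_union (G : SimpleGraph V) {S₁ S₂ : Finset V} (hd : Disjoint S₁ S₂)
    (A : Finset V) :
    pairSum G (S₁ ∪ S₂) A = pairSum G S₁ A + pairSum G S₂ A +
      2 * ∑ u ∈ S₁, ∑ v ∈ S₂, if G.Adj u v then sp A u * sp A v else 0 := by
  unfold pairSum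
  rw [Finset.sum_union hd]
  simp_rw [Finset.sum_union hd]
  simp_rw [Finset.sum_add_distrib]
  have e : ∑ u ∈ S₂, ∑ v ∈ S₁, (if G.Adj u v then sp A u * sp A v else 0) =
      ∑ u ∈ S₁, ∑ v ∈ S₂, if G.Adj u v then sp A u * sp A v else 0 := by
    rw [Finset.sum_comm]
    refine Finset.sum_congr rfl fun u _ => Finset.sum_congr rfl fun v _ => ?_
    simp only [G.adj_comm v u, mul_comm]
  rw [e]
  ring

section cut

variable {S₁ S₂ : Finset V} {u x : V}

/-- Factorization over a cut consisting of the single edge `u x`, when `u` is pinned. -/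
theorem cut_sum (hd : Disjoint S₁ S₂) (hu : u ∈ S₁)
    (hcut : ∀ a ∈ S₁, ∀ b ∈ S₂, G.Adj a b → a = u ∧ b = x) (h : V → ℝ → ℝ) (t : ℝ)
    (φ : Finset V → ℝ)
    (hφ : ∀ A₁ ∈ S₁.powerset, ∀ A₂ ∈ S₂.powerset, φ (A₁ ∪ A₂) = φ A₂) :
    ∑ A ∈ (S₁ ∪ S₂).powerset, hw G β (S₁ ∪ S₂) (pin h u t) A * φ A =
      zw G β S₁ (pin h u t) *
        ∑ A₂ ∈ S₂.powerset, hw G β S₂ h A₂ *
          Real.exp (β * t * (if x ∈ S₂ ∧ G.Adj u x then sp A₂ x else 0)) * φ A₂ := by
  rw [sum_powerset_union hd]
  unfold zw
  rw [Finset.sum_mul]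
  refine Finset.sum_congr rfl fun A₁ hA₁ => ?_
  rw [Finset.mul_sum]
  refine Finset.sum_congr rfl fun A₂ hA₂ => ?_
  have hA₁' := Finset.mem_powerset.mp hA₁
  have hA₂' := Finset.mem_powerset.mp hA₂
  have hu2 : u ∉ S₂ := Finset.disjoint_left.mp hd hu
  have s1 : ∀ v ∈ S₁, sp (A₁ ∪ A₂) v = sp A₁ v := by
    intro v hv
    have : v ∉ A₂ := fun h => Finset.disjoint_left.mp hd hv (hA₂' h)
    simp [sp, this]
  have s2 : ∀ v ∈ S₂, sp (A₁ ∪ A₂) v = sp A₂ v := by
    intro v hv
    have : v ∉ A₁ := fun h => Finset.disjoint_right.mp hd hv (hA₁' h)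
    simp [sp, this]
  rw [hφ A₁ hA₁ A₂ hA₂]
  -- the product over the union
  have hprod : ∏ y ∈ S₁ ∪ S₂, pin h u t y (sp (A₁ ∪ A₂) y) =
      (∏ y ∈ S₁, pin h u t y (sp A₁ y)) * ∏ y ∈ S₂, h y (sp A₂ y) := by
    rw [Finset.prod_union hd]
    congr 1
    · exact Finset.prod_congr rfl fun y hy => by rw [s1 y hy]
    · refine Finset.prod_congr rfl fun y hy => ?_
      have : y ≠ u := fun e => hu2 (e ▸ hy)
      simp [pin, this, s2 y hy]
  -- the pair sums
  have hcross : ∑ a ∈ S₁, ∑ b ∈ S₂, (if G.Adj a b then sp (A₁ ∪ A₂) a * sp (A₁ ∪ A₂) b else 0) =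
      if x ∈ S₂ ∧ G.Adj u x then sp A₁ u * sp A₂ x else 0 := by
    rw [Finset.sum_eq_single_of_mem u hu]
    · by_cases hx : x ∈ S₂ ∧ G.Adj u x
      · rw [Finset.sum_eq_single_of_mem x hx.1]
        · rw [if_pos hx.2, if_pos hx, s1 u hu, s2 x hx.1]
        · intro b hb hbx
          rw [if_neg]
          intro hab
          exact hbx (hcut u hu b hb hab).2
      · rw [if_neg hx]
        refine Finset.sum_eq_zero fun b hb => ?_
        rw [if_neg]
        intro hab
        have := (hcut u hu b hb hab).2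
        subst this
        exact hx ⟨hb, hab⟩
    · intro a ha hau
      refine Finset.sum_eq_zero fun b hb => ?_
      rw [if_neg]
      intro hab
      exact hau (hcut a ha b hb hab).1
  have hp1 : pairSum G S₁ (A₁ ∪ A₂) = pairSum G S₁ A₁ := by
    refine pairSum_congr G fun v hv => ?_
    have : v ∉ A₂ := fun h => Finset.disjoint_left.mp hd hv (hA₂' h)
    simp [this]
  have hp2 : pairSum G S₂ (A₁ ∪ A₂) = pairSum G S₂ A₂ := by
    refine pairSum_congr G fun v hv => ?_
    have : v ∉ A₁ := fun h => Finset.disjoint_right.mp hd hv (hA₁' h)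
    simp [this]
  have hpair := pairSum_union G hd (A₁ ∪ A₂)
  rw [hp1, hp2, hcross] at hpair
  unfold hw
  rw [hprod]
  unfold baseW
  rw [hpair]
  by_cases ht : sp A₁ u = t
  · -- the pinned value is `t`
    have e : β / 2 * (pairSum G S₁ A₁ + pairSum G S₂ A₂ +
        2 * (if x ∈ S₂ ∧ G.Adj u x then sp A₁ u * sp A₂ x else 0)) =
        β / 2 * pairSum G S₁ A₁ + (β / 2 * pairSum G S₂ A₂ +
          β * t * (if x ∈ S₂ ∧ G.Adj u x then sp A₂ x else 0)) := by
      rw [ht]
      split_ifs <;> ring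
    rw [e, Real.exp_add, Real.exp_add]
    ring
  · -- the weight vanishes
    have : ∏ y ∈ S₁, pin h u t y (sp A₁ y) = 0 := by
      refine Finset.prod_eq_zero hu ?_
      simp [pin, ht]
    rw [this]
    ring

end cut

/-- Algebra of one step of the path contraction. -/
theorem step_algebra {β : ℝ} (hβ : 0 ≤ β) {Dp Dm Np Nm : ℝ} (hDp : 0 < Dp) (hDm : 0 < Dm) :
    |(Real.exp β * Np + Real.exp (-β) * Nm) / (Real.exp β * Dp + Real.exp (-β) * Dm) -
        (Real.exp (-β) * Np + Real.exp β * Nm) / (Real.exp (-β) * Dp + Real.exp β * Dm)| ≤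
      Real.tanh β * |Np / Dp - Nm / Dm| := by
  set E := Real.exp β with hE
  set F := Real.exp (-β) with hF
  have hE0 : 0 < E := Real.exp_pos _
  have hF0 : 0 < F := Real.exp_pos _
  have hEF : E * F = 1 := by
    rw [hE, hF, ← Real.exp_add]; simp
  have hFE : F ≤ E := Real.exp_le_exp.mpr (by linarith)
  have htanh : Real.tanh β = (E - F) / (E + F) := by
    rw [Real.tanh_eq_sinh_div_cosh, Real.sinh_eq, Real.cosh_eq]
    have : E + F ≠ 0 := by positivity
    field_simp
    rw [← hE, ← hF]
    ring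
  have hA : 0 < E * Dp + F * Dm := by positivity
  have hB : 0 < F * Dp + E * Dm := by positivity
  have e : (E * Np + F * Nm) / (E * Dp + F * Dm) - (F * Np + E * Nm) / (F * Dp + E * Dm) =
      (Np / Dp - Nm / Dm) * (Dp * Dm * (E ^ 2 - F ^ 2) / ((E * Dp + F * Dm) * (F * Dp + E * Dm))) := by
    field_simp
    ring
  rw [e, abs_mul, mul_comm]
  refine mul_le_mul_of_nonneg_right ?_ (abs_nonneg _)
  have hnn : 0 ≤ Dp * Dm * (E ^ 2 - F ^ 2) / ((E * Dp + F * Dm) * (F * Dp + E * Dm)) := by
    apply div_nonneg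
    · apply mul_nonneg (by positivity)
      nlinarith
    · positivity
  rw [abs_of_nonneg hnn, htanh]
  rw [div_le_div_iff₀ (by positivity) (by positivity)]
  have hsum : 0 ≤ (E - F) * (Dp - Dm) ^ 2 := mul_nonneg (by linarith) (sq_nonneg _)
  have key : (E * Dp + F * Dm) * (F * Dp + E * Dm) - Dp * Dm * (E + F) ^ 2 =
      E * F * (Dp - Dm) ^ 2 := by ring
  have hfin : Dp * Dm * (E + F) ^ 2 ≤ (E * Dp + F * Dm) * (F * Dp + E * Dm) := by
    have : 0 ≤ E * F * (Dp - Dm) ^ 2 := by positivity
    linarith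
  have e3 : Dp * Dm * (E ^ 2 - F ^ 2) * (E + F) = (E - F) * (Dp * Dm * (E + F) ^ 2) := by ring
  rw [e3]
  exact mul_le_mul_of_nonneg_left hfin (by linarith)

theorem nw_pin_self {h : V → ℝ → ℝ} {S : Finset V} {u : V} (hu : u ∈ S) (t : ℝ) :
    nw G β S (pin h u t) u = t * zw G β S (pin h u t) := by
  unfold nw zw
  rw [Finset.mul_sum]
  refine Finset.sum_congr rfl fun A _ => ?_
  rw [hw_pin_of_mem S A h hu t]
  by_cases ht : sp A u = t
  · rw [if_pos ht, ht]; ring
  · rw [if_neg ht]; ring

/-- Path contraction. -/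
theorem path_contraction (hT : G.IsTree) (hβ : 0 ≤ β) :
    ∀ (n : ℕ) (S : Finset V) (h : V → ℝ → ℝ) (u v : V), G.dist u v = n → (∀ x s, 0 ≤ h x s) →
      0 < zw G β S (pin h u 1) → 0 < zw G β S (pin h u (-1)) →
      |nw G β S (pin h u 1) v / zw G β S (pin h u 1) -
        nw G β S (pin h u (-1)) v / zw G β S (pin h u (-1))| ≤ 2 * Real.tanh β ^ n := by
  have htanh0 : 0 ≤ Real.tanh β := by
    rw [Real.tanh_eq_sinh_div_cosh]
    exact div_nonneg (Real.sinh_nonneg_iff.mpr hβ) (Real.cosh_pos β).le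
  have hnotmem : ∀ (n : ℕ) (S : Finset V) (h : V → ℝ → ℝ) (u v : V), u ∉ S →
      |nw G β S (pin h u 1) v / zw G β S (pin h u 1) -
        nw G β S (pin h u (-1)) v / zw G β S (pin h u (-1))| ≤ 2 * Real.tanh β ^ n := by
    intro n S h u v hu
    have e1 : ∀ t, zw G β S (pin h u t) = zw G β S h := fun t =>
      Finset.sum_congr rfl fun A _ => hw_pin_of_notMem S A h hu t
    have e2 : ∀ t, nw G β S (pin h u t) v = nw G β S h v := fun t =>
      Finset.sum_congr rfl fun A _ => by rw [hw_pin_of_notMem S A h hu t]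
    rw [e1, e1, e2, e2, sub_self, abs_zero]
    positivity
  intro n
  induction n with
  | zero =>
    intro S h u v huv hh h1 h2
    by_cases hu : u ∈ S
    · have : u = v := (hT.connected.dist_eq_zero_iff).mp huv
      subst this
      rw [nw_pin_self hu, nw_pin_self hu, mul_div_assoc, mul_div_assoc, div_self h1.ne',
        div_self h2.ne']
      norm_num
    · exact hnotmem _ S h u v hu
  | succ n ih =>
    intro S h u v huv hh h1 h2
    by_cases hu : u ∈ S
    swap
    · exact hnotmem _ S h u v hu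
    have huv' : u ≠ v := by
      rintro rfl
      simp at huv
    obtain ⟨x, hux, hdx⟩ := exists_parent hT (o := v) (x := u) huv'
    have hdx2 : G.dist x v = n := by
      have e1 : G.dist v x = G.dist x v := SimpleGraph.dist_comm
      have e2 : G.dist v u = G.dist u v := SimpleGraph.dist_comm
      omega
    set S₁ := S.filter (fun y => G.dist y u < G.dist y x) with hS₁
    set S₂ := S.filter (fun y => G.dist y x < G.dist y u) with hS₂
    have hdisj : Disjoint S₁ S₂ := by
      rw [Finset.disjoint_left]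
      intro a ha hb
      have := (Finset.mem_filter.mp ha).2
      have := (Finset.mem_filter.mp hb).2
      omega
    have hunion : S₁ ∪ S₂ = S := by
      ext y
      simp only [hS₁, hS₂, Finset.mem_union, Finset.mem_filter]
      constructor
      · rintro (h | h) <;> exact h.1
      · intro hy
        have := hT.dist_eq_dist_add_one_of_adj y hux
        rcases this with h | h
        · right; exact ⟨hy, by omega⟩
        · left; exact ⟨hy, by omega⟩
    have hu1 : u ∈ S₁ := by
      refine Finset.mem_filter.mpr ⟨hu, ?_⟩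
      rw [SimpleGraph.dist_self]
      have := (SimpleGraph.dist_eq_one_iff_adj).mpr hux
      omega
    have hcut : ∀ a ∈ S₁, ∀ b ∈ S₂, G.Adj a b → a = u ∧ b = x := by
      intro a ha b hb hab
      exact edge_cut hT hux hab (Finset.mem_filter.mp ha).2 (Finset.mem_filter.mp hb).2
    have hvS₁ : v ∉ S₁ := by
      intro hv
      have := (Finset.mem_filter.mp hv).2
      omega
    -- the two factorizations
    set c : Finset V → ℝ := fun A₂ => if x ∈ S₂ ∧ G.Adj u x then sp A₂ x else 0 with hc
    set T : ℝ → (Finset V → ℝ) → ℝ := fun t φ => ∑ A₂ ∈ S₂.powerset, hw G β S₂ h A₂ *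
        Real.exp (β * t * c A₂) * φ A₂ with hTdef
    have hz : ∀ t, zw G β S (pin h u t) = zw G β S₁ (pin h u t) * T t (fun _ => 1) := by
      intro t
      have := cut_sum (G := G) (β := β) hdisj hu1 hcut h t (fun _ => 1) (fun _ _ _ _ => rfl)
      rw [hunion] at this
      simpa [zw, hTdef, hc] using this
    have hn : ∀ t, nw G β S (pin h u t) v = zw G β S₁ (pin h u t) * T t (fun A => sp A v) := by
      intro t
      have := cut_sum (G := G) (β := β) hdisj hu1 hcut h t (fun A => sp A v) (by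
        intro A₁ hA₁ A₂ _
        have hA₁' := Finset.mem_powerset.mp hA₁
        have : v ∉ A₁ := fun h' => hvS₁ (hA₁' h')
        simp [sp, this])
      rw [hunion] at this
      exact this
    have hα : ∀ t, 0 ≤ zw G β S₁ (pin h u t) := fun t =>
      Finset.sum_nonneg fun A _ => hw_nonneg (pin_nonneg hh u t) S₁ A
    have hT1 : ∀ t, 0 < zw G β S (pin h u t) → 0 < zw G β S₁ (pin h u t) := by
      intro t ht
      rcases (hα t).lt_or_eq with h' | h'
      · exact h'
      · rw [hz t, ← h', zero_mul] at ht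
        exact absurd ht (lt_irrefl _)
    have hratio : ∀ t, 0 < zw G β S (pin h u t) →
        nw G β S (pin h u t) v / zw G β S (pin h u t) = T t (fun A => sp A v) / T t (fun _ => 1) := by
      intro t ht
      rw [hn t, hz t]
      exact mul_div_mul_left _ _ (hT1 t ht).ne'
    rw [hratio 1 h1, hratio (-1) h2]
    have hTpos : ∀ t, 0 < zw G β S (pin h u t) → 0 < T t (fun _ => 1) := by
      intro t ht
      rw [hz t] at ht
      exact (pos_iff_pos_of_mul_pos ht).mp (hT1 t (by rw [hz t]; exact ht))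
    by_cases hx : x ∈ S₂
    · -- the neighbour is present
      have hcx : c = fun A₂ => sp A₂ x := by
        funext A₂
        simp [hc, hx, hux]
      set Dp := zw G β S₂ (pin h x 1) with hDp
      set Dm := zw G β S₂ (pin h x (-1)) with hDm
      set Np := nw G β S₂ (pin h x 1) v with hNp
      set Nm := nw G β S₂ (pin h x (-1)) v with hNm
      have hsplit : ∀ (φ : Finset V → ℝ) (A₂ : Finset V) (t : ℝ),
          hw G β S₂ h A₂ * Real.exp (β * t * sp A₂ x) * φ A₂ =
            Real.exp (β * t) * (hw G β S₂ (pin h x 1) A₂ * φ A₂) +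
              Real.exp (-(β * t)) * (hw G β S₂ (pin h x (-1)) A₂ * φ A₂) := by
        intro φ A₂ t
        rw [hw_pin_of_mem S₂ A₂ h hx, hw_pin_of_mem S₂ A₂ h hx]
        rcases sp_eq_or A₂ x with e | e
        · rw [e]; norm_num; ring_nf
        · rw [e]; norm_num; ring_nf
      have hT1' : ∀ t, T t (fun _ => 1) = Real.exp (β * t) * Dp + Real.exp (-(β * t)) * Dm := by
        intro t
        simp only [hTdef, hcx, hDp, hDm, zw, Finset.mul_sum, ← Finset.sum_add_distrib]
        refine Finset.sum_congr rfl fun A₂ _ => ?_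
        have := hsplit (fun _ => 1) A₂ t
        simpa using this
      have hTv : ∀ t, T t (fun A => sp A v) = Real.exp (β * t) * Np + Real.exp (-(β * t)) * Nm := by
        intro t
        simp only [hTdef, hcx, hNp, hNm, nw, Finset.mul_sum, ← Finset.sum_add_distrib]
        refine Finset.sum_congr rfl fun A₂ _ => ?_
        exact hsplit (fun A => sp A v) A₂ t
      have hDp0 : 0 ≤ Dp := Finset.sum_nonneg fun A _ => hw_nonneg (pin_nonneg hh x 1) S₂ A
      have hDm0 : 0 ≤ Dm := Finset.sum_nonneg fun A _ => hw_nonneg (pin_nonneg hh x (-1)) S₂ A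
      have hE : Real.exp (β * 1) = Real.exp β := by rw [mul_one]
      have hF : Real.exp (-(β * 1)) = Real.exp (-β) := by rw [mul_one]
      have hE' : Real.exp (β * -1) = Real.exp (-β) := by rw [mul_neg, mul_one]
      have hF' : Real.exp (-(β * -1)) = Real.exp β := by rw [mul_neg, mul_one, neg_neg]
      rw [hT1' 1, hT1' (-1), hTv 1, hTv (-1), hE, hF, hE', hF']
      have hEp := Real.exp_pos β
      have hFp := Real.exp_pos (-β)
      rcases hDp0.lt_or_eq with hp | hp
      · rcases hDm0.lt_or_eq with hm | hm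
        · -- both pinned sums positive
          have hih := ih S₂ h x v hdx2 hh hp hm
          refine (step_algebra hβ hp hm).trans ?_
          calc Real.tanh β * |Np / Dp - Nm / Dm| ≤ Real.tanh β * (2 * Real.tanh β ^ n) :=
                mul_le_mul_of_nonneg_left hih htanh0
            _ = 2 * Real.tanh β ^ (n + 1) := by ring
        · -- minus sum vanishes
          have hNm0 : Nm = 0 := by
            have := abs_nw_le (G := G) (β := β) (pin_nonneg hh x (-1)) S₂ v
            rw [← hNm, ← hDm, ← hm] at this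
            exact abs_nonpos_iff.mp this
          rw [← hm, hNm0]
          simp only [mul_zero, add_zero]
          rw [mul_div_mul_left _ _ hEp.ne', mul_div_mul_left _ _ hFp.ne', sub_self, abs_zero]
          positivity
      · have hNp0 : Np = 0 := by
          have := abs_nw_le (G := G) (β := β) (pin_nonneg hh x 1) S₂ v
          rw [← hNp, ← hDp, ← hp] at this
          exact abs_nonpos_iff.mp this
        rw [← hp, hNp0]
        simp only [mul_zero, zero_add]
        rw [mul_div_mul_left _ _ hFp.ne', mul_div_mul_left _ _ hEp.ne', sub_self, abs_zero]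
        positivity
    · -- the neighbour is absent: no dependence on the pinned value
      have hc0 : c = fun _ => 0 := by
        funext A₂
        simp [hc, hx]
      have e : ∀ t φ, T t φ = T 0 φ := by
        intro t φ
        simp [hTdef, hc0]
      rw [e 1 (fun A => sp A v), e 1 (fun _ => 1), e (-1) (fun A => sp A v), e (-1) (fun _ => 1),
        sub_self, abs_zero]
      positivity

/-- Site factors of a tilt. -/
def tiltH (y : V → ℝ) : V → ℝ → ℝ := fun x s => Real.exp (y x * s)

theorem tiltH_nonneg (y : V → ℝ) : ∀ x s, 0 ≤ tiltH y x s := fun _ _ => (Real.exp_pos _).le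

theorem hw_tiltH (S : Finset V) (y : V → ℝ) (A : Finset V) :
    hw G β S (tiltH y) A = wt G β S y A := by
  unfold hw wt tiltH tilt
  rw [Real.exp_sum]

theorem zw_tiltH (S : Finset V) (y : V → ℝ) : zw G β S (tiltH y) = Zf G β S y :=
  Finset.sum_congr rfl fun A _ => hw_tiltH S y A

/-- Pinned partition sums of a tilted measure are positive. -/
theorem zw_pin_tilt_pos {S : Finset V} {u : V} (hu : u ∈ S) (y : V → ℝ) {t : ℝ}
    (ht : t = 1 ∨ t = -1) : 0 < zw G β S (pin (tiltH y) u t) := by
  unfold zw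
  have hnn : ∀ A ∈ S.powerset, 0 ≤ hw G β S (pin (tiltH y) u t) A := fun A _ =>
    hw_nonneg (pin_nonneg (tiltH_nonneg y) u t) S A
  rcases ht with rfl | rfl
  · refine Finset.sum_pos' hnn ⟨{u}, by simpa using hu, ?_⟩
    rw [hw_pin_of_mem S _ _ hu, if_pos (by simp [sp]), hw_tiltH]
    exact wt_pos _ _ _ _ _
  · refine Finset.sum_pos' hnn ⟨∅, by simp, ?_⟩
    rw [hw_pin_of_mem S _ _ hu, if_pos (by simp [sp]), hw_tiltH]
    exact wt_pos _ _ _ _ _

/-- Covariance decay for tilted measures on a tree. -/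
theorem abs_cov_le (hT : G.IsTree) (hβ : 0 ≤ β) (S : Finset V) (y : V → ℝ) (u v : V) :
    |cov G β S y u v| ≤ Real.tanh β ^ G.dist u v := by
  have htanh0 : 0 ≤ Real.tanh β := by
    rw [Real.tanh_eq_sinh_div_cosh]
    exact div_nonneg (Real.sinh_nonneg_iff.mpr hβ) (Real.cosh_pos β).le
  by_cases hu : u ∈ S
  swap
  · -- the spin at `u` is constant
    have hs : ∀ A ∈ S.powerset, sp A u = -1 := by
      intro A hA
      have : u ∉ A := fun h => hu (Finset.mem_powerset.mp hA h)
      simp [sp, this]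
    have h1 : Ee G β S y (fun A => sp A u * sp A v) = - mean G β S y v := by
      unfold Ee mean Ee
      rw [← Finset.sum_neg_distrib]
      refine Finset.sum_congr rfl fun A hA => ?_
      show mu G β S y A * (sp A u * sp A v) = -(mu G β S y A * sp A v)
      rw [hs A hA]; ring
    have h2 : mean G β S y u = -1 := by
      have : mean G β S y u = ∑ A ∈ S.powerset, mu G β S y A * (-1) :=
        Finset.sum_congr rfl fun A hA => by
          show mu G β S y A * sp A u = mu G β S y A * (-1)
          rw [hs A hA]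
      rw [this, ← Finset.sum_mul, sum_mu]
      ring
    simp only [cov, h1, h2]
    simp only [neg_mul, one_mul, neg_add_cancel, sub_neg_eq_add, abs_zero]
    positivity
  set h := tiltH (V := V) y with hh
  set Dp := zw G β S (pin h u 1) with hDp
  set Dm := zw G β S (pin h u (-1)) with hDm
  set Np := nw G β S (pin h u 1) v with hNp
  set Nm := nw G β S (pin h u (-1)) v with hNm
  have hDp0 : 0 < Dp := zw_pin_tilt_pos hu y (Or.inl rfl)
  have hDm0 : 0 < Dm := zw_pin_tilt_pos hu y (Or.inr rfl)
  have hPC := path_contraction hT hβ (G.dist u v) S h u v rfl (tiltH_nonneg y) hDp0 hDm0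
  rw [← hDp, ← hDm, ← hNp, ← hNm] at hPC
  -- decomposition by the value at `u`
  have hterm : ∀ A, hw G β S h A = hw G β S (pin h u 1) A + hw G β S (pin h u (-1)) A := by
    intro A
    rw [hw_pin_of_mem S A h hu, hw_pin_of_mem S A h hu]
    rcases sp_eq_or A u with e | e <;> rw [e] <;> norm_num
  have hZ : Zf G β S y = Dp + Dm := by
    rw [← zw_tiltH (G := G) (β := β) S y, hDp, hDm]
    simp only [zw]
    rw [← Finset.sum_add_distrib]
    exact Finset.sum_congr rfl fun A _ => hterm A
  have hZ0 : 0 < Dp + Dm := by positivity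
  have hwt : ∀ A, wt G β S y A = hw G β S h A := fun A => (hw_tiltH S y A).symm
  have hmv : mean G β S y v = (Np + Nm) / (Dp + Dm) := by
    unfold mean
    rw [Ee_eq, hZ, hNp, hNm]
    congr 1
    simp only [nw]
    rw [← Finset.sum_add_distrib]
    refine Finset.sum_congr rfl fun A _ => ?_
    rw [hwt, hterm]; ring
  have hmu : mean G β S y u = (Dp - Dm) / (Dp + Dm) := by
    unfold mean
    rw [Ee_eq, hZ, hDp, hDm]
    congr 1
    simp only [zw]
    rw [← Finset.sum_sub_distrib]
    refine Finset.sum_congr rfl fun A _ => ?_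
    rw [hwt, hterm, hw_pin_of_mem S A h hu, hw_pin_of_mem S A h hu]
    rcases sp_eq_or A u with e | e <;> rw [e] <;> norm_num
  have huv : Ee G β S y (fun A => sp A u * sp A v) = (Np - Nm) / (Dp + Dm) := by
    rw [Ee_eq, hZ, hNp, hNm]
    congr 1
    simp only [nw]
    rw [← Finset.sum_sub_distrib]
    refine Finset.sum_congr rfl fun A _ => ?_
    rw [hwt, hterm, hw_pin_of_mem S A h hu, hw_pin_of_mem S A h hu]
    rcases sp_eq_or A u with e | e <;> rw [e] <;> norm_num
  have hcov : cov G β S y u v =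
      (2 * (Dp * Dm) / (Dp + Dm) ^ 2) * (Np / Dp - Nm / Dm) := by
    simp only [cov, huv, hmu, hmv]
    field_simp
    ring
  rw [hcov, abs_mul]
  have hfrac : |2 * (Dp * Dm) / (Dp + Dm) ^ 2| ≤ 1 / 2 := by
    rw [abs_of_nonneg (by positivity), div_le_div_iff₀ (by positivity) (by norm_num)]
    nlinarith [sq_nonneg (Dp - Dm)]
  calc |2 * (Dp * Dm) / (Dp + Dm) ^ 2| * |Np / Dp - Nm / Dm|
      ≤ 1 / 2 * (2 * Real.tanh β ^ G.dist u v) :=
        mul_le_mul hfrac hPC (abs_nonneg _) (by norm_num)
    _ = Real.tanh β ^ G.dist u v := by ring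

end Vale.Agent.Lib.P161
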