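import Vale.Agent.Lib.P161.Levels

/-! Choice of the sequences of radii and of levels, and elementary bounds on the constants. -/

open MeasureTheory Finset Filter Topology
open scoped Classical ENNReal

noncomputable section

namespace Vale.Agent.Lib.P161

theorem exists_mono_seq (P : ℕ → ℕ → Prop) (hP : ∀ j, ∃ L, ∀ l, L ≤ l → P j l) :
    ∃ l : ℕ → ℕ, Monotone l ∧ ∀ j, P j (l j) := by
  choose L hL using hP
  refine ⟨fun j => ∑ i ∈ Finset.range (j + 1), L i, ?_, fun j => hL j _ ?_⟩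
  · refine monotone_nat_of_le_succ fun j => ?_
    rw [Finset.sum_range_succ _ (j + 1)]
    omega
  · exact Finset.single_le_sum (f := L) (fun _ _ => Nat.zero_le _) (Finset.mem_range.2 (by omega))

theorem exists_mul_pow_le (A : ℝ) {x : ℝ} (hx0 : 0 ≤ x) (hx1 : x < 1) {ε : ℝ} (hε : 0 < ε) :
    ∃ L : ℕ, ∀ l, L ≤ l → A * x ^ l ≤ ε := by
  have h : Tendsto (fun l : ℕ => A * x ^ l) atTop (𝓝 (A * 0)) :=
    (tendsto_pow_atTop_nhds_zero_of_lt_one hx0 hx1).const_mul A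
  rw [mul_zero] at h
  obtain ⟨L, hL⟩ := Filter.eventually_atTop.1 (h.eventually (gt_mem_nhds hε))
  exact ⟨L, fun l hl => (hL l hl).le⟩

theorem fc_mono {N N' T C : ℝ} (h0 : 0 ≤ N) (h : N ≤ N') (hT : 0 ≤ T) :
    fc N T C ≤ fc N' T C := by
  unfold fc
  have hN' : 0 ≤ N' := h0.trans h
  gcongr

theorem fc_nonneg {N T C : ℝ} (h0 : 0 ≤ N) (hT : 0 ≤ T) : 0 ≤ fc N T C := by
  unfold fc; positivity

theorem cR_mono {N N' T C : ℝ} (h0 : 0 ≤ N) (h : N ≤ N') (hT : 0 ≤ T) :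
    cR N T C ≤ cR N' T C := by
  unfold cR
  have := fc_mono (C := C) h0 h hT
  have h1 := fc_nonneg (C := C) h0 hT
  have h2 := fc_nonneg (C := C) (h0.trans h) hT
  gcongr

theorem cR_nonneg {N T C : ℝ} (h0 : 0 ≤ N) (hT : 0 ≤ T) : 0 ≤ cR N T C := by
  unfold cR
  have h1 := fc_nonneg (C := C) h0 hT
  positivity

theorem cM_mono {N N' T C : ℝ} (h : N ≤ N') : cM N T C ≤ cM N' T C := by
  unfold cM
  gcongr

theorem cM_nonneg {N T C : ℝ} (h0 : 0 ≤ N) : 0 ≤ cM N T C := by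
  unfold cM; positivity

theorem cS_mono {N N' T C : ℝ} (h0 : 0 ≤ N) (h : N ≤ N') (hT : 0 ≤ T) :
    cS N T C ≤ cS N' T C := by
  unfold cS
  have h1 := cR_mono (C := C) h0 h hT
  have h2 := cR_nonneg (C := C) h0 hT
  have h3 := cM_mono (T := T) (C := C) h
  have h4 := cM_nonneg (T := T) (C := C) h0
  gcongr

theorem cS_nonneg {N T C : ℝ} (h0 : 0 ≤ N) (hT : 0 ≤ T) : 0 ≤ cS N T C := by
  unfold cS
  have h2 := cR_nonneg (C := C) h0 hT
  have h4 := cM_nonneg (T := T) (C := C) h0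
  positivity

theorem Rc_mono {N N' : ℝ} (j : ℕ) (h0 : 0 ≤ N) (h : N ≤ N') : Rc N j ≤ Rc N' j := by
  unfold Rc
  gcongr

/-- The sequences of radii and of levels. -/
structure Seqs (d : ℕ) (κ ρ : ℝ) (n l : ℕ → ℕ) : Prop where
  mono_n : Monotone n
  mono_l : Monotone l
  stat_le : ∀ j, stat d κ ρ (2 ^ j) (n j) ≤ (1 / 2) ^ j
  cS_le : ∀ j, cS (((d + 1) ^ n j : ℕ) : ℝ) (2 ^ j) (convC d κ ρ) * dlt (l j) ≤ (1 / 2) ^ j
  Rc_le : ∀ j, 4 * Rc (((d + 1) ^ n j : ℕ) : ℝ) j * qq ^ l j ≤ (1 / 2) ^ j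

theorem exists_seqs (d : ℕ) (κ ρ : ℝ) (hd : 2 ≤ d) (hρ : ((d : ℝ) - 1) * ρ ^ 2 < 1) :
    ∃ n l : ℕ → ℕ, Seqs d κ ρ n l := by
  have hd1 : (0 : ℝ) ≤ (d : ℝ) - 1 := by
    have : (2 : ℝ) ≤ d := by exact_mod_cast hd
    linarith
  have hx0 : 0 ≤ ((d : ℝ) - 1) * ρ ^ 2 := by positivity
  obtain ⟨n, hn, hstat⟩ := exists_mono_seq (fun j m => stat d κ ρ (2 ^ j) m ≤ (1 / 2) ^ j)
    (fun j => by
      obtain ⟨L, hL⟩ := exists_mul_pow_le
        (2 * Real.exp (convC d κ ρ * 2 ^ j) ^ 2 * convC d κ ρ ^ 3) hx0 hρ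
        (by positivity : (0 : ℝ) < (1 / 2) ^ j)
      exact ⟨L, fun m hm => hL m hm⟩)
  have hq1 : qq < 1 := qq_le.trans_lt (by norm_num)
  obtain ⟨l, hl, hboth⟩ := exists_mono_seq
    (fun j m => cS (((d + 1) ^ n j : ℕ) : ℝ) (2 ^ j) (convC d κ ρ) * dlt m ≤ (1 / 2) ^ j ∧
      4 * Rc (((d + 1) ^ n j : ℕ) : ℝ) j * qq ^ m ≤ (1 / 2) ^ j)
    (fun j => by
      set A := cS (((d + 1) ^ n j : ℕ) : ℝ) (2 ^ j) (convC d κ ρ) with hA
      set B := 4 * Rc (((d + 1) ^ n j : ℕ) : ℝ) j with hB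
      have hA0 : 0 ≤ A := cS_nonneg (Nat.cast_nonneg _) (by positivity)
      have hB0 : 0 ≤ B := mul_nonneg (by norm_num) (Rc_nonneg _ _)
      obtain ⟨L, hL⟩ := exists_mul_pow_le (A + B) qq_pos.le hq1
        (by positivity : (0 : ℝ) < (1 / 2) ^ j)
      refine ⟨L, fun m hm => ?_⟩
      have h1 := hL m hm
      have hp : 0 ≤ qq ^ m := pow_nonneg qq_pos.le _
      constructor
      · calc A * dlt m ≤ A * qq ^ m := mul_le_mul_of_nonneg_left (dlt_le_qq_pow m) hA0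
          _ ≤ (A + B) * qq ^ m := mul_le_mul_of_nonneg_right (by linarith) hp
          _ ≤ _ := h1
      · calc B * qq ^ m ≤ (A + B) * qq ^ m := mul_le_mul_of_nonneg_right (by linarith) hp
          _ ≤ _ := h1)
  exact ⟨n, l, hn, hl, hstat, fun j => (hboth j).1, fun j => (hboth j).2⟩

theorem add_ofReal_le {a b : ℝ≥0∞} {x y : ℝ} (ha : a ≤ ENNReal.ofReal x) (hb : b ≤ ENNReal.ofReal y)
    (hx : 0 ≤ x) (hy : 0 ≤ y) : a + b ≤ ENNReal.ofReal (x + y) := by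
  rw [ENNReal.ofReal_add hx hy]
  exact add_le_add ha hb

/-- The error term of the one time bound, for large times and small steps. -/
theorem E_bound {d : ℕ} {κ ρ : ℝ} {N : ℕ} {T δ ε : ℝ} {n : ℕ} (hT : 1 ≤ T) (h1 : 1 / T ≤ ε)
    (hstat : stat d κ ρ T n ≤ ε) (hcS : cS N T (convC d κ ρ) * δ ≤ ε) :
    ENNReal.ofReal (4 / T) + ENNReal.ofReal (1 / (T / 4) ^ 2) *
        ENNReal.ofReal (errC d κ ρ N T δ n) ≤ ENNReal.ofReal (148 * ε) := by
  have hT0 : 0 < T := by linarith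
  have hε : 0 ≤ ε := le_trans (by positivity) h1
  have e1 : 4 / T = 4 * (1 / T) := by ring
  have hA : ENNReal.ofReal (4 / T) ≤ ENNReal.ofReal (4 * ε) := by
    refine ENNReal.ofReal_le_ofReal ?_
    rw [e1]
    linarith
  have hB : ENNReal.ofReal (1 / (T / 4) ^ 2) * ENNReal.ofReal (errC d κ ρ N T δ n) ≤
      ENNReal.ofReal (144 * ε) := by
    rw [← ENNReal.ofReal_mul (by positivity)]
    refine ENNReal.ofReal_le_ofReal ?_
    unfold errC
    have e2 : 1 / (T / 4) ^ 2 * (6 * T ^ 2 * stat d κ ρ T n + 3 * T * cS N T (convC d κ ρ) * δ) =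
        96 * stat d κ ρ T n + 48 * ((cS N T (convC d κ ρ) * δ) * (1 / T)) := by
      field_simp
      ring
    rw [e2]
    have h3 : (cS N T (convC d κ ρ) * δ) * (1 / T) ≤ ε * 1 := by
      have h4 : 1 / T ≤ 1 := by
        rw [div_le_one hT0]; exact hT
      have h5 : 0 ≤ 1 / T := by positivity
      calc (cS N T (convC d κ ρ) * δ) * (1 / T) ≤ ε * (1 / T) :=
            mul_le_mul_of_nonneg_right hcS h5
        _ ≤ ε * 1 := mul_le_mul_of_nonneg_left h4 hε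
    linarith
  have := add_ofReal_le hA hB (by positivity) (by positivity)
  convert this using 2
  ring

end Vale.Agent.Lib.P161
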