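import Vale.Agent.Lib.P161.Dyn

/-! The exact chain has the planted law at each time. -/

open MeasureTheory Finset
open scoped Classical ENNReal

noncomputable section

namespace Vale.Agent.Lib.P161

variable {V : Type*} {G : SimpleGraph V} {β : ℝ}

theorem measurable_tilt (S A : Finset V) : Measurable (fun y : V → ℝ => tilt S A y) := by
  unfold tilt
  exact Finset.measurable_sum _ fun v _ => (measurable_pi_apply v).mul_const _

theorem measurable_wt (S A : Finset V) : Measurable (fun y : V → ℝ => wt G β S y A) := by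
  unfold wt
  exact ((measurable_tilt S A).exp).const_mul _

theorem measurable_Zf (S : Finset V) : Measurable (fun y : V → ℝ => Zf G β S y) := by
  unfold Zf
  exact Finset.measurable_sum _ fun A _ => measurable_wt S A

theorem measurable_mu (S A : Finset V) : Measurable (fun y : V → ℝ => mu G β S y A) := by
  unfold mu
  exact (measurable_wt S A).div (measurable_Zf S)

theorem measurable_Ee (S : Finset V) (f : Finset V → ℝ) :
    Measurable (fun y : V → ℝ => Ee G β S y f) := by
  unfold Ee
  exact Finset.measurable_sum _ fun A _ => (measurable_mu S A).mul_const _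

theorem measurable_mean (S : Finset V) (v : V) : Measurable (fun y : V → ℝ => mean G β S y v) :=
  measurable_Ee S _

theorem measurable_cov (S : Finset V) (u v : V) : Measurable (fun y : V → ℝ => cov G β S y u v) := by
  unfold cov
  exact (measurable_Ee S _).sub ((measurable_mean S u).mul (measurable_mean S v))

/-- Measurability of an affine map of the tilt. -/
theorem measurable_shift (c : ℝ) (w : V → ℝ) (y₀ : V → ℝ) :
    Measurable (fun g : V → ℝ => y₀ + w + c • g) := by
  refine measurable_pi_lambda _ fun v => ?_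
  simp only [Pi.add_apply, Pi.smul_apply, smul_eq_mul]
  exact (measurable_const.mul (measurable_pi_apply v)).const_add _

theorem stepVec_sq (S A : Finset V) {v : V} (hv : v ∈ S) : stepVec S A v ^ 2 = 1 := by
  simp only [stepVec, if_pos hv]
  rcases sp_eq_or A v with h | h <;> rw [h] <;> norm_num

/-- The exponent in the Cameron-Martin formula. -/
theorem exponent_eq (S A : Finset V) (c : ℝ) (g : V → ℝ) :
    ∑ v ∈ S, ((c • stepVec S A) v * g v - (c • stepVec S A) v ^ 2 / 2) =
      c * tilt S A g - c ^ 2 * S.card / 2 := by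
  have h : ∀ v ∈ S, ((c • stepVec S A) v * g v - (c • stepVec S A) v ^ 2 / 2) =
      c * (g v * sp A v) - c ^ 2 / 2 := by
    intro v hv
    have h2 := stepVec_sq S A hv
    simp only [Pi.smul_apply, smul_eq_mul, mul_pow, h2]
    simp only [stepVec, if_pos hv]
    ring
  rw [Finset.sum_congr rfl h, Finset.sum_sub_distrib, Finset.sum_const, nsmul_eq_mul, tilt,
    Finset.mul_sum]
  ring

theorem planted_shift (S A : Finset V) {t : ℝ} (ht : 0 ≤ t) (y₀ : V → ℝ) {F : (V → ℝ) → ℝ≥0∞}
    (hF : Measurable F) :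
    ∫⁻ g, F (y₀ + t • stepVec S A + Real.sqrt t • g) ∂gam V =
      ∫⁻ g, F (y₀ + Real.sqrt t • g) *
        ENNReal.ofReal (Real.exp (Real.sqrt t * tilt S A g - t * S.card / 2)) ∂gam V := by
  set c := Real.sqrt t with hc
  have hcc : c ^ 2 = t := Real.sq_sqrt ht
  have hF' : Measurable (fun h : V → ℝ => F (y₀ + c • h)) := by
    refine hF.comp ?_
    simpa [add_zero] using measurable_shift c (0 : V → ℝ) y₀
  have h1 := cameron_martin S (c • stepVec S A)
    (fun v hv => by simp [stepVec, hv]) (fun h => F (y₀ + c • h)) hF'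
  have h2 : ∀ g : V → ℝ, y₀ + t • stepVec S A + c • g = y₀ + c • (c • stepVec S A + g) := by
    intro g
    rw [smul_add, smul_smul, ← pow_two, hcc, add_assoc]
  simp_rw [h2]
  rw [h1]
  simp_rw [exponent_eq, hcc]

theorem density_sum (S : Finset V) (c t : ℝ) (y₀ g : V → ℝ) :
    ∑ A ∈ S.powerset, mu G β S y₀ A * Real.exp (c * tilt S A g - t * S.card / 2) =
      Zf G β S (y₀ + c • g) / Zf G β S y₀ * Real.exp (-(t * S.card / 2)) := by
  have h : ∀ A ∈ S.powerset, mu G β S y₀ A * Real.exp (c * tilt S A g - t * S.card / 2) =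
      wt G β S (y₀ + c • g) A / Zf G β S y₀ * Real.exp (-(t * S.card / 2)) := by
    intro A _
    unfold mu wt
    rw [tilt_add_smul, sub_eq_add_neg, Real.exp_add, Real.exp_add]
    ring
  rw [Finset.sum_congr rfl h, ← Finset.sum_mul, ← Finset.sum_div]
  rfl

/-- Density form of the planted law (Cameron-Martin). -/
theorem planted_eq_density (S : Finset V) {t : ℝ} (ht : 0 ≤ t) (y₀ : V → ℝ) {F : (V → ℝ) → ℝ≥0∞}
    (hF : Measurable F) :
    planted G β S t y₀ F =
      ∫⁻ g, F (y₀ + Real.sqrt t • g) *
        ENNReal.ofReal (Zf G β S (y₀ + Real.sqrt t • g) / Zf G β S y₀ *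
          Real.exp (-(t * S.card / 2))) ∂gam V := by
  set c := Real.sqrt t with hc
  have hF' : Measurable (fun h : V → ℝ => F (y₀ + c • h)) := by
    refine hF.comp ?_
    simpa [add_zero] using measurable_shift c (0 : V → ℝ) y₀
  have hm : ∀ A : Finset V, Measurable (fun g : V → ℝ => F (y₀ + c • g) *
      ENNReal.ofReal (Real.exp (c * tilt S A g - t * S.card / 2))) := fun A =>
    hF'.mul (((((measurable_tilt S A).const_mul c).sub_const _).exp).ennreal_ofReal)
  unfold planted
  have h3 : ∀ A ∈ S.powerset, ENNReal.ofReal (mu G β S y₀ A) *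
      ∫⁻ g, F (y₀ + t • stepVec S A + c • g) ∂gam V =
      ∫⁻ g, ENNReal.ofReal (mu G β S y₀ A) * (F (y₀ + c • g) *
        ENNReal.ofReal (Real.exp (c * tilt S A g - t * S.card / 2))) ∂gam V := by
    intro A _
    rw [planted_shift S A ht y₀ hF, lintegral_const_mul _ (hm A)]
  rw [Finset.sum_congr rfl h3, ← lintegral_finsetSum _ (fun A _ => (hm A).const_mul _)]
  refine lintegral_congr fun g => ?_
  rw [← density_sum, ENNReal.ofReal_sum_of_nonneg, Finset.mul_sum]
  · refine Finset.sum_congr rfl fun A _ => ?_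
    rw [ENNReal.ofReal_mul (mu_pos _ _ _ _ _).le]
    ring
  · intro A _
    exact mul_nonneg (mu_pos _ _ _ _ _).le (Real.exp_pos _).le

/-- Bayes: under the planted law, a fresh sample from the posterior is a sample from the prior, with
the observation generated from it. -/
theorem planted_bayes (S : Finset V) {t : ℝ} (ht : 0 ≤ t) (y₀ : V → ℝ)
    (H : Finset V → (V → ℝ) → ℝ≥0∞) (hH : ∀ B, Measurable (H B)) :
    planted G β S t y₀ (fun y => ∑ B ∈ S.powerset, ENNReal.ofReal (mu G β S y B) * H B y) =
      ∑ B ∈ S.powerset, ENNReal.ofReal (mu G β S y₀ B) *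
        ∫⁻ g, H B (y₀ + t • stepVec S B + Real.sqrt t • g) ∂gam V := by
  have hF : Measurable (fun y => ∑ B ∈ S.powerset, ENNReal.ofReal (mu G β S y B) * H B y) :=
    Finset.measurable_sum _ fun B _ => ((measurable_mu S B).ennreal_ofReal).mul (hH B)
  rw [planted_eq_density S ht y₀ hF]
  set c := Real.sqrt t with hc
  have hm : ∀ A : Finset V, Measurable (fun g : V → ℝ => H A (y₀ + c • g) *
      ENNReal.ofReal (Real.exp (c * tilt S A g - t * S.card / 2))) := fun A => by
    refine ((hH A).comp ?_).mul (((((measurable_tilt S A).const_mul c).sub_const _).exp).ennreal_ofReal)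
    simpa [add_zero] using measurable_shift c (0 : V → ℝ) y₀
  have h3 : ∀ A ∈ S.powerset, ENNReal.ofReal (mu G β S y₀ A) *
      ∫⁻ g, H A (y₀ + t • stepVec S A + c • g) ∂gam V =
      ∫⁻ g, ENNReal.ofReal (mu G β S y₀ A) * (H A (y₀ + c • g) *
        ENNReal.ofReal (Real.exp (c * tilt S A g - t * S.card / 2))) ∂gam V := by
    intro A _
    rw [planted_shift S A ht y₀ (hH A), lintegral_const_mul _ (hm A)]
  rw [Finset.sum_congr rfl h3, ← lintegral_finsetSum _ (fun A _ => (hm A).const_mul _)]
  refine lintegral_congr fun g => ?_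
  rw [Finset.sum_mul]
  refine Finset.sum_congr rfl fun A _ => ?_
  have hZ := (Zf_pos G β S y₀).ne'
  have hZ' := (Zf_pos G β S (y₀ + c • g)).ne'
  have key : mu G β S (y₀ + c • g) A * (Zf G β S (y₀ + c • g) / Zf G β S y₀ *
      Real.exp (-(t * S.card / 2))) =
      mu G β S y₀ A * Real.exp (c * tilt S A g - t * S.card / 2) := by
    unfold mu wt
    rw [tilt_add_smul, sub_eq_add_neg, Real.exp_add, Real.exp_add]
    field_simp
  have hpos1 : 0 ≤ mu G β S (y₀ + c • g) A := (mu_pos _ _ _ _ _).le
  have hpos2 : 0 ≤ mu G β S y₀ A := (mu_pos _ _ _ _ _).le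
  calc ENNReal.ofReal (mu G β S (y₀ + c • g) A) * H A (y₀ + c • g) *
        ENNReal.ofReal (Zf G β S (y₀ + c • g) / Zf G β S y₀ * Real.exp (-(t * S.card / 2)))
      = H A (y₀ + c • g) * (ENNReal.ofReal (mu G β S (y₀ + c • g) A) *
        ENNReal.ofReal (Zf G β S (y₀ + c • g) / Zf G β S y₀ * Real.exp (-(t * S.card / 2)))) := by
        ring
    _ = H A (y₀ + c • g) * ENNReal.ofReal (mu G β S (y₀ + c • g) A * (Zf G β S (y₀ + c • g) /
        Zf G β S y₀ * Real.exp (-(t * S.card / 2)))) := by
        rw [ENNReal.ofReal_mul hpos1]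
    _ = ENNReal.ofReal (mu G β S y₀ A) * (H A (y₀ + c • g) *
        ENNReal.ofReal (Real.exp (c * tilt S A g - t * S.card / 2))) := by
        rw [key, ENNReal.ofReal_mul hpos2]
        ring

theorem measurable_stepmap (S A : Finset V) (δ : ℝ) :
    Measurable (fun p : (V → ℝ) × (V → ℝ) => p.1 + δ • stepVec S A + Real.sqrt δ • p.2) := by
  refine measurable_pi_lambda _ fun v => ?_
  simp only [Pi.add_apply, Pi.smul_apply, smul_eq_mul]
  exact (((measurable_pi_apply v).comp measurable_fst).add_const _).add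
    (((measurable_pi_apply v).comp measurable_snd).const_mul _)

/-- One integrated step of the exact chain moves the planted law from `t` to `t + δ`. -/
theorem planted_step (S : Finset V) {t δ : ℝ} (ht : 0 ≤ t) (hδ : 0 ≤ δ) (y₀ : V → ℝ)
    {f : (V → ℝ) → ℝ≥0∞} (hf : Measurable f) :
    planted G β S t y₀ (fun y => ∫⁻ ξ, Tstep G β S δ ξ f y ∂gam V) = planted G β S (t + δ) y₀ f := by
  have hjoint : ∀ A : Finset V, Measurable (fun p : (V → ℝ) × (V → ℝ) =>
      f (p.1 + δ • stepVec S A + Real.sqrt δ • p.2)) := fun A => hf.comp (measurable_stepmap S A δ)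
  have hH : ∀ A : Finset V, Measurable (fun y : V → ℝ =>
      ∫⁻ ξ, f (y + δ • stepVec S A + Real.sqrt δ • ξ) ∂gam V) := fun A =>
    (hjoint A).lintegral_prod_right'
  have h1 : ∀ y : V → ℝ, ∫⁻ ξ, Tstep G β S δ ξ f y ∂gam V =
      ∑ A ∈ S.powerset, ENNReal.ofReal (mu G β S y A) *
        ∫⁻ ξ, f (y + δ • stepVec S A + Real.sqrt δ • ξ) ∂gam V := by
    intro y
    unfold Tstep
    rw [lintegral_finsetSum]
    · refine Finset.sum_congr rfl fun A _ => ?_
      rw [lintegral_const_mul]
      exact (hjoint A).comp (measurable_const.prodMk measurable_id)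
    · intro A _
      exact ((hjoint A).comp (measurable_const.prodMk measurable_id)).const_mul _
  simp_rw [h1]
  rw [planted_bayes S ht y₀ _ hH]
  unfold planted
  refine Finset.sum_congr rfl fun A _ => ?_
  congr 1
  have h2 := gauss_add (V := V) (Real.sqrt t) (Real.sqrt δ)
    (fun h => f (y₀ + (t + δ) • stepVec S A + h))
    (hf.comp (measurable_const.add measurable_id))
  rw [Real.sq_sqrt ht, Real.sq_sqrt hδ] at h2
  rw [← h2]
  refine lintegral_congr fun g => lintegral_congr fun ξ => ?_
  congr 1
  rw [add_smul]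
  abel

theorem chainFrom_add (S : Finset V) (δ : ℝ) (i m n : ℕ) (ξ : ℕ → V → ℝ) (f : (V → ℝ) → ℝ≥0∞)
    (y : V → ℝ) :
    chainFrom G β S δ i ξ (m + n) f y = chainFrom G β S δ i ξ m (chainFrom G β S δ (i + m) ξ n f) y := by
  induction n generalizing f with
  | zero => rfl
  | succ n ih =>
    rw [← add_assoc]
    show chainFrom G β S δ i ξ (m + n) (Tstep G β S δ (ξ (i + (m + n))) f) y = _
    rw [ih]
    have : chainFrom G β S δ (i + m) ξ (n + 1) f =
        chainFrom G β S δ (i + m) ξ n (Tstep G β S δ (ξ (i + (m + n))) f) := by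
      funext y'
      show chainFrom G β S δ (i + m) ξ n (Tstep G β S δ (ξ (i + m + n)) f) y' = _
      rw [add_assoc]
    rw [this]

/-- The chain only depends on the noise of its own steps. -/
theorem chainFrom_congr (S : Finset V) (δ : ℝ) (i n : ℕ) {ξ ξ' : ℕ → V → ℝ}
    (h : ∀ j ∈ Finset.Ico i (i + n), ξ j = ξ' j) (f : (V → ℝ) → ℝ≥0∞) (y : V → ℝ) :
    chainFrom G β S δ i ξ n f y = chainFrom G β S δ i ξ' n f y := by
  induction n generalizing f with
  | zero => rfl
  | succ n ih =>
    show chainFrom G β S δ i ξ n (Tstep G β S δ (ξ (i + n)) f) y =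
      chainFrom G β S δ i ξ' n (Tstep G β S δ (ξ' (i + n)) f) y
    rw [h (i + n) (Finset.mem_Ico.mpr ⟨Nat.le_add_right _ _, by omega⟩)]
    exact ih (fun j hj => h j (by
      rw [Finset.mem_Ico] at hj ⊢
      omega)) _

/-- Joint measurability of one step. -/
theorem measurable_Tstep {Ω : Type*} [MeasurableSpace Ω] (S : Finset V) (δ : ℝ)
    (ζ : Ω → V → ℝ) (hζ : Measurable ζ) (F : Ω → (V → ℝ) → ℝ≥0∞)
    (hF : Measurable (Function.uncurry F)) :
    Measurable (Function.uncurry (fun ω => Tstep G β S δ (ζ ω) (F ω))) := by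
  unfold Function.uncurry Tstep
  refine Finset.measurable_sum _ fun A _ => ?_
  refine ((measurable_mu S A).comp measurable_snd).ennreal_ofReal.mul ?_
  have h := hF.comp (f := fun p : Ω × (V → ℝ) => (p.1, p.2 + δ • stepVec S A + Real.sqrt δ • ζ p.1))
    (measurable_fst.prodMk ((measurable_stepmap S A δ).comp
      (measurable_snd.prodMk (hζ.comp measurable_fst))))
  exact h

/-- Joint measurability of the chain. -/
theorem measurable_chainFrom {Ω : Type*} [MeasurableSpace Ω] (S : Finset V) (δ : ℝ) (i n : ℕ)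
    (ξ : Ω → ℕ → V → ℝ) (hξ : Measurable ξ) (F : Ω → (V → ℝ) → ℝ≥0∞)
    (hF : Measurable (Function.uncurry F)) :
    Measurable (Function.uncurry (fun ω => chainFrom G β S δ i (ξ ω) n (F ω))) := by
  induction n generalizing F with
  | zero => exact hF
  | succ n ih =>
    exact ih (fun ω => Tstep G β S δ (ξ ω (i + n)) (F ω))
      (measurable_Tstep S δ _ ((measurable_pi_apply (i + n)).comp hξ) F hF)

/-- Integrating a parameter through the chain. -/
theorem chainFrom_lintegral {Ω : Type*} [MeasurableSpace Ω] (ν : Measure Ω) [SFinite ν]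
    (S : Finset V) (δ : ℝ) (i n : ℕ) (ξ : ℕ → V → ℝ) (f : Ω → (V → ℝ) → ℝ≥0∞)
    (hf : Measurable (Function.uncurry f)) (y : V → ℝ) :
    ∫⁻ ω, chainFrom G β S δ i ξ n (f ω) y ∂ν =
      chainFrom G β S δ i ξ n (fun y' => ∫⁻ ω, f ω y' ∂ν) y := by
  induction n generalizing f with
  | zero => rfl
  | succ n ih =>
    show ∫⁻ ω, chainFrom G β S δ i ξ n (Tstep G β S δ (ξ (i + n)) (f ω)) y ∂ν =
      chainFrom G β S δ i ξ n (Tstep G β S δ (ξ (i + n)) (fun y' => ∫⁻ ω, f ω y' ∂ν)) y
    rw [ih (fun ω => Tstep G β S δ (ξ (i + n)) (f ω))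
      (measurable_Tstep S δ (fun _ => ξ (i + n)) measurable_const f hf)]
    congr 1
    funext y'
    unfold Tstep
    have hm : ∀ A : Finset V, Measurable (fun ω => f ω (y' + δ • stepVec S A + Real.sqrt δ • ξ (i + n))) :=
      fun A => hf.comp (measurable_id.prodMk measurable_const)
    rw [lintegral_finsetSum _ (fun A _ => (hm A).const_mul _)]
    refine Finset.sum_congr rfl fun A _ => ?_
    rw [lintegral_const_mul _ (hm A)]

theorem planted_zero (S : Finset V) (y₀ : V → ℝ) (f : (V → ℝ) → ℝ≥0∞) :
    planted G β S 0 y₀ f = f y₀ := by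
  unfold planted
  simp only [zero_smul, add_zero, Real.sqrt_zero, lintegral_const, measure_univ, mul_one]
  rw [← Finset.sum_mul, ← ENNReal.ofReal_sum_of_nonneg (fun A _ => (mu_pos _ _ _ _ _).le), sum_mu,
    ENNReal.ofReal_one, one_mul]

/-- Law of the exact chain: integrating out the noise of the steps `i, ..., i + n - 1` gives the
planted law at time `n δ`. The test function may depend on the other noise variables. -/
theorem chain_law (S : Finset V) {δ : ℝ} (hδ : 0 ≤ δ) (i n : ℕ) (y₀ : V → ℝ)
    (F : (ℕ → V → ℝ) → (V → ℝ) → ℝ≥0∞) (hF : Measurable (Function.uncurry F))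
    (hdep : ∀ ξ ξ', (∀ j, j ∉ Finset.Ico i (i + n) → ξ j = ξ' j) → F ξ = F ξ') (x : ℕ → V → ℝ) :
    lmarginal (fun _ : ℕ => gam V) (Finset.Ico i (i + n))
        (fun ξ => chainFrom G β S δ i ξ n (F ξ) y₀) x =
      planted G β S (n * δ) y₀ (F x) := by
  induction n generalizing F x with
  | zero =>
    simp only [add_zero, Finset.Ico_self, lmarginal_empty, Nat.cast_zero, zero_mul, planted_zero]
    rfl
  | succ n ih =>
    set j := i + n with hj
    have hjn : j ∉ Finset.Ico i (i + n) := by simp [hj]
    have hIco : Finset.Ico i (i + (n + 1)) = insert j (Finset.Ico i (i + n)) := by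
      ext a
      simp only [Finset.mem_Ico, Finset.mem_insert, hj]
      omega
    have hFx : ∀ ξ, Measurable (F ξ) := fun ξ => hF.comp (measurable_const.prodMk measurable_id)
    -- the new test function
    set F' : (ℕ → V → ℝ) → (V → ℝ) → ℝ≥0∞ :=
      fun ξ y' => ∫⁻ η, Tstep G β S δ η (F ξ) y' ∂gam V with hF'def
    have hT : Measurable (fun p : ((ℕ → V → ℝ) × (V → ℝ)) × (V → ℝ) =>
        Tstep G β S δ p.2 (F p.1.1) p.1.2) := by
      have := measurable_Tstep (G := G) (β := β) S δ
        (fun ω : (ℕ → V → ℝ) × (V → ℝ) => ω.2) measurable_snd (fun ω => F ω.1)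
        (hF.comp (f := fun p : ((ℕ → V → ℝ) × (V → ℝ)) × (V → ℝ) => (p.1.1, p.2))
          ((measurable_fst.comp measurable_fst).prodMk measurable_snd))
      exact this.comp (f := fun p : ((ℕ → V → ℝ) × (V → ℝ)) × (V → ℝ) =>
        (((p.1.1, p.2), p.1.2) : ((ℕ → V → ℝ) × (V → ℝ)) × (V → ℝ)))
        (((measurable_fst.comp measurable_fst).prodMk measurable_snd).prodMk
          (measurable_snd.comp measurable_fst))
    have hF'm : Measurable (Function.uncurry F') := hT.lintegral_prod_right'
    have hdep' : ∀ ξ ξ', (∀ j', j' ∉ Finset.Ico i (i + n) → ξ j' = ξ' j') → F' ξ = F' ξ' := by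
      intro ξ ξ' h
      have : F ξ = F ξ' := hdep ξ ξ' (fun j' hj' => h j' (by
        intro hmem
        apply hj'
        rw [Finset.mem_Ico] at hmem ⊢
        omega))
      simp only [hF'def, this]
    have hfull : Measurable (fun ξ : ℕ → V → ℝ =>
        chainFrom G β S δ i ξ (n + 1) (F ξ) y₀) := by
      have := measurable_chainFrom (G := G) (β := β) S δ i (n + 1) (fun ξ : ℕ → V → ℝ => ξ)
        measurable_id F hF
      exact this.comp (measurable_id.prodMk measurable_const)
    rw [hIco, lmarginal_insert' _ hfull hjn]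
    have hin : (fun ξ : ℕ → V → ℝ => ∫⁻ η, chainFrom G β S δ i (Function.update ξ j η) (n + 1)
        (F (Function.update ξ j η)) y₀ ∂gam V) =
        fun ξ => chainFrom G β S δ i ξ n (F' ξ) y₀ := by
      funext ξ
      have h1 : ∀ η : V → ℝ, chainFrom G β S δ i (Function.update ξ j η) (n + 1)
          (F (Function.update ξ j η)) y₀ = chainFrom G β S δ i ξ n (Tstep G β S δ η (F ξ)) y₀ := by
        intro η
        have h0 : F (Function.update ξ j η) = F ξ := hdep _ _ (fun j' hj' => by
          have : j' ≠ j := by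
            rintro rfl
            exact hj' (Finset.mem_Ico.mpr ⟨by omega, by omega⟩)
          simp [Function.update_of_ne this])
        rw [h0]
        show chainFrom G β S δ i (Function.update ξ j η) n
          (Tstep G β S δ ((Function.update ξ j η) (i + n)) (F ξ)) y₀ = _
        rw [← hj, Function.update_self]
        exact chainFrom_congr S δ i n (fun j' hj' => by
          have : j' ≠ j := by
            rintro rfl
            exact hjn hj'
          simp [Function.update_of_ne this]) _ _
      simp_rw [h1]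
      have hm : Measurable (Function.uncurry (fun η : V → ℝ => Tstep G β S δ η (F ξ))) :=
        measurable_Tstep S δ (fun η : V → ℝ => η) measurable_id (fun _ => F ξ)
          ((hFx ξ).comp measurable_snd)
      exact chainFrom_lintegral (gam V) S δ i n ξ _ hm y₀
    rw [hin, ih F' hF'm hdep' x]
    have : ((n + 1 : ℕ) : ℝ) * δ = n * δ + δ := by push_cast; ring
    rw [this]
    exact planted_step S (by positivity) hδ y₀ (hFx x)

/-- Joint law of the exact chain at two times: a configuration `C` is sampled from the prior, and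
the two values are obtained by independent Gaussian observations. -/
theorem chain_two_time (S : Finset V) {δ : ℝ} (hδ : 0 ≤ δ) (k l : ℕ) (y₀ : V → ℝ)
    (B : (V → ℝ) → (V → ℝ) → ℝ≥0∞) (hB : Measurable (Function.uncurry B)) (x : ℕ → V → ℝ) :
    lmarginal (fun _ : ℕ => gam V) (Finset.range (k + l))
        (fun ξ => chainFrom G β S δ 0 ξ k (fun y => chainFrom G β S δ k ξ l (B y) y) y₀) x =
      ∑ C ∈ S.powerset, ENNReal.ofReal (mu G β S y₀ C) *
        ∫⁻ g₁, ∫⁻ g₂,
          B (y₀ + (k * δ) • stepVec S C + Real.sqrt (k * δ) • g₁)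
            (y₀ + (k * δ) • stepVec S C + Real.sqrt (k * δ) • g₁ +
              (l * δ) • stepVec S C + Real.sqrt (l * δ) • g₂) ∂gam V ∂gam V := by
  have hkδ : (0 : ℝ) ≤ k * δ := by positivity
  have hlδ : (0 : ℝ) ≤ l * δ := by positivity
  have hBy : ∀ y, Measurable (B y) := fun y => hB.comp (measurable_const.prodMk measurable_id)
  -- the inner function
  have hH : ∀ D : Finset V, Measurable (fun y : V → ℝ =>
      ∫⁻ g₂, B y (y + (l * δ) • stepVec S D + Real.sqrt (l * δ) • g₂) ∂gam V) := fun D => by
    have : Measurable (fun p : (V → ℝ) × (V → ℝ) =>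
        B p.1 (p.1 + (l * δ) • stepVec S D + Real.sqrt (l * δ) • p.2)) :=
      hB.comp (measurable_fst.prodMk (measurable_stepmap S D (l * δ)))
    exact this.lintegral_prod_right'
  have hP : ∀ y, planted G β S (l * δ) y (B y) = ∑ D ∈ S.powerset, ENNReal.ofReal (mu G β S y D) *
      ∫⁻ g₂, B y (y + (l * δ) • stepVec S D + Real.sqrt (l * δ) • g₂) ∂gam V := fun y => rfl
  have hPm : Measurable (fun y : V → ℝ => planted G β S (l * δ) y (B y)) := by
    simp_rw [hP]
    exact Finset.measurable_sum _ fun D _ => ((measurable_mu S D).ennreal_ofReal).mul (hH D)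
  -- split the marginal
  have hsplit : Finset.range (k + l) = Finset.Ico 0 k ∪ Finset.Ico k (k + l) := by
    ext a
    simp only [Finset.mem_range, Finset.mem_union, Finset.mem_Ico]
    omega
  have hdisj : Disjoint (Finset.Ico 0 k) (Finset.Ico k (k + l)) := by
    rw [Finset.disjoint_left]
    intro a ha hb
    rw [Finset.mem_Ico] at ha hb
    omega
  have hmeasB : Measurable (Function.uncurry (fun (ξ : ℕ → V → ℝ) y =>
      chainFrom G β S δ k ξ l (B y) y)) := by
    have := measurable_chainFrom (G := G) (β := β) S δ k l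
      (fun ω : (ℕ → V → ℝ) × (V → ℝ) => ω.1) measurable_fst
      (fun ω => B ω.2) (hB.comp (f := fun p : ((ℕ → V → ℝ) × (V → ℝ)) × (V → ℝ) => (p.1.2, p.2))
        ((measurable_snd.comp measurable_fst).prodMk measurable_snd))
    exact this.comp (f := fun p : (ℕ → V → ℝ) × (V → ℝ) =>
      (((p.1, p.2), p.2) : ((ℕ → V → ℝ) × (V → ℝ)) × (V → ℝ)))
      ((measurable_fst.prodMk measurable_snd).prodMk measurable_snd)
  have hfull : Measurable (fun ξ : ℕ → V → ℝ =>
      chainFrom G β S δ 0 ξ k (fun y => chainFrom G β S δ k ξ l (B y) y) y₀) := by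
    have := measurable_chainFrom (G := G) (β := β) S δ 0 k (fun ξ : ℕ → V → ℝ => ξ)
      measurable_id (fun (ξ : ℕ → V → ℝ) y => chainFrom G β S δ k ξ l (B y) y) hmeasB
    exact this.comp (measurable_id.prodMk measurable_const)
  rw [hsplit, lmarginal_union _ _ hfull hdisj]
  -- integrate the later noise
  have hinner : lmarginal (fun _ : ℕ => gam V) (Finset.Ico k (k + l))
      (fun ξ => chainFrom G β S δ 0 ξ k (fun y => chainFrom G β S δ k ξ l (B y) y) y₀) =
      fun ξ => chainFrom G β S δ 0 ξ k (fun y => planted G β S (l * δ) y (B y)) y₀ := by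
    funext x'
    have h1 : ∀ y, lmarginal (fun _ : ℕ => gam V) (Finset.Ico k (k + l))
        (fun ξ => chainFrom G β S δ k ξ l (B y) y) x' = planted G β S (l * δ) y (B y) := fun y =>
      chain_law S hδ k l y (fun _ => B y)
        ((hBy y).comp measurable_snd) (fun _ _ _ => rfl) x'
    simp_rw [← h1]
    simp only [lmarginal]
    have h2 : ∀ z : (i : ↥(Finset.Ico k (k + l))) → V → ℝ,
        chainFrom G β S δ 0 (Function.updateFinset x' (Finset.Ico k (k + l)) z) k
          (fun y => chainFrom G β S δ k (Function.updateFinset x' (Finset.Ico k (k + l)) z) l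
            (B y) y) y₀ =
        chainFrom G β S δ 0 x' k
          (fun y => chainFrom G β S δ k (Function.updateFinset x' (Finset.Ico k (k + l)) z) l
            (B y) y) y₀ := by
      intro z
      refine chainFrom_congr S δ 0 k (fun j hj => ?_) _ _
      have : j ∉ Finset.Ico k (k + l) := by
        rw [Finset.mem_Ico] at hj ⊢
        omega
      simp [Function.updateFinset, this]
    simp_rw [h2]
    have hupd : Measurable (fun z : (i : ↥(Finset.Ico k (k + l))) → V → ℝ =>
        Function.updateFinset x' (Finset.Ico k (k + l)) z) := measurable_updateFinset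
    have hm : Measurable (Function.uncurry (fun (z : (i : ↥(Finset.Ico k (k + l))) → V → ℝ) y =>
        chainFrom G β S δ k (Function.updateFinset x' (Finset.Ico k (k + l)) z) l (B y) y)) :=
      hmeasB.comp (f := fun p : ((i : ↥(Finset.Ico k (k + l))) → V → ℝ) × (V → ℝ) =>
        (Function.updateFinset x' (Finset.Ico k (k + l)) p.1, p.2))
        ((hupd.comp measurable_fst).prodMk measurable_snd)
    exact chainFrom_lintegral _ S δ 0 k x' _ hm y₀
  rw [hinner]
  have houter := chain_law (G := G) (β := β) S hδ 0 k y₀ (fun _ y => planted G β S (l * δ) y (B y))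
    (hPm.comp measurable_snd) (fun _ _ _ => rfl) x
  rw [zero_add] at houter
  rw [houter]
  simp_rw [hP]
  rw [planted_bayes S hkδ y₀ _ hH]

end Vale.Agent.Lib.P161
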