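import Vale.Agent.Lib.P161.StaticAlg
import Vale.Agent.Lib.P161.Planted

/-! The static bound: under the planted law on the big set, the linear functional of the difference
between the mean spins of the big and of the small measure is small. -/

open MeasureTheory Finset
open scoped Classical ENNReal

noncomputable section

namespace Vale.Agent.Lib.P161

variable {V : Type*} {G : SimpleGraph V} {β : ℝ}

/-- Exponential moment of the outer field. -/
theorem lintegral_exp_tilt (O C : Finset V) {t : ℝ} (ht : 0 ≤ t) :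
    ∫⁻ g, ENNReal.ofReal (Real.exp (tilt O C (Real.sqrt t • g)) * Real.exp (-(t * O.card / 2)))
      ∂gam V = 1 := by
  have h := cameron_martin O (Real.sqrt t • stepVec O C)
    (fun v hv => by simp [stepVec, hv]) (fun _ => (1 : ℝ≥0∞)) measurable_const
  simp only [lintegral_const, measure_univ, mul_one, one_mul] at h
  rw [h]
  refine lintegral_congr fun g => ?_
  congr 1
  rw [← Real.exp_add]
  congr 1
  unfold tilt
  have hsq : Real.sqrt t ^ 2 = t := Real.sq_sqrt ht
  have e : -(t * (O.card : ℝ) / 2) = ∑ _v ∈ O, -(t / 2) := by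
    rw [Finset.sum_const, nsmul_eq_mul]; ring
  rw [e, ← Finset.sum_add_distrib]
  refine Finset.sum_congr rfl fun v hv => ?_
  simp only [Pi.smul_apply, smul_eq_mul, stepVec, if_pos hv]
  have hs2 : sp C v ^ 2 = 1 := by
    have := sp_mul_self C v
    nlinarith
  have e2 : (Real.sqrt t * sp C v) ^ 2 = t := by
    rw [mul_pow, hsq, hs2, mul_one]
  rw [e2]
  ring

theorem planted_one (S : Finset V) (t : ℝ) (y₀ : V → ℝ) :
    planted G β S t y₀ (fun _ => 1) = 1 := by
  unfold planted
  simp only [lintegral_const, measure_univ, mul_one]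
  rw [← ENNReal.ofReal_sum_of_nonneg (fun A _ => (mu_pos _ _ _ _ _).le), sum_mu]
  simp

/-- The static bound, with the variance bound as an input. -/
theorem static_bound (hT : G.IsTree) {S O B : Finset V} {r : V} (hd : Disjoint S O) (hB : B ⊆ S)
    (hedge : ∀ u ∈ S, ∀ v ∈ O, G.Adj u v → u ∈ B) (hr : r ∈ S) (hS : Star G r S)
    (hS' : Star G r (S ∪ O)) {t : ℝ} (ht : 0 ≤ t) (a : (V → ℝ) → V → ℝ)
    (ha : ∀ v, Measurable fun y => a y v)
    (hadep : ∀ y y', (∀ v ∈ S, y v = y' v) → a y = a y') {ε2 : ℝ} (hε : 0 ≤ ε2)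
    (hVar : ∀ y, Ee G β S y (fun A => (condLin G β S B y (a y) (A ∩ B) -
      Ee G β S y (fun A => condLin G β S B y (a y) (A ∩ B))) ^ 2) ≤ ε2) :
    planted G β (S ∪ O) t 0 (fun y => ENNReal.ofReal
      ((∑ v ∈ S, a y v * (mean G β (S ∪ O) y v - mean G β S y v)) ^ 2)) ≤ ENNReal.ofReal ε2 := by
  set F : (V → ℝ) → ℝ≥0∞ := fun y => ENNReal.ofReal
      ((∑ v ∈ S, a y v * (mean G β (S ∪ O) y v - mean G β S y v)) ^ 2) with hF
  have hFm : Measurable F := by
    refine ENNReal.measurable_ofReal.comp (Measurable.pow_const ?_ 2)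
    refine Finset.measurable_sum _ fun v _ => (ha v).mul ?_
    exact (measurable_mean _ v).sub (measurable_mean _ v)
  rw [planted_eq_density (S ∪ O) ht 0 hFm]
  simp only [zero_add]
  set sq := Real.sqrt t
  have hsq : sq * sq = t := Real.mul_self_sqrt ht
  set Q : (V → ℝ) → ℝ≥0∞ := fun g => F (sq • g) *
      ENNReal.ofReal (Zf G β (S ∪ O) (sq • g) / Zf G β (S ∪ O) 0 *
        Real.exp (-(t * ((S ∪ O).card : ℝ) / 2))) with hQ
  have hsmul : Measurable (fun g : V → ℝ => sq • g) := by fun_prop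
  have hQm : Measurable Q := by
    refine (hFm.comp hsmul).mul (ENNReal.measurable_ofReal.comp ?_)
    exact ((measurable_Zf _).comp hsmul).div_const _ |>.mul_const _
  rw [gauss_mix S Q hQm]
  -- the constants
  have hcard : ((S ∪ O).card : ℝ) = S.card + O.card := by
    rw [Finset.card_union_of_disjoint hd]; push_cast; ring
  have hsd : (S ∪ O) \ S = O := by
    ext x
    simp only [Finset.mem_sdiff, Finset.mem_union]
    constructor
    · rintro ⟨h1 | h1, h2⟩
      · exact absurd h1 h2
      · exact h1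
    · intro h
      exact ⟨Or.inr h, fun h' => Finset.disjoint_left.mp hd h' h⟩
  have hZ0 : Zf G β (S ∪ O) 0 = (2 * Real.cosh β) ^ O.card * Zf G β S 0 := by
    have := Zf_zero_peel (β := β) hT hr hS (Finset.subset_union_left) hS'
    rwa [hsd] at this
  have hZS0 := Zf_pos G β S 0
  have hcosh : 0 < (2 * Real.cosh β) ^ O.card := by
    have := Real.cosh_pos β
    positivity
  -- inner integral
  have hinner : ∀ g₁ : V → ℝ, ∫⁻ g₂, Q (fun v => if v ∈ S then g₁ v else g₂ v) ∂gam V ≤
      ENNReal.ofReal ε2 * ENNReal.ofReal (Zf G β S (sq • g₁) / Zf G β S 0 *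
        Real.exp (-(t * (S.card : ℝ) / 2))) := by
    intro g₁
    set Y := sq • g₁ with hY
    set a₀ := a Y with ha₀
    set c₁ := Real.exp (-(t * (S.card : ℝ) / 2)) with hc₁
    set c₂ := Real.exp (-(t * (O.card : ℝ) / 2)) with hc₂
    have hc₁p : 0 < c₁ := Real.exp_pos _
    have hc₂p : 0 < c₂ := Real.exp_pos _
    set K : Finset V → ℝ := fun A => wt G β S Y A *
      (condLin G β S B Y a₀ (A ∩ B) - Ee G β S Y (fun A => condLin G β S B Y a₀ (A ∩ B))) ^ 2
      with hK
    have hK0 : ∀ A, 0 ≤ K A := fun A => mul_nonneg (wt_pos _ _ _ _ _).le (sq_nonneg _)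
    set Z0' := Zf G β (S ∪ O) 0 with hZ0'
    have hZ0'p : 0 < Z0' := Zf_pos _ _ _ _
    -- pointwise bound
    have hpt : ∀ g₂ : V → ℝ, Q (fun v => if v ∈ S then g₁ v else g₂ v) ≤
        ∑ A ∈ S.powerset, ∑ C ∈ O.powerset,
          ENNReal.ofReal (K A * exch G β B O (A ∩ B) C * c₁ / Z0') *
            ENNReal.ofReal (Real.exp (tilt O C (sq • g₂)) * c₂) := by
      intro g₂
      set y := sq • (fun v => if v ∈ S then g₁ v else g₂ v) with hy
      have hyS : ∀ v ∈ S, y v = Y v := by
        intro v hv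
        simp [hy, hY, hv]
      have hyO : ∀ v ∈ O, y v = (sq • g₂) v := by
        intro v hv
        have : v ∉ S := fun h => Finset.disjoint_right.mp hd hv h
        simp [hy, this]
      have hay : a y = a₀ := hadep y Y hyS
      have hp := static_pointwise (G := G) (β := β) hd hB hedge y a₀
      -- replace the small measure quantities
      have hm : ∀ v, mean G β S y v = mean G β S Y v := fun v => Ee_congr S hyS _
      have hcl : ∀ τ, condLin G β S B y a₀ τ = condLin G β S B Y a₀ τ := fun τ =>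
        condLin_congr S B τ hyS a₀
      have hE : ∀ f, Ee G β S y f = Ee G β S Y f := fun f => Ee_congr S hyS f
      have hw : ∀ A, wt G β S y A = wt G β S Y A := fun A => wt_congr S A hyS
      have houter : ∀ τ, outerSum G β B O y τ =
          ∑ C ∈ O.powerset, exch G β B O τ C * Real.exp (tilt O C (sq • g₂)) := by
        intro τ
        refine Finset.sum_congr rfl fun C _ => ?_
        rw [tilt_congr O C hyO]
      simp only [hm, hcl, hE, hw, houter] at hp
      -- the left side
      have hQeq : Q (fun v => if v ∈ S then g₁ v else g₂ v) =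
          ENNReal.ofReal ((∑ v ∈ S, a₀ v * (mean G β (S ∪ O) y v - mean G β S Y v)) ^ 2 *
            Zf G β (S ∪ O) y * (c₁ * c₂) / Z0') := by
        simp only [hQ, hF, ← hy]
        rw [hay, ← ENNReal.ofReal_mul (sq_nonneg _)]
        simp only [hm]
        congr 1
        have e : Real.exp (-(t * ((S ∪ O).card : ℝ) / 2)) = c₁ * c₂ := by
          rw [hc₁, hc₂, ← Real.exp_add, hcard]
          congr 1
          ring
        rw [e]
        ring
      rw [hQeq]
      -- the right side
      have hRHS : ∑ A ∈ S.powerset, ∑ C ∈ O.powerset,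
          ENNReal.ofReal (K A * exch G β B O (A ∩ B) C * c₁ / Z0') *
            ENNReal.ofReal (Real.exp (tilt O C (sq • g₂)) * c₂) =
          ENNReal.ofReal (∑ A ∈ S.powerset, ∑ C ∈ O.powerset,
            K A * exch G β B O (A ∩ B) C * c₁ / Z0' * (Real.exp (tilt O C (sq • g₂)) * c₂)) := by
        have hterm : ∀ A C, 0 ≤ K A * exch G β B O (A ∩ B) C * c₁ / Z0' := fun A C => by
          have := hK0 A
          have := exch_pos (G := G) (β := β) (A ∩ B) C B O
          positivity
        rw [ENNReal.ofReal_sum_of_nonneg]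
        · refine Finset.sum_congr rfl fun A _ => ?_
          rw [ENNReal.ofReal_sum_of_nonneg]
          · refine Finset.sum_congr rfl fun C _ => ?_
            rw [ENNReal.ofReal_mul (hterm A C)]
          · intro C _
            exact mul_nonneg (hterm A C) (by positivity)
        · intro A _
          refine Finset.sum_nonneg fun C _ => mul_nonneg (hterm A C) (by positivity)
      rw [hRHS]
      apply ENNReal.ofReal_le_ofReal
      have hmul := mul_le_mul_of_nonneg_right hp (by positivity : 0 ≤ c₁ * c₂ / Z0')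
      refine (le_of_eq ?_).trans (hmul.trans (le_of_eq ?_))
      · ring
      · rw [Finset.sum_mul]
        refine Finset.sum_congr rfl fun A _ => ?_
        rw [Finset.mul_sum, Finset.sum_mul]
        refine Finset.sum_congr rfl fun C _ => ?_
        simp only [hK]
        ring
    refine (lintegral_mono hpt).trans ?_
    -- integrate the sum
    have hmeasT : ∀ C : Finset V, Measurable fun g₂ : V → ℝ =>
        ENNReal.ofReal (Real.exp (tilt O C (sq • g₂)) * c₂) := by
      intro C
      refine ENNReal.measurable_ofReal.comp (Measurable.mul_const ?_ _)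
      refine Real.measurable_exp.comp ?_
      unfold tilt
      refine Finset.measurable_sum _ fun v _ => Measurable.mul_const ?_ _
      exact (measurable_pi_apply v).comp hsmul
    rw [lintegral_finset_sum _ (fun A _ =>
      Finset.measurable_sum _ fun C _ => (hmeasT C).const_mul _)]
    have hint : ∀ A ∈ S.powerset, ∫⁻ g₂, ∑ C ∈ O.powerset,
        ENNReal.ofReal (K A * exch G β B O (A ∩ B) C * c₁ / Z0') *
          ENNReal.ofReal (Real.exp (tilt O C (sq • g₂)) * c₂) ∂gam V =
        ENNReal.ofReal (K A * c₁ / Zf G β S 0) := by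
      intro A hA
      rw [lintegral_finset_sum _ (fun C _ => (hmeasT C).const_mul _)]
      have h1 : ∀ C ∈ O.powerset, ∫⁻ g₂, ENNReal.ofReal (K A * exch G β B O (A ∩ B) C * c₁ / Z0') *
          ENNReal.ofReal (Real.exp (tilt O C (sq • g₂)) * c₂) ∂gam V =
          ENNReal.ofReal (K A * exch G β B O (A ∩ B) C * c₁ / Z0') := by
        intro C _
        rw [lintegral_const_mul _ (hmeasT C), lintegral_exp_tilt O C ht, mul_one]
      rw [Finset.sum_congr rfl h1, ← ENNReal.ofReal_sum_of_nonneg]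
      · congr 1
        have h2 := sum_exch (G := G) (β := β) hT hd hB hedge hr hS hS' (Finset.mem_powerset.mp hA)
        have e : ∑ C ∈ O.powerset, K A * exch G β B O (A ∩ B) C * c₁ / Z0' =
            K A * c₁ / Z0' * ∑ C ∈ O.powerset, exch G β B O (A ∩ B) C := by
          rw [Finset.mul_sum]
          exact Finset.sum_congr rfl fun C _ => by ring
        rw [e, h2, hZ0]
        field_simp
      · intro C _
        have := hK0 A
        have := exch_pos (G := G) (β := β) (A ∩ B) C B O
        positivity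
    rw [Finset.sum_congr rfl hint, ← ENNReal.ofReal_sum_of_nonneg]
    · rw [← ENNReal.ofReal_mul hε]
      apply ENNReal.ofReal_le_ofReal
      have hVar' := hVar Y
      rw [← ha₀] at hVar'
      have hsumK : ∑ A ∈ S.powerset, K A = Zf G β S Y * Ee G β S Y (fun A =>
          (condLin G β S B Y a₀ (A ∩ B) - Ee G β S Y (fun A => condLin G β S B Y a₀ (A ∩ B))) ^ 2) := by
        rw [Ee_eq]
        have := Zf_pos G β S Y
        field_simp
        simp only [hK]
      have hZY := Zf_pos G β S Y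
      have e : ∑ A ∈ S.powerset, K A * c₁ / Zf G β S 0 =
          (∑ A ∈ S.powerset, K A) * (c₁ / Zf G β S 0) := by
        rw [Finset.sum_mul]
        exact Finset.sum_congr rfl fun A _ => by ring
      rw [e, hsumK]
      have hcoef : 0 ≤ Zf G β S Y / Zf G β S 0 * c₁ := by positivity
      calc _ = (Ee G β S Y (fun A => (condLin G β S B Y a₀ (A ∩ B) -
              Ee G β S Y (fun A => condLin G β S B Y a₀ (A ∩ B))) ^ 2)) *
            (Zf G β S Y / Zf G β S 0 * c₁) := by ring
        _ ≤ ε2 * (Zf G β S Y / Zf G β S 0 * c₁) := mul_le_mul_of_nonneg_right hVar' hcoef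
    · intro A _
      have := hK0 A
      positivity
  refine (lintegral_mono hinner).trans ?_
  have hmeasZ : Measurable fun g₁ : V → ℝ => ENNReal.ofReal (Zf G β S (sq • g₁) / Zf G β S 0 *
        Real.exp (-(t * (S.card : ℝ) / 2))) := by
    refine ENNReal.measurable_ofReal.comp ?_
    exact ((measurable_Zf _).comp hsmul).div_const _ |>.mul_const _
  rw [lintegral_const_mul _ hmeasZ]
  have h1 := planted_eq_density (G := G) (β := β) S ht 0 (F := fun _ => 1) measurable_const
  simp only [zero_add, one_mul] at h1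
  rw [← h1, planted_one, mul_one]

/-- The convolution constant. -/
def convC (d : ℕ) (κ ρ : ℝ) : ℝ := (1 - κ ^ 2) / ((1 - κ / ρ) * (1 - ((d : ℝ) - 1) * κ * ρ))

theorem Ee_var (S : Finset V) (y : V → ℝ) (f : Finset V → ℝ) :
    Ee G β S y (fun A => (f A - Ee G β S y f) ^ 2) =
      Ee G β S y (fun A => f A * f A) - Ee G β S y f * Ee G β S y f := by
  set c := Ee G β S y f
  have e : (fun A => (f A - c) ^ 2) = fun A => (f A * f A - f A * (2 * c)) + c ^ 2 := by
    funext A; ring
  rw [e, Ee_add, Ee_sub, Ee_mul_const, Ee_const]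
  ring

section ball

variable [G.LocallyFinite] {d : ℕ} {κ ρ : ℝ}

/-- Bound on the variance of the conditional mean given the sphere. -/
theorem var_ball_bound (hT : G.IsTree) (hd : 2 ≤ d) (hreg : G.IsRegularOfDegree d) (hβ : 0 ≤ β)
    (hθκ : Real.tanh β ≤ κ) (hκ : 0 < κ) (hκρ : κ < ρ) (hρ : ρ < 1)
    (hdκρ : ((d : ℝ) - 1) * κ * ρ < 1) (r : V) (n : ℕ) (y a : V → ℝ) {A₀ : ℝ} (hA₀ : 0 ≤ A₀)
    (ha : ∀ v, |a v| ≤ A₀ * ρ ^ G.dist v r) :
    Ee G β (ball G r n) y (fun A =>
      (condLin G β (ball G r n) ((ball G r n).filter fun v => G.dist r v = n) y a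
          (A ∩ (ball G r n).filter fun v => G.dist r v = n) -
        Ee G β (ball G r n) y (fun A =>
          condLin G β (ball G r n) ((ball G r n).filter fun v => G.dist r v = n) y a
            (A ∩ (ball G r n).filter fun v => G.dist r v = n))) ^ 2) ≤
      2 * A₀ ^ 2 * convC d κ ρ ^ 3 * (((d : ℝ) - 1) * ρ ^ 2) ^ n := by
  set S := ball G r n with hS
  set B := S.filter fun v => G.dist r v = n with hB
  have hBS : B ⊆ S := Finset.filter_subset _ _
  have hρ0 : 0 < ρ := hκ.trans hκρ
  have hθ0 : 0 ≤ Real.tanh β := by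
    rw [Real.tanh_eq_sinh_div_cosh]
    exact div_nonneg (Real.sinh_nonneg_iff.mpr hβ) (Real.cosh_pos β).le
  set C := convC d κ ρ with hC
  have hκ1 : κ < 1 := hκρ.trans hρ
  have hC0 : 0 ≤ C := by
    have h1 : 0 < 1 - κ / ρ := by
      rw [sub_pos, div_lt_one hρ0]; exact hκρ
    have h2 : 0 < 1 - ((d : ℝ) - 1) * κ * ρ := by linarith
    have h3 : 0 < 1 - κ ^ 2 := by nlinarith
    simp only [hC, convC]
    positivity
  have hconv : ∀ (T : Finset V) (x : V), ∑ u ∈ T, κ ^ G.dist x u * ρ ^ G.dist u r ≤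
      C * ρ ^ G.dist x r := fun T x => conv_bound hT hd hreg hκ hκρ hρ hdκρ r x T
  have hdistB : ∀ w ∈ B, G.dist w r = n := by
    intro w hw
    rw [SimpleGraph.dist_comm]
    exact (Finset.mem_filter.mp hw).2
  set L₀ := A₀ * (C * ρ ^ n) with hL₀
  have hL₀0 : 0 ≤ L₀ := by positivity
  have hθpow : ∀ k, Real.tanh β ^ k ≤ κ ^ k := fun k => pow_le_pow_left₀ hθ0 hθκ k
  have hL : ∀ w ∈ B, ∑ v ∈ S, |a v| * Real.tanh β ^ G.dist w v ≤ L₀ := by
    intro w hw
    calc ∑ v ∈ S, |a v| * Real.tanh β ^ G.dist w v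
        ≤ ∑ v ∈ S, A₀ * (κ ^ G.dist w v * ρ ^ G.dist v r) := by
          refine Finset.sum_le_sum fun v _ => ?_
          calc |a v| * Real.tanh β ^ G.dist w v
              ≤ (A₀ * ρ ^ G.dist v r) * κ ^ G.dist w v :=
                mul_le_mul (ha v) (hθpow _) (pow_nonneg hθ0 _) (by positivity)
            _ = _ := by ring
      _ = A₀ * ∑ v ∈ S, κ ^ G.dist w v * ρ ^ G.dist v r := by rw [Finset.mul_sum]
      _ ≤ A₀ * (C * ρ ^ G.dist w r) := mul_le_mul_of_nonneg_left (hconv S w) hA₀
      _ = L₀ := by rw [hdistB w hw]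
  have hvar := var_condLin_le (G := G) hT hβ hBS y a (fun _ => L₀) hL
  rw [Ee_var]
  refine hvar.trans ?_
  -- the sum over the sphere
  have hinner : ∀ w ∈ B, ∑ w' ∈ B, Real.tanh β ^ G.dist w w' ≤ C := by
    intro w hw
    have h1 := hconv B w
    rw [hdistB w hw] at h1
    have h2 : ∑ u ∈ B, κ ^ G.dist w u * ρ ^ G.dist u r = (∑ u ∈ B, κ ^ G.dist w u) * ρ ^ n := by
      rw [Finset.sum_mul]
      exact Finset.sum_congr rfl fun u hu => by rw [hdistB u hu]
    rw [h2] at h1
    have h3 : ∑ u ∈ B, κ ^ G.dist w u ≤ C := le_of_mul_le_mul_right h1 (by positivity)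
    exact (Finset.sum_le_sum fun u _ => hθpow _).trans h3
  have hcard : (B.card : ℝ) ≤ 2 * ((d : ℝ) - 1) ^ n := by
    have h1 := card_sphere_le hT hd hreg r n
    have h2 : (1 : ℝ) ≤ d := by
      have : (2 : ℝ) ≤ d := by exact_mod_cast hd
      linarith
    calc (B.card : ℝ) ≤ ((2 * (d - 1) ^ n : ℕ) : ℝ) := by exact_mod_cast h1
      _ = _ := by
        push_cast [Nat.cast_sub (by omega : 1 ≤ d)]
        ring
  calc ∑ w ∈ B, ∑ w' ∈ B, L₀ * L₀ * Real.tanh β ^ G.dist w w'
      ≤ ∑ _w ∈ B, L₀ * L₀ * C := by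
        refine Finset.sum_le_sum fun w hw => ?_
        rw [← Finset.mul_sum]
        exact mul_le_mul_of_nonneg_left (hinner w hw) (mul_nonneg hL₀0 hL₀0)
    _ = B.card * (L₀ * L₀ * C) := by rw [Finset.sum_const, nsmul_eq_mul]
    _ ≤ (2 * ((d : ℝ) - 1) ^ n) * (L₀ * L₀ * C) :=
        mul_le_mul_of_nonneg_right hcard (by positivity)
    _ = _ := by
        simp only [hL₀, mul_pow]
        ring

/-- The static bound for the ball. -/
theorem static_ball (hT : G.IsTree) (hd : 2 ≤ d) (hreg : G.IsRegularOfDegree d) (hβ : 0 ≤ β)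
    (hθκ : Real.tanh β ≤ κ) (hκ : 0 < κ) (hκρ : κ < ρ) (hρ : ρ < 1)
    (hdκρ : ((d : ℝ) - 1) * κ * ρ < 1) (r : V) (n : ℕ) {S' : Finset V}
    (hSS' : ball G r n ⊆ S') (hS' : Star G r S') {t : ℝ} (ht : 0 ≤ t)
    (a : (V → ℝ) → V → ℝ) (ha : ∀ v, Measurable fun y => a y v)
    (hadep : ∀ y y', (∀ v ∈ ball G r n, y v = y' v) → a y = a y')
    {A₀ : ℝ} (hA₀ : 0 ≤ A₀) (hab : ∀ y v, |a y v| ≤ A₀ * ρ ^ G.dist v r) :
    planted G β S' t 0 (fun y => ENNReal.ofReal
      ((∑ v ∈ ball G r n, a y v * (mean G β S' y v - mean G β (ball G r n) y v)) ^ 2)) ≤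
      ENNReal.ofReal (2 * A₀ ^ 2 * convC d κ ρ ^ 3 * (((d : ℝ) - 1) * ρ ^ 2) ^ n) := by
  set S := ball G r n with hS
  set O := S' \ S with hO
  have hU : S ∪ O = S' := Finset.union_sdiff_of_subset hSS'
  have hd' : Disjoint S O := Finset.disjoint_sdiff
  set B := S.filter fun v => G.dist r v = n with hB
  have hr : r ∈ S := by
    rw [hS, mem_ball hT]; simp
  have hStarS : Star G r S := star_ball hT hr
  have hedge : ∀ u ∈ S, ∀ v ∈ O, G.Adj u v → u ∈ B := by
    intro u hu v hv huv
    have h1 : G.dist r u ≤ n := (mem_ball hT).mp hu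
    have h2 : ¬ G.dist r v ≤ n := by
      intro h
      exact (Finset.mem_sdiff.mp hv).2 ((mem_ball hT).mpr h)
    have h3 := hT.dist_eq_dist_add_one_of_adj r huv
    refine Finset.mem_filter.mpr ⟨hu, ?_⟩
    omega
  have hpos : 0 ≤ 2 * A₀ ^ 2 * convC d κ ρ ^ 3 * (((d : ℝ) - 1) * ρ ^ 2) ^ n := by
    have hρ0 : 0 < ρ := hκ.trans hκρ
    have hκ1 : κ < 1 := hκρ.trans hρ
    have h1 : 0 < 1 - κ / ρ := by
      rw [sub_pos, div_lt_one hρ0]; exact hκρ
    have h2 : 0 < 1 - ((d : ℝ) - 1) * κ * ρ := by linarith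
    have h3 : 0 < 1 - κ ^ 2 := by nlinarith
    have h4 : 0 ≤ convC d κ ρ := by
      simp only [convC]; positivity
    have h5 : (0 : ℝ) ≤ (d : ℝ) - 1 := by
      have : (2 : ℝ) ≤ d := by exact_mod_cast hd
      linarith
    positivity
  have key := static_bound (G := G) (β := β) hT hd' (Finset.filter_subset _ _) hedge hr hStarS
    (by rw [hU]; exact hS') ht a ha hadep hpos
    (fun y => var_ball_bound hT hd hreg hβ hθκ hκ hκρ hρ hdκρ r n y (a y) hA₀ (hab y))
  rw [hU] at key
  exact key

end ball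

end Vale.Agent.Lib.P161
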