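import Vale.Agent.Lib.P161.Estimates

/-! One time and two time bounds for the exact chain under the law of the noise array. -/

open MeasureTheory Finset
open scoped Classical ENNReal

noncomputable section

namespace Vale.Agent.Lib.P161

variable {V : Type*} {G : SimpleGraph V} {β : ℝ}

theorem measurable_sgnB : Measurable sgnB := by
  refine measurable_to_bool ?_
  have : sgnB ⁻¹' {true} = Set.Ioi 0 := by
    ext x
    simp [sgnB]
  rw [this]
  exact measurableSet_Ioi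

theorem measurable_chain_inner (S : Finset V) (δ : ℝ) (k l : ℕ)
    (B : (V → ℝ) → (V → ℝ) → ℝ≥0∞) (hB : Measurable (Function.uncurry B)) :
    Measurable (Function.uncurry fun (ξ : ℕ → V → ℝ) (y : V → ℝ) =>
      chainFrom G β S δ k ξ l (B y) y) := by
  have h := measurable_chainFrom (G := G) (β := β) (Ω := (ℕ → V → ℝ) × (V → ℝ)) S δ k l
    (fun ω => ω.1) measurable_fst (fun ω => B ω.2)
    (hB.comp ((measurable_snd.comp measurable_fst).prodMk measurable_snd))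
  have h2 : Measurable (fun p : (ℕ → V → ℝ) × (V → ℝ) => (p, p.2)) :=
    measurable_id.prodMk measurable_snd
  exact h.comp h2

/-- The sign at `r` of the chain varies little after time `k δ`. -/
theorem twoTime {S : Finset V} {r : V} (hr : r ∈ S) {δ : ℝ} (hδ0 : 0 < δ) {k l : ℕ} (hk : 0 < k)
    (hl : 0 < l) :
    ∫⁻ ξ, chainFrom G β S δ 0 ξ k (fun y₁ => chainFrom G β S δ k ξ l
        (fun y₂ => ind (sgnB (y₁ r) ≠ sgnB (y₂ r))) y₁) 0 ∂nu V ≤
      ENNReal.ofReal (1 / (k * δ)) + ENNReal.ofReal (1 / (l * δ)) := by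
  set B : (V → ℝ) → (V → ℝ) → ℝ≥0∞ := fun y₁ y₂ => ind (sgnB (y₁ r) ≠ sgnB (y₂ r)) with hB
  have hsgn : Measurable (fun y : V → ℝ => sgnB (y r)) :=
    measurable_sgnB.comp (measurable_pi_apply r)
  have hBm : Measurable (Function.uncurry B) := by
    refine measurable_ind ?_
    have h1 : Measurable (fun p : (V → ℝ) × (V → ℝ) => sgnB (p.1 r)) := hsgn.comp measurable_fst
    have h2 : Measurable (fun p : (V → ℝ) × (V → ℝ) => sgnB (p.2 r)) := hsgn.comp measurable_snd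
    exact (measurableSet_eq_fun h1 h2).compl
  have hQm : Measurable (fun ξ : ℕ → V → ℝ => chainFrom G β S δ 0 ξ k
      (fun y₁ => chainFrom G β S δ k ξ l (B y₁) y₁) 0) :=
    measurable_chain_at S δ 0 k _ (measurable_chain_inner S δ k l B hBm) 0
  have hdep : ∀ ξ ξ' : ℕ → V → ℝ, (∀ i ∈ Finset.range (k + l), ξ i = ξ' i) →
      chainFrom G β S δ 0 ξ k (fun y₁ => chainFrom G β S δ k ξ l (B y₁) y₁) 0 =
        chainFrom G β S δ 0 ξ' k (fun y₁ => chainFrom G β S δ k ξ' l (B y₁) y₁) 0 := by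
    intro ξ ξ' h
    have h1 : (fun y₁ => chainFrom G β S δ k ξ l (B y₁) y₁) =
        fun y₁ => chainFrom G β S δ k ξ' l (B y₁) y₁ := by
      funext y₁
      refine chainFrom_congr S δ k l (fun j hj => h j ?_) _ _
      rw [Finset.mem_Ico] at hj
      rw [Finset.mem_range]
      omega
    rw [h1]
    refine chainFrom_congr S δ 0 k (fun j hj => h j ?_) _ _
    rw [Finset.mem_Ico] at hj
    rw [Finset.mem_range]
    omega
  rw [lintegral_nu_eq_lmarginal (Finset.range (k + l)) _ hQm hdep 0,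
    chain_two_time S hδ0.le k l 0 B hBm 0]
  set T₁ : ℝ := k * δ with hT₁
  set T₂ : ℝ := l * δ with hT₂
  have hk0 : (0 : ℝ) < k := by exact_mod_cast hk
  have hl0 : (0 : ℝ) < l := by exact_mod_cast hl
  have hT₁0 : 0 < T₁ := by positivity
  have hT₂0 : 0 < T₂ := by positivity
  have hbound : ∀ C ∈ S.powerset, ∫⁻ g₁, ∫⁻ g₂,
      B (0 + T₁ • stepVec S C + Real.sqrt T₁ • g₁)
        (0 + T₁ • stepVec S C + Real.sqrt T₁ • g₁ + T₂ • stepVec S C + Real.sqrt T₂ • g₂)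
        ∂gam V ∂gam V ≤ ENNReal.ofReal (1 / T₁) + ENNReal.ofReal (1 / T₂) := by
    intro C _
    have hs : |stepVec S C r| = 1 := stepVec_abs C hr
    have hpt : ∀ g₁ g₂ : V → ℝ, B (0 + T₁ • stepVec S C + Real.sqrt T₁ • g₁)
        (0 + T₁ • stepVec S C + Real.sqrt T₁ • g₁ + T₂ • stepVec S C + Real.sqrt T₂ • g₂) ≤
        ind (T₁ ≤ |Real.sqrt T₁ * g₁ r|) + ind (T₂ ≤ |Real.sqrt T₂ * g₂ r|) := by
      intro g₁ g₂
      refine le_trans (ind_le_of_imp ?_) (ind_or_le _ _)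
      intro hne
      by_contra hcon
      push Not at hcon
      apply hne
      simp only [Pi.add_apply, Pi.smul_apply, smul_eq_mul, zero_add]
      rw [sgnB_planted hT₁0 hs hcon.1]
      have e : T₁ * stepVec S C r + Real.sqrt T₁ * g₁ r + T₂ * stepVec S C r +
          Real.sqrt T₂ * g₂ r =
          (T₁ + T₂) * stepVec S C r + (Real.sqrt T₁ * g₁ r + Real.sqrt T₂ * g₂ r) := by ring
      rw [e, sgnB_planted (by positivity) hs]
      calc |Real.sqrt T₁ * g₁ r + Real.sqrt T₂ * g₂ r|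
          ≤ |Real.sqrt T₁ * g₁ r| + |Real.sqrt T₂ * g₂ r| := abs_add_le _ _
        _ < T₁ + T₂ := add_lt_add hcon.1 hcon.2
    have hm1 := measurableSet_cheb_time (V := V) r T₁
    have hm2 := measurableSet_cheb_time (V := V) r T₂
    have hi1 := measurable_ind hm1
    have hi2 := measurable_ind hm2
    calc ∫⁻ g₁, ∫⁻ g₂, B (0 + T₁ • stepVec S C + Real.sqrt T₁ • g₁)
          (0 + T₁ • stepVec S C + Real.sqrt T₁ • g₁ + T₂ • stepVec S C + Real.sqrt T₂ • g₂)
          ∂gam V ∂gam V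
        ≤ ∫⁻ g₁, ∫⁻ g₂, (ind (T₁ ≤ |Real.sqrt T₁ * g₁ r|) + ind (T₂ ≤ |Real.sqrt T₂ * g₂ r|))
            ∂gam V ∂gam V :=
          lintegral_mono fun g₁ => lintegral_mono fun g₂ => hpt g₁ g₂
      _ = ∫⁻ g₁, (ind (T₁ ≤ |Real.sqrt T₁ * g₁ r|) + gam V {g₂ : V → ℝ | T₂ ≤ |Real.sqrt T₂ * g₂ r|})
            ∂gam V := by
          refine lintegral_congr fun g₁ => ?_
          rw [lintegral_add_right _ hi2, lintegral_const, measure_univ, mul_one,
            lintegral_ind _ hm2]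
      _ = gam V {g₁ : V → ℝ | T₁ ≤ |Real.sqrt T₁ * g₁ r|} +
            gam V {g₂ : V → ℝ | T₂ ≤ |Real.sqrt T₂ * g₂ r|} := by
          rw [lintegral_add_right _ measurable_const, lintegral_const, measure_univ, mul_one,
            lintegral_ind _ hm1]
      _ ≤ ENNReal.ofReal (1 / T₁) + ENNReal.ofReal (1 / T₂) :=
          add_le_add (cheb_time r hT₁0) (cheb_time r hT₂0)
  calc ∑ C ∈ S.powerset, ENNReal.ofReal (mu G β S 0 C) * ∫⁻ g₁, ∫⁻ g₂,
        B (0 + T₁ • stepVec S C + Real.sqrt T₁ • g₁)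
          (0 + T₁ • stepVec S C + Real.sqrt T₁ • g₁ + T₂ • stepVec S C + Real.sqrt T₂ • g₂)
          ∂gam V ∂gam V
      ≤ ∑ C ∈ S.powerset, ENNReal.ofReal (mu G β S 0 C) *
          (ENNReal.ofReal (1 / T₁) + ENNReal.ofReal (1 / T₂)) :=
        Finset.sum_le_sum fun C hC => mul_le_mul_right (hbound C hC) _
    _ = ENNReal.ofReal (1 / T₁) + ENNReal.ofReal (1 / T₂) := by
        rw [← Finset.sum_mul, sum_ofReal_mu, one_mul]

section withParams

variable [G.LocallyFinite] {S' : Finset V} {d : ℕ} {κ ρ δ : ℝ}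

/-- The event that the Euler scheme is not reliable at `r`, given the tilt value `a`. -/
def unreliable (T Z a : ℝ) : Prop := |Z| < T / 4 ∨ sgnB Z ≠ sgnB a

theorem unreliable_le {T Z a : ℝ} (hT : 0 < T) :
    ind (unreliable T Z a) ≤ ind (|a| < T / 2) +
      ENNReal.ofReal (1 / (T / 4) ^ 2) * ENNReal.ofReal ((a - Z) ^ 2) := by
  refine le_trans (le_trans (ind_le_of_imp (q := |a| < T / 2 ∨ T / 4 ≤ |a - Z|) ?_) (ind_or_le _ _))
    (add_le_add_right (ind_ge_le_sq (by positivity)) _)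
  intro h
  by_contra hcon
  push Not at hcon
  obtain ⟨h1, h2⟩ := hcon
  rcases h with h | h
  · have h3 : |a| ≤ |Z| + |a - Z| := by
      have := abs_add_le Z (a - Z)
      rwa [add_sub_cancel] at this
    linarith
  · apply h
    refine sgnB_eq_of_close (c := T / 2) (by positivity) h1 ?_
    rw [abs_sub_comm]
    linarith

/-- The error bound of the comparison. -/
def errC (d : ℕ) (κ ρ : ℝ) (N : ℕ) (T δ : ℝ) (n : ℕ) : ℝ :=
  6 * T ^ 2 * stat d κ ρ T n + 3 * T * cS N T (convC d κ ρ) * δ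

/-- One time bound: at the centre of a big ball the sign of the Euler scheme on the ball is that of
the exact chain. -/
theorem oneTime (hT : G.IsTree) (hd : 2 ≤ d) (hreg : G.IsRegularOfDegree d) (hβ : 0 ≤ β)
    (hθκ : Real.tanh β ≤ κ) (hκ : 0 < κ) (hκρ : κ < ρ) (hρ : ρ < 1)
    (hdκρ : ((d : ℝ) - 1) * κ * ρ < 1) (r : V) (n : ℕ) (hSS' : ball G r n ⊆ S')
    (hS' : Star G r S') (hδ0 : 0 < δ) (hδ1 : δ ≤ 1) (K : ℕ) (hK : 0 < K) :
    ∫⁻ ξ, chainFrom G β S' δ 0 ξ K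
        (fun y => ind (unreliable (K * δ) (flow G β (ball G r n) δ ξ 0 K 0 r) (y r))) 0 ∂nu V ≤
      ENNReal.ofReal (4 / (K * δ)) + ENNReal.ofReal (1 / ((K * δ) / 4) ^ 2) *
        ENNReal.ofReal (errC d κ ρ (ball G r n).card (K * δ) δ n) := by
  set T : ℝ := K * δ with hTd
  have hK0 : (0 : ℝ) < K := by exact_mod_cast hK
  have hT0 : 0 < T := by positivity
  have hr : r ∈ ball G r n := by rw [mem_ball hT]; simp
  have hrS' : r ∈ S' := hSS' hr
  set Z : (ℕ → V → ℝ) → ℝ := fun ξ => flow G β (ball G r n) δ ξ 0 K 0 r with hZ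
  have hZm : Measurable Z := measurable_flow_noise _ _ _ _
  set c := ENNReal.ofReal (1 / (T / 4) ^ 2) with hc
  have hm1 : Measurable (fun y : V → ℝ => ind (|y r| < T / 2)) :=
    measurable_ind (measurableSet_lt
      (measurable_pi_apply r : Measurable fun y : V → ℝ => y r).abs measurable_const)
  have hm2 : Measurable (Function.uncurry fun (ξ : ℕ → V → ℝ) (y : V → ℝ) =>
      ENNReal.ofReal ((y r - Z ξ) ^ 2)) := by
    refine ENNReal.measurable_ofReal.comp (Measurable.pow_const (Measurable.sub ?_ ?_) 2)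
    · exact (measurable_pi_apply r).comp measurable_snd
    · exact hZm.comp measurable_fst
  have hm3 : Measurable (fun ξ : ℕ → V → ℝ => chainFrom G β S' δ 0 ξ K
      (fun y => ENNReal.ofReal ((y r - Z ξ) ^ 2)) 0) :=
    measurable_chain_at S' δ 0 K _ hm2 0
  have hm4 : Measurable (fun ξ : ℕ → V → ℝ => chainFrom G β S' δ 0 ξ K
      (fun y => ind (|y r| < T / 2)) 0) :=
    measurable_chain_at S' δ 0 K (fun _ y => ind (|y r| < T / 2)) (hm1.comp measurable_snd) 0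
  have hdep : ∀ ξ ξ' : ℕ → V → ℝ, (∀ i ∈ Finset.range K, ξ i = ξ' i) →
      chainFrom G β S' δ 0 ξ K (fun y => ENNReal.ofReal ((y r - Z ξ) ^ 2)) 0 =
        chainFrom G β S' δ 0 ξ' K (fun y => ENNReal.ofReal ((y r - Z ξ') ^ 2)) 0 := by
    intro ξ ξ' h
    have h' : ∀ j ∈ Finset.Ico 0 (0 + K), ξ j = ξ' j := fun j hj => h j (by
      rw [Finset.mem_Ico] at hj
      rw [Finset.mem_range]
      omega)
    have h1 : Z ξ = Z ξ' := by
      simp only [hZ]
      rw [flow_congr_noise _ _ K 0 0 h']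
    rw [h1]
    exact chainFrom_congr S' δ 0 K h' _ _
  calc ∫⁻ ξ, chainFrom G β S' δ 0 ξ K (fun y => ind (unreliable T (Z ξ) (y r))) 0 ∂nu V
      ≤ ∫⁻ ξ, (chainFrom G β S' δ 0 ξ K (fun y => ind (|y r| < T / 2)) 0 +
          c * chainFrom G β S' δ 0 ξ K (fun y => ENNReal.ofReal ((y r - Z ξ) ^ 2)) 0) ∂nu V := by
        refine lintegral_mono fun ξ => ?_
        refine (chainFrom_mono K (fun y => unreliable_le hT0) 0).trans ?_
        rw [chainFrom_add', chainFrom_const_mul]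
    _ = ∫⁻ ξ, chainFrom G β S' δ 0 ξ K (fun y => ind (|y r| < T / 2)) 0 ∂nu V +
          c * ∫⁻ ξ, chainFrom G β S' δ 0 ξ K (fun y => ENNReal.ofReal ((y r - Z ξ) ^ 2)) 0 ∂nu V := by
        rw [lintegral_add_left hm4, lintegral_const_mul _ hm3]
    _ ≤ ENNReal.ofReal (4 / T) + c * ENNReal.ofReal (errC d κ ρ (ball G r n).card T δ n) := by
        refine add_le_add ?_ (mul_le_mul_right ?_ _)
        · rw [lintegral_chain_planted S' hδ0.le K _ hm1]
          exact planted_small hrS' hT0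
        · rw [lintegral_nu_eq_lmarginal (Finset.range K) _ hm3 hdep 0]
          exact compare_flow hT hd hreg hβ hθκ hκ hκρ hρ hdκρ r n hSS' hS' hδ0 hδ1 K hK 0

theorem measurableSet_unreliable {Ω : Type*} [MeasurableSpace Ω] (T : ℝ) {f a : Ω → ℝ}
    (hf : Measurable f) (ha : Measurable a) : MeasurableSet {ω | unreliable T (f ω) (a ω)} := by
  unfold unreliable
  exact (measurableSet_lt hf.abs measurable_const).union
    (measurableSet_eq_fun (measurable_sgnB.comp hf) (measurable_sgnB.comp ha)).compl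

theorem unreliable_chain (T T₂ Z₂ Z₃ a b : ℝ) :
    ind (unreliable T Z₂ Z₃) ≤
      ind (unreliable T Z₂ a) + ind (sgnB a ≠ sgnB b) + ind (unreliable T₂ Z₃ b) := by
  by_cases h1 : unreliable T Z₂ a
  · rw [ind_true h1, add_assoc]
    exact (ind_le_one _).trans le_self_add
  · by_cases h2 : sgnB a ≠ sgnB b
    · rw [ind_true h2]
      refine (ind_le_one _).trans ?_
      exact le_trans le_add_self le_self_add
    · by_cases h3 : unreliable T₂ Z₃ b
      · rw [ind_true h3]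
        exact (ind_le_one _).trans le_add_self
      · rw [ind_false]
        · exact zero_le
        · unfold unreliable at h1 h3 ⊢
          push Not at h1 h2 h3 ⊢
          exact ⟨h1.1, by rw [h1.2, h2, h3.2]⟩

/-- The Euler schemes at two scales have the same sign, outside a small event. -/
theorem wBound (hT : G.IsTree) (hd : 2 ≤ d) (hreg : G.IsRegularOfDegree d) (hβ : 0 ≤ β)
    (hθκ : Real.tanh β ≤ κ) (hκ : 0 < κ) (hκρ : κ < ρ) (hρ : ρ < 1)
    (hdκρ : ((d : ℝ) - 1) * κ * ρ < 1) (r : V) {n₁ n₂ : ℕ} (hn : n₁ ≤ n₂)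
    (hδ0 : 0 < δ) (hδ1 : δ ≤ 1) {k : ℕ} (hk : 0 < k) :
    nu V {ξ | unreliable (k * δ) (flow G β (ball G r n₁) δ ξ 0 k 0 r)
        (flow G β (ball G r n₂) δ ξ 0 (k + k) 0 r)} ≤
      (ENNReal.ofReal (4 / (k * δ)) + ENNReal.ofReal (1 / ((k * δ) / 4) ^ 2) *
        ENNReal.ofReal (errC d κ ρ (ball G r n₁).card (k * δ) δ n₁)) +
      (ENNReal.ofReal (1 / (k * δ)) + ENNReal.ofReal (1 / (k * δ))) +
      (ENNReal.ofReal (4 / (((k + k : ℕ) : ℝ) * δ)) +
        ENNReal.ofReal (1 / ((((k + k : ℕ) : ℝ) * δ) / 4) ^ 2) *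
        ENNReal.ofReal (errC d κ ρ (ball G r n₂).card (((k + k : ℕ) : ℝ) * δ) δ n₂)) := by
  set S := ball G r n₂ with hS
  have hrr : ∀ m, r ∈ ball G r m := fun m => by rw [mem_ball hT]; simp
  have hsub : ball G r n₁ ⊆ S := by
    intro v hv
    rw [hS, mem_ball hT]
    rw [mem_ball hT] at hv
    omega
  have hstar : Star G r S := star_ball hT (hrr n₂)
  set T : ℝ := k * δ with hTd
  set T₂ : ℝ := ((k + k : ℕ) : ℝ) * δ with hT₂d
  set Z₂ : (ℕ → V → ℝ) → ℝ := fun ξ => flow G β (ball G r n₁) δ ξ 0 k 0 r with hZ₂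
  set Z₃ : (ℕ → V → ℝ) → ℝ := fun ξ => flow G β S δ ξ 0 (k + k) 0 r with hZ₃
  have hZ₂m : Measurable Z₂ := measurable_flow_noise _ _ _ _
  have hZ₃m : Measurable Z₃ := measurable_flow_noise _ _ _ _
  have hW : MeasurableSet {ξ | unreliable T (Z₂ ξ) (Z₃ ξ)} :=
    measurableSet_unreliable T hZ₂m hZ₃m
  have hcoord : Measurable (fun p : (ℕ → V → ℝ) × (V → ℝ) => p.2 r) :=
    (measurable_pi_apply r).comp measurable_snd
  set B₁ : (ℕ → V → ℝ) → (V → ℝ) → ℝ≥0∞ := fun ξ y => ind (unreliable T (Z₂ ξ) (y r)) with hB₁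
  set B₃ : (ℕ → V → ℝ) → (V → ℝ) → ℝ≥0∞ := fun ξ y => ind (unreliable T₂ (Z₃ ξ) (y r)) with hB₃
  set B₂ : (V → ℝ) → (V → ℝ) → ℝ≥0∞ := fun y₁ y₂ => ind (sgnB (y₁ r) ≠ sgnB (y₂ r)) with hB₂
  have hB₁m : Measurable (Function.uncurry B₁) :=
    measurable_ind (measurableSet_unreliable T (hZ₂m.comp measurable_fst) hcoord)
  have hB₃m : Measurable (Function.uncurry B₃) :=
    measurable_ind (measurableSet_unreliable T₂ (hZ₃m.comp measurable_fst) hcoord)
  have hB₂m : Measurable (Function.uncurry B₂) := by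
    refine measurable_ind ?_
    have h1 : Measurable (fun p : (V → ℝ) × (V → ℝ) => sgnB (p.1 r)) :=
      measurable_sgnB.comp ((measurable_pi_apply r).comp measurable_fst)
    have h2 : Measurable (fun p : (V → ℝ) × (V → ℝ) => sgnB (p.2 r)) :=
      measurable_sgnB.comp ((measurable_pi_apply r).comp measurable_snd)
    exact (measurableSet_eq_fun h1 h2).compl
  have hpt : ∀ ξ, ind (unreliable T (Z₂ ξ) (Z₃ ξ)) ≤
      chainFrom G β S δ 0 ξ k (B₁ ξ) 0 +
      chainFrom G β S δ 0 ξ k (fun y₁ => chainFrom G β S δ k ξ k (B₂ y₁) y₁) 0 +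
      chainFrom G β S δ 0 ξ (k + k) (B₃ ξ) 0 := by
    intro ξ
    calc ind (unreliable T (Z₂ ξ) (Z₃ ξ))
        = chainFrom G β S δ 0 ξ k (fun y₁ => chainFrom G β S δ k ξ k
            (fun _ => ind (unreliable T (Z₂ ξ) (Z₃ ξ))) y₁) 0 := by
          simp only [chainFrom_const]
      _ ≤ chainFrom G β S δ 0 ξ k (fun y₁ => chainFrom G β S δ k ξ k
            (fun y₂ => B₁ ξ y₁ + B₂ y₁ y₂ + B₃ ξ y₂) y₁) 0 :=
          chainFrom_mono k (fun y₁ => chainFrom_mono k (fun y₂ =>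
            unreliable_chain T T₂ (Z₂ ξ) (Z₃ ξ) (y₁ r) (y₂ r)) y₁) 0
      _ = chainFrom G β S δ 0 ξ k (fun y₁ => B₁ ξ y₁ + chainFrom G β S δ k ξ k (B₂ y₁) y₁ +
            chainFrom G β S δ k ξ k (B₃ ξ) y₁) 0 := by
          congr 1
          funext y₁
          rw [chainFrom_add', chainFrom_add', chainFrom_const]
      _ = _ := by
          rw [chainFrom_add', chainFrom_add', chainFrom_add S δ 0 k k, zero_add]
  have hm1 : Measurable (fun ξ => chainFrom G β S δ 0 ξ k (B₁ ξ) 0) :=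
    measurable_chain_at S δ 0 k B₁ hB₁m 0
  have hm2 : Measurable (fun ξ => chainFrom G β S δ 0 ξ k
      (fun y₁ => chainFrom G β S δ k ξ k (B₂ y₁) y₁) 0) :=
    measurable_chain_at S δ 0 k _ (measurable_chain_inner S δ k k B₂ hB₂m) 0
  have hm3 : Measurable (fun ξ => chainFrom G β S δ 0 ξ (k + k) (B₃ ξ) 0) :=
    measurable_chain_at S δ 0 (k + k) B₃ hB₃m 0
  rw [← lintegral_ind _ hW]
  calc ∫⁻ ξ, ind (unreliable T (Z₂ ξ) (Z₃ ξ)) ∂nu V
      ≤ ∫⁻ ξ, (chainFrom G β S δ 0 ξ k (B₁ ξ) 0 +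
          chainFrom G β S δ 0 ξ k (fun y₁ => chainFrom G β S δ k ξ k (B₂ y₁) y₁) 0 +
          chainFrom G β S δ 0 ξ (k + k) (B₃ ξ) 0) ∂nu V := lintegral_mono hpt
    _ = ∫⁻ ξ, chainFrom G β S δ 0 ξ k (B₁ ξ) 0 ∂nu V +
          ∫⁻ ξ, chainFrom G β S δ 0 ξ k (fun y₁ => chainFrom G β S δ k ξ k (B₂ y₁) y₁) 0 ∂nu V +
          ∫⁻ ξ, chainFrom G β S δ 0 ξ (k + k) (B₃ ξ) 0 ∂nu V := by
        rw [lintegral_add_right _ hm3, lintegral_add_left hm1]
    _ ≤ _ := by
        refine add_le_add (add_le_add ?_ ?_) ?_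
        · exact oneTime hT hd hreg hβ hθκ hκ hκρ hρ hdκρ r n₁ hsub hstar hδ0 hδ1 k hk
        · exact twoTime (hsub (hrr n₁)) hδ0 hk hk
        · exact oneTime hT hd hreg hβ hθκ hκ hκρ hρ hdκρ r n₂ (subset_refl _) hstar hδ0 hδ1
            (k + k) (by omega)

end withParams

end Vale.Agent.Lib.P161
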